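import Vale.Agent.P100.Cyl

/-! The blow-up argument on the whole cylinder. -/

open Real Set MeasureTheory Filter Topology

namespace Vale.Agent.P100

lemma blowup {F m : ℝ → ℝ} {K d : ℝ} (hK : 0 < K) (hd : 0 < d) (hF : Monotone F) (h0 : 0 < F 0)
    (hm : Tendsto m atTop (𝓝 0))
    (key : ∀ T η, 0 < η → η ≤ 1 → F (T - η) ≤ K * ((F T - F (T - η)) + (2 / η) ^ d * m T)) :
    False := by
  set μ := 1 + 1 / (2 * K) with hμ
  have hμ1 : 1 < μ := by
    have : 0 < 1 / (2 * K) := by positivity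
    linarith
  have hμ0 : 0 < μ := by linarith
  set r := μ ^ (-d⁻¹) with hr
  have r0 : 0 < r := by positivity
  have r1 : r < 1 := rpow_lt_one_of_one_lt_of_neg hμ1 (by simpa using hd)
  have rd : r ^ d = μ⁻¹ := by
    rw [hr, ← rpow_mul hμ0.le, neg_mul, inv_mul_cancel₀ hd.ne', rpow_neg_one]
  have h2 : (0 : ℝ) < 2 ^ d := by positivity
  obtain ⟨T1, hT1⟩ := eventually_atTop.1
    (hm.eventually (ge_mem_nhds (show (0 : ℝ) < F 0 / (2 * K * 2 ^ d) by positivity)))
  set T0 := max T1 0 with hT0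
  have ind : ∀ k : ℕ, F 0 * μ ^ k ≤ F (T0 + ∑ j ∈ Finset.range k, r ^ j) := by
    intro k
    induction k with
    | zero => simpa using hF (le_max_right T1 0)
    | succ k ih =>
      have s0 : 0 ≤ ∑ j ∈ Finset.range (k + 1), r ^ j := by positivity
      have a1 := key (T0 + ∑ j ∈ Finset.range (k + 1), r ^ j) (r ^ k) (by positivity)
        (pow_le_one₀ r0.le r1.le)
      have a2 := hT1 (T0 + ∑ j ∈ Finset.range (k + 1), r ^ j) (by linarith [le_max_left T1 0])
      have a3 : T0 + ∑ j ∈ Finset.range (k + 1), r ^ j - r ^ k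
          = T0 + ∑ j ∈ Finset.range k, r ^ j := by rw [Finset.sum_range_succ]; ring
      have a4 : (2 / r ^ k) ^ d = 2 ^ d * μ ^ k := by
        rw [div_rpow (by norm_num) (by positivity), ← rpow_pow_comm r0.le, rd, inv_pow,
          div_inv_eq_mul]
      rw [a3, a4] at a1
      have a5 : K * (2 ^ d * μ ^ k * m (T0 + ∑ j ∈ Finset.range (k + 1), r ^ j))
          ≤ F 0 * μ ^ k / 2 := by
        have := mul_le_mul_of_nonneg_left a2 (by positivity : 0 ≤ K * (2 ^ d * μ ^ k))
        refine (le_of_eq (by ring)).trans (this.trans (le_of_eq ?_))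
        field_simp
      have a6 : K * (F 0 * μ ^ (k + 1)) = K * (F 0 * μ ^ k) + F 0 * μ ^ k / 2 := by
        rw [pow_succ, hμ]; field_simp
      have a7 := mul_le_mul_of_nonneg_left ih hK.le
      refine le_of_mul_le_mul_left ?_ hK
      linarith
  have bd : ∀ k : ℕ, F 0 * μ ^ k ≤ F (T0 + (1 - r)⁻¹) := fun k => by
    refine (ind k).trans (hF ?_)
    have := (summable_geometric_of_lt_one r0.le r1).sum_le_tsum (Finset.range k)
      (fun j _ => by positivity)
    rw [tsum_geometric_of_lt_one r0.le r1] at this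
    linarith
  obtain ⟨k, hk⟩ := (((tendsto_pow_atTop_atTop_of_one_lt hμ1).const_mul_atTop h0).eventually_gt_atTop
    (F (T0 + (1 - r)⁻¹))).exists
  exact absurd (bd k) (not_le.2 hk)

lemma log_chain {x y c a T p : ℝ} (hy : 0 < y) (hc : 0 < c) (h : c * exp (a * T) * y ^ p ≤ x) :
    log c + a * T + p * log y ≤ log x := by
  have := log_le_log (by positivity) h
  rwa [log_mul (by positivity) (by positivity), log_mul hc.ne' (exp_pos _).ne', log_exp,
    log_rpow hy] at this

variable {S : Type*} [MeasurableSpace S]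

namespace Geo

variable {g : Geo S}

lemma int_exp {γ : ℝ} (hγ : 0 < γ) : Integrable (fun x : ℝ × S => exp (-γ * x.1)) g.m := by
  have h2 : HH S = Ioi (0 : ℝ) ×ˢ (univ : Set S) := by ext x; simp [HH]
  rw [m, μ, h2, ← Measure.prod_restrict, Measure.restrict_univ]
  exact (exp_neg_integrableOn_Ioi 0 hγ).comp_fst g.σ

lemma src_bound {V : ℝ × S → ℝ} {a p : ℝ} (hp : 0 < p) (mV : Measurable V) (pV : ∀ x, 0 < V x)
    (bV : ∀ T, ∃ C, ∀ x : ℝ × S, x.1 ≤ T → V x ≤ C * exp (g.d / 2 * x.1))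
    (ha : 0 < a + (p - 1) * g.d / 2) (T : ℝ) :
    ∃ B, (∀ x, x.1 ≤ T + 1 → exp (a * x.1) * V x ^ p ≤ B) ∧ (∀ x, x.1 ≤ T → V x ≤ B) ∧
      Integrable (fun x => exp (a * (rm T x).1) * V (rm T x) ^ p) g.m := by
  obtain ⟨C, hC⟩ := bV (T + 1)
  have hd := g.hd
  have hγ : 0 < a + p * (g.d / 2) := by linarith
  have hC0 := abs_nonneg C
  have b1 : ∀ x : ℝ × S, x.1 ≤ T + 1 → V x ≤ |C| * exp (g.d / 2 * x.1) := fun x hx =>
    (hC x hx).trans (mul_le_mul_of_nonneg_right (le_abs_self C) (exp_pos _).le)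
  have b2 : ∀ x : ℝ × S, x.1 ≤ T + 1 →
      exp (a * x.1) * V x ^ p ≤ |C| ^ p * exp ((a + p * (g.d / 2)) * x.1) := fun x hx => by
    have := rpow_le_rpow (pV x).le (b1 x hx) hp.le
    rw [mul_rpow hC0 (exp_pos _).le, ← exp_mul] at this
    refine (mul_le_mul_of_nonneg_left this (exp_pos _).le).trans (le_of_eq ?_)
    rw [mul_left_comm, ← exp_add]; congr 2; ring
  refine ⟨max (|C| ^ p * exp ((a + p * (g.d / 2)) * (T + 1))) (|C| * exp (g.d / 2 * T)),
    fun x hx => le_max_of_le_left ((b2 x hx).trans (by gcongr)),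
    fun x hx => le_max_of_le_right ((b1 x (by linarith)).trans (by gcongr)), ?_⟩
  refine (int_dom (a := fun x => exp (a * (rm T x).1) * V (rm T x) ^ p)
    (((measurable_exp.comp (measurable_fst.const_mul a)).mul (mV.pow_const p)).comp
      (measurable_rm T))
    ((int_exp hγ).const_mul (|C| ^ p * exp ((a + p * (g.d / 2)) * T))) ?_).1
  filter_upwards [g.ae_H] with x hx
  have := pV (rm T x)
  refine ⟨by positivity, (b2 _ (by simp only [rm]; linarith)).trans (le_of_eq ?_)⟩
  rw [mul_assoc, ← exp_add]; congr 2; simp only [rm]; ring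

lemma lo_shift {Φ : ℝ × S → ℝ} {η : ℝ} (T : ℝ) (hη : 0 < η) :
    ∫ x, J η x * Φ (rm T x) ∂g.m = ∫ x, Φ (rm (T - η) x) ∂g.m := by
  rw [← J_neg_int (Φ := fun x => Φ (rm (T - η) x)) hη, ← g.integral_shift η]
  simp only [rm, shf, sub_sub_sub_cancel_right]

lemma lo_mono {Φ : ℝ × S → ℝ} (h0 : ∀ x, 0 ≤ Φ x) (hi : ∀ T, Integrable (fun x => Φ (rm T x)) g.m) :
    Monotone fun T => ∫ x, Φ (rm T x) ∂g.m := by
  intro s t hst
  rcases hst.eq_or_lt with rfl | h
  · exact le_rfl
  · have := (J_bounds (t - s) (hi t) fun x _ => h0 _).2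
    rwa [lo_shift t (sub_pos.2 h), sub_sub_cancel] at this

omit [MeasurableSpace S] in
lemma wt_rm (a T : ℝ) (x : ℝ × S) : wt (exp (a * T)) a x = exp (a * (rm T x).1) := by
  rw [wt, ← exp_add]; congr 1; simp only [rm]; ring

omit [MeasurableSpace S] in
lemma wt_rp (a T : ℝ) (x : ℝ × S) : wt (exp (a * T)) (-a) x = exp (a * (rp T x).1) := by
  rw [wt, ← exp_add]; congr 1; simp only [rp]; ring

theorem cyl_false {U V : ℝ × S → ℝ} {p q a b : ℝ} (hp : 0 < p) (hq : 0 < q) (mU : Measurable U)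
    (mV : Measurable V) (pU : ∀ x, 0 < U x) (pV : ∀ x, 0 < V x)
    (HU : g.Pot (fun x => exp (a * x.1) * V x ^ p) U)
    (HV : g.Pot (fun x => exp (b * x.1) * U x ^ q) V)
    (bU : ∀ T, ∃ C, ∀ x : ℝ × S, x.1 ≤ T → U x ≤ C * exp (g.d / 2 * x.1))
    (bV : ∀ T, ∃ C, ∀ x : ℝ × S, x.1 ≤ T → V x ≤ C * exp (g.d / 2 * x.1))
    (ha : 0 < a + (p - 1) * g.d / 2) (hb : 0 < b + (q - 1) * g.d / 2)
    (hab : 0 < a / (p + 1) + b / (q + 1)) : False := by
  set f : ℝ × S → ℝ := fun x => exp (a * x.1) * V x ^ p with hf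
  set h : ℝ × S → ℝ := fun x => exp (b * x.1) * U x ^ q with hh
  obtain ⟨c1, hc1, m1⟩ := HV.mass_ge hp HU
  obtain ⟨c2, hc2, m2⟩ := HU.mass_ge hq HV
  have l1 := fun T => log_chain (HV.mass_pos T) hc1 (m1 T)
  have l2 := fun T => log_chain (HU.mass_pos T) hc2 (m2 T)
  have hd := g.hd
  rcases le_or_gt (p * q) 1 with hpq | hpq
  · have hγ : 0 < a + (p - 1) * g.d / 2 + p * (b + (q - 1) * g.d / 2) := by positivity
    set γ := a + (p - 1) * g.d / 2 + p * (b + (q - 1) * g.d / 2) with hγd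
    set c := (1 - p * q) * log (g.mass f 0) - log c1 - p * log c2 with hc
    set T := |c| / γ + 1 with hT
    have T0 : 0 ≤ T := by positivity
    have s1 := log_le_log (mul_pos (exp_pos _) (HU.mass_pos T)) (HU.mass_shift T 0)
    rw [log_mul (exp_pos _).ne' (HU.mass_pos T).ne', log_exp, sub_zero, abs_of_nonneg T0] at s1
    have s2 := mul_le_mul_of_nonneg_left s1 (sub_nonneg.2 hpq)
    have s3 := mul_le_mul_of_nonneg_left (l2 T) hp.le
    have s4 := l1 T
    have s5 : γ * T = |c| + γ := by rw [hT]; field_simp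
    have s6 : γ * T ≤ c := by rw [hγd, hc]; linarith
    linarith [le_abs_self c]
  · set κ := √((1 + p * q) / 2) with hκd
    have hκ2 : κ ^ 2 = (1 + p * q) / 2 := sq_sqrt (by linarith)
    have hκ : 1 < κ := lt_sqrt_of_sq_lt (by linarith)
    have hγ : 0 < (q + 1) * a + (p + 1) * b := by
      have e : (q + 1) * a + (p + 1) * b = (p + 1) * (q + 1) * (a / (p + 1) + b / (q + 1)) := by
        field_simp
      rw [e]; positivity
    have hm : Tendsto (fun T => g.mass f T * g.mass h T) atTop (𝓝 0) := by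
      set c := (q + 1) * log c1 + (p + 1) * log c2 with hc
      have t1 : Tendsto (fun T => exp (-((c + ((q + 1) * a + (p + 1) * b) * T) / (p * q - 1))))
          atTop (𝓝 0) :=
        tendsto_exp_neg_atTop_nhds_zero.comp ((tendsto_atTop_add_const_left _ c
          (tendsto_id.const_mul_atTop hγ)).atTop_div_const (by linarith))
      refine squeeze_zero (fun T => (mul_pos (HU.mass_pos T) (HV.mass_pos T)).le) (fun T => ?_) t1
      rw [← exp_log (mul_pos (HU.mass_pos T) (HV.mass_pos T)),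
        log_mul (HU.mass_pos T).ne' (HV.mass_pos T).ne', exp_le_exp, ← neg_div,
        le_div_iff₀ (by linarith)]
      have s1 := mul_le_mul_of_nonneg_left (l1 T) (by linarith : 0 ≤ q + 1)
      have s2 := mul_le_mul_of_nonneg_left (l2 T) (by linarith : 0 ≤ p + 1)
      rw [hc]; linarith
    have sides : ∀ T, ∃ C, g.Side (fun x => f (rm T x)) (fun x => f (rp T x))
        (fun x => U (rm T x)) (fun x => U (rp T x)) C ∧ g.Side (fun x => h (rm T x))
        (fun x => h (rp T x)) (fun x => V (rm T x)) (fun x => V (rp T x)) C := fun T => by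
      obtain ⟨B1, u1, u2, u3⟩ := src_bound hp mV pV bV ha T
      obtain ⟨B2, v1, v2, v3⟩ := src_bound hq mU pU bU hb T
      exact ⟨_, HU.side (B := max B1 B2) (fun x hx => le_max_of_le_left (u1 x hx))
          (fun x hx => le_max_of_le_right (v2 x hx)) u3,
        HV.side (B := max B1 B2) (fun x hx => le_max_of_le_right (v1 x hx))
          (fun x hx => le_max_of_le_left (u2 x hx)) v3⟩
    have iP : ∀ T, Integrable (fun x => f (rm T x) * V (rm T x)) g.m := fun T => by
      obtain ⟨C, s1, s2⟩ := sides T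
      exact int_bdd s1.src.i1 (mV.comp (measurable_rm T)) fun x hx => ⟨(pV _).le, s2.U1_le x hx⟩
    have iQ : ∀ T, Integrable (fun x => h (rm T x) * U (rm T x)) g.m := fun T => by
      obtain ⟨C, s1, s2⟩ := sides T
      exact int_bdd s2.src.i1 (mU.comp (measurable_rm T)) fun x hx => ⟨(pU _).le, s1.U1_le x hx⟩
    have mP := lo_mono (Φ := fun x => f x * V x) (fun x => (mul_pos (HU.pf x) (pV x)).le) iP
    have mQ := lo_mono (Φ := fun x => h x * U x) (fun x => (mul_pos (HV.pf x) (pU x)).le) iQ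
    have hA : 0 < |a / (p + 1)| + |b / (q + 1)| :=
      hab.trans_le (add_le_add (le_abs_self _) (le_abs_self _))
    have hκ' : 0 < κ - 1 := by linarith
    refine blowup (K := 2 / (a / (p + 1) + b / (q + 1)) *
      ((|a / (p + 1)| + |b / (q + 1)|) * (3 + 2 * (κ / (κ - 1))))) (by positivity) hd (mP.add mQ)
      (add_pos (pos_int' (ae_of_all _ fun x => mul_pos (HU.pf _) (pV _)) (iP 0))
        (pos_int' (ae_of_all _ fun x => mul_pos (HV.pf _) (pU _)) (iQ 0))) hm ?_
    intro T η h0 h1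
    obtain ⟨C, s1, s2⟩ := sides T
    have := key_core (g := g) (α := exp (a * T)) (β := exp (b * T)) (C := C) hp hq hκ (by linarith)
      hab (exp_pos _) (exp_pos _) (mU.comp (measurable_rm T)) (mU.comp (measurable_rp T))
      (mV.comp (measurable_rm T)) (mV.comp (measurable_rp T)) (fun x _ => pU _) (fun x _ => pU _)
      (fun x _ => pV _) (fun x _ => pV _) (by simp only [wt_rm, wt_rp]; exact s1)
      (by simp only [wt_rm, wt_rp]; exact s2) h0 h1
    simp only [wt_rm, wt_rp, Function.comp] at this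
    rw [← lo_shift (Φ := fun x => f x * V x) T h0, ← lo_shift (Φ := fun x => h x * U x) T h0,
      (HU.mass_eq T).2, (HV.mass_eq T).2, ← mul_assoc ((2 / η) ^ g.d)]
    exact this

end Geo

end Vale.Agent.P100
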