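import Vale.Agent.P100.Key

/-! Passing from the whole cylinder to half cylinders. -/

open Real Set MeasureTheory Filter Topology

namespace Vale.Agent.P100

variable {S : Type*} [MeasurableSpace S]

def rm (T : ℝ) (x : ℝ × S) : ℝ × S := (T - x.1, x.2)
def rp (T : ℝ) (x : ℝ × S) : ℝ × S := (T + x.1, x.2)

lemma measurable_rm (T : ℝ) : Measurable (rm T : ℝ × S → ℝ × S) :=
  (measurable_fst.const_sub T).prodMk measurable_snd

lemma measurable_rp (T : ℝ) : Measurable (rp T : ℝ × S → ℝ × S) :=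
  (measurable_fst.const_add T).prodMk measurable_snd

lemma Gam_le_Nk {d r k : ℝ} (hk : |k| ≤ 1) : Gam d r k ≤ 3 * Gk d r k + 2 * Nk d r k := by
  have := Gk_nonneg (d := d) (r := r) hk
  unfold Gam Nk
  split_ifs with h
  · linarith
  · linarith [G1_le_Gk (d := d) hk (not_le.1 h).le]

lemma Nk_nonneg {d r k : ℝ} (hk : |k| ≤ 1) : 0 ≤ Nk d r k := by
  unfold Nk
  split_ifs
  · exact G1_nonneg hk
  · exact le_rfl

namespace Geo

variable {g : Geo S}

lemma split_mu {Φ : ℝ × S → ℝ} (hΦ : Integrable Φ g.μ) (T : ℝ) :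
    Integrable (fun x => Φ (rm T x)) g.m ∧ Integrable (fun x => Φ (rp T x)) g.m ∧
      ∫ x, Φ x ∂g.μ = ∫ x, Φ (rm T x) ∂g.m + ∫ x, Φ (rp T x) ∂g.m := by
  have m1 : MeasurePreserving (fun t : ℝ => T - t) volume volume :=
    Measure.measurePreserving_sub_left volume T
  have e1 : MeasurableEmbedding (fun t : ℝ => T - t) :=
    (MeasurableEquiv.subLeft T).measurableEmbedding
  have m2 : MeasurePreserving (fun t : ℝ => T + t) volume volume :=
    measurePreserving_add_left volume T
  have e2 : MeasurableEmbedding (fun t : ℝ => T + t) := measurableEmbedding_addLeft T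
  refine ⟨((g.integrable_map_iff m1 e1 Φ).2 hΦ).restrict,
    ((g.integrable_map_iff m2 e2 Φ).2 hΦ).restrict, ?_⟩
  have s1 : MeasurableSet {x : ℝ × S | x.1 < T} := measurableSet_lt measurable_fst measurable_const
  have s2 : MeasurableSet {x : ℝ × S | T < x.1} := measurableSet_lt measurable_const measurable_fst
  have a1 : (HH S).indicator (fun x => Φ (rm T x))
      = fun x => ({x : ℝ × S | x.1 < T}.indicator Φ) (T - x.1, x.2) := by
    funext x
    by_cases h : 0 < x.1 <;> simp [indicator, HH, rm, h]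
  have a2 : (HH S).indicator (fun x => Φ (rp T x))
      = fun x => ({x : ℝ × S | T < x.1}.indicator Φ) (T + x.1, x.2) := by
    funext x
    by_cases h : 0 < x.1 <;> simp [indicator, HH, rp, h]
  rw [int_m, int_m, a1, a2, g.integral_map_eq m1 e1, g.integral_map_eq m2 e2,
    ← integral_add (hΦ.indicator s1) (hΦ.indicator s2)]
  refine integral_congr_ae ?_
  filter_upwards [g.ae_ne_μ T] with x hx
  rcases lt_or_gt_of_ne hx with h | h
  · simp [indicator, h, not_lt.2 h.le]
  · simp [indicator, h, not_lt.2 h.le]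

lemma Gm_mm (T : ℝ) (x y : ℝ × S) : g.Gm (rm T x) (rm T y) = g.Gm x y := by
  simp only [Gm, rm]; rw [← Gk_neg]; congr 1; ring
lemma Gm_mp (T : ℝ) (x y : ℝ × S) : g.Gm (rm T x) (rp T y) = g.Gp x y := by
  simp only [Gm, Gp, rm, rp]; rw [← Gk_neg]; congr 1; ring
lemma Gm_pp (T : ℝ) (x y : ℝ × S) : g.Gm (rp T x) (rp T y) = g.Gm x y := by
  simp only [Gm, rp]; congr 1; ring
lemma Gm_pm (T : ℝ) (x y : ℝ × S) : g.Gm (rp T x) (rm T y) = g.Gp x y := by
  simp only [Gm, Gp, rm, rp]; congr 1; ring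

lemma Nk_map {e : ℝ → ℝ} (he : MeasurePreserving e volume volume) (he' : MeasurableEmbedding e)
    (θ : S) : Integrable (fun y : ℝ × S => Nk g.d (e y.1) (g.c θ y.2)) g.m ∧
      ∫ y : ℝ × S, Nk g.d (e y.1) (g.c θ y.2) ∂g.m ≤ g.M := by
  have i := (g.integrable_map_iff he he' (fun y : ℝ × S => Nk g.d y.1 (g.c θ y.2))).2 (g.hint θ)
  refine ⟨i.restrict, ?_⟩
  refine (setIntegral_le_integral i (ae_of_all _ fun y => Nk_nonneg (g.le1 _ _))).trans ?_
  rw [g.integral_map_eq he he' (fun y : ℝ × S => Nk g.d y.1 (g.c θ y.2))]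
  exact g.hM θ

variable (g) in
/-- `U` is the potential of `f`. -/
structure Pot (f U : ℝ × S → ℝ) : Prop where
  mf : Measurable f
  pf : ∀ x, 0 < f x
  int : ∀ x, Integrable (fun y => g.Gm x y * f y) g.μ
  eq : ∀ x, U x = ∫ y, g.Gm x y * f y ∂g.μ

variable (g) in
noncomputable def mass (f : ℝ × S → ℝ) (T : ℝ) : ℝ := ∫ y, exp (-g.d / 2 * |T - y.1|) * f y ∂g.μ

lemma nonempty (g : Geo S) : Nonempty S := by
  by_contra h
  rw [not_nonempty_iff] at h
  exact g.ne (Measure.eq_zero_of_isEmpty _)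

namespace Pot

variable {f U : ℝ × S → ℝ} (H : g.Pot f U)
include H

lemma lower (x : ℝ × S) : Integrable (fun y => exp (-g.d / 2 * |x.1 - y.1|) * f y) g.μ ∧
    (4 : ℝ) ^ (-g.d / 2) * g.mass f x.1 ≤ U x := by
  have h4 : (0 : ℝ) < 4 ^ (-g.d / 2) := by positivity
  have := int_dom (a := fun y => (4 : ℝ) ^ (-g.d / 2) * (exp (-g.d / 2 * |x.1 - y.1|) * f y))
    (((measurable_exp.comp ((measurable_fst.const_sub x.1).abs.const_mul _)).mul H.mf).const_mul _)
    (H.int x) (by
      filter_upwards [g.ae_ne_μ x.1] with y hy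
      have a1 := H.pf y
      refine ⟨by positivity, ?_⟩
      rw [← mul_assoc]
      exact mul_le_mul_of_nonneg_right (Gk_lower g.hd (g.le1 _ _) (sub_ne_zero.2 hy.symm)) a1.le)
  refine ⟨(integrable_const_mul_iff (IsUnit.mk0 _ h4.ne') _).1 this.1, ?_⟩
  rw [H.eq x, mass, ← integral_const_mul]
  exact this.2

lemma mass_int (T : ℝ) : Integrable (fun y => exp (-g.d / 2 * |T - y.1|) * f y) g.μ := by
  obtain ⟨θ⟩ := g.nonempty
  exact (H.lower (T, θ)).1

lemma mass_eq (T : ℝ) :
    Integrable (fun x => exp (-g.d / 2 * x.1) * (f (rm T x) + f (rp T x))) g.m ∧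
    g.mass f T = ∫ x, exp (-g.d / 2 * x.1) * (f (rm T x) + f (rp T x)) ∂g.m := by
  obtain ⟨a1, a2, a3⟩ := split_mu (H.mass_int T) T
  have e : (fun x => exp (-g.d / 2 * |T - (rm T x).1|) * f (rm T x)
      + exp (-g.d / 2 * |T - (rp T x).1|) * f (rp T x))
      =ᵐ[g.m] fun x => exp (-g.d / 2 * x.1) * (f (rm T x) + f (rp T x)) := by
    filter_upwards [g.ae_H] with x hx
    simp only [rm, rp, sub_sub_cancel, sub_add_cancel_left, abs_neg, abs_of_pos hx]
    ring
  refine ⟨(iadd a1 a2).congr e, ?_⟩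
  rw [mass, a3, ← integral_add a1 a2]
  exact integral_congr_ae e

lemma mass_pos (T : ℝ) : 0 < g.mass f T := by
  rw [(H.mass_eq T).2]
  refine pos_int' (ae_of_all _ fun x => ?_) (H.mass_eq T).1
  have := H.pf (rm T x)
  have := H.pf (rp T x)
  positivity

lemma mass_shift (T s : ℝ) : exp (-g.d / 2 * |T - s|) * g.mass f T ≤ g.mass f s := by
  rw [mass, ← integral_const_mul]
  refine integral_mono ((H.mass_int T).const_mul _) (H.mass_int s) fun y => ?_
  simp only
  rw [← mul_assoc, ← exp_add]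
  refine mul_le_mul_of_nonneg_right (exp_le_exp.2 ?_) (H.pf y).le
  have a1 : |s - y.1| ≤ |T - s| + |T - y.1| := by
    rw [abs_sub_comm T s]; exact abs_sub_le s T y.1
  have := g.hd
  nlinarith

lemma side {B T : ℝ} (hB : ∀ x, x.1 ≤ T + 1 → f x ≤ B) (hU : ∀ x, x.1 ≤ T → U x ≤ B)
    (i1 : Integrable (fun x => f (rm T x)) g.m) :
    g.Side (fun x => f (rm T x)) (fun x => f (rp T x)) (fun x => U (rm T x)) (fun x => U (rp T x))
      (3 * B + 2 * B * g.M) := by
  have sm : ∀ x, Integrable (fun y => g.Gm x y * f (rm T y)) g.m ∧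
      Integrable (fun y => g.Gp x y * f (rp T y)) g.m ∧
      U (rm T x) = ∫ y, g.Gm x y * f (rm T y) ∂g.m + ∫ y, g.Gp x y * f (rp T y) ∂g.m := by
    intro x
    have := split_mu (H.int (rm T x)) T
    simp only [Gm_mm, Gm_mp] at this
    rw [H.eq]; exact this
  have sp : ∀ x, Integrable (fun y => g.Gp x y * f (rm T y)) g.m ∧
      Integrable (fun y => g.Gm x y * f (rp T y)) g.m ∧
      U (rp T x) = ∫ y, g.Gp x y * f (rm T y) ∂g.m + ∫ y, g.Gm x y * f (rp T y) ∂g.m := by
    intro x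
    have := split_mu (H.int (rp T x)) T
    simp only [Gm_pm, Gm_pp] at this
    rw [H.eq]; exact this
  have n1 : ∀ x, 0 ≤ ∫ y, g.Gm x y * f (rm T y) ∂g.m := fun x =>
    integral_nonneg fun y => mul_nonneg (g.Gm_nonneg x y) (H.pf _).le
  have n2 : ∀ x, 0 ≤ ∫ y, g.Gp x y * f (rp T y) ∂g.m := fun x =>
    integral_nonneg fun y => mul_nonneg (g.Gp_nonneg x y) (H.pf _).le
  have hB0 : 0 ≤ B := by
    obtain ⟨θ⟩ := g.nonempty
    exact (H.pf (T, θ)).le.trans (hB _ (by simp))
  have hU' : ∀ x : ℝ × S, 0 < x.1 → U (rm T x) ≤ B := fun x hx => hU _ (by simp [rm, hx.le])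
  refine ⟨⟨H.mf.comp (measurable_rm T), H.mf.comp (measurable_rp T), fun x _ => (H.pf _).le,
    fun x _ => (H.pf _).le, i1, fun x hx => ?_, fun x hx => ?_⟩, fun x _ => H.pf _,
    fun x _ => (sp x).2.1, fun x _ => (sm x).2.2, fun x _ => by rw [(sp x).2.2, pot, add_comm],
    (H.mass_eq T).1⟩
  · obtain ⟨b1, b2⟩ := Nk_map (g := g) (Measure.measurePreserving_sub_left volume x.1)
      (MeasurableEquiv.subLeft x.1).measurableEmbedding x.2
    have := int_dom (a := fun y => g.Γm x y * f (rm T y))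
      ((meas_sec g.meas_Γm x).mul (H.mf.comp (measurable_rm T)))
      (iadd ((sm x).1.const_mul 3) (b1.const_mul (2 * B))) (by
        filter_upwards [g.ae_H] with y hy
        have c1 := H.pf (rm T y)
        have c2 := hB (rm T y) (by simp only [rm]; linarith)
        have c3 := mul_le_mul_of_nonneg_right
          (Gam_le_Nk (d := g.d) (r := x.1 - y.1) (g.le1 x.2 y.2)) c1.le
        have c4 := mul_le_mul_of_nonneg_left c2
          (Nk_nonneg (d := g.d) (r := x.1 - y.1) (g.le1 x.2 y.2))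
        refine ⟨mul_nonneg (g.Γm_nonneg x y) c1.le, ?_⟩
        simp only [Γm, Gm]
        linarith)
    refine ⟨this.1, this.2.trans ?_⟩
    rw [integral_add ((sm x).1.const_mul 3) (b1.const_mul (2 * B)), integral_const_mul,
      integral_const_mul]
    have c5 := mul_le_mul_of_nonneg_left b2 (by positivity : 0 ≤ 2 * B)
    linarith [(sm x).2.2, hU' x hx, n2 x]
  · obtain ⟨b1, b2⟩ := Nk_map (g := g) (measurePreserving_add_left volume x.1)
      (measurableEmbedding_addLeft x.1) x.2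
    have := int_dom (a := fun y => g.Γp x y * f (rp T y))
      ((meas_sec g.meas_Γp x).mul (H.mf.comp (measurable_rp T)))
      (iadd ((sm x).2.1.const_mul 3) (b1.const_mul (2 * B))) (by
        filter_upwards [g.ae_H] with y hy
        have c1 := H.pf (rp T y)
        have c3 := mul_le_mul_of_nonneg_right
          (Gam_le_Nk (d := g.d) (r := x.1 + y.1) (g.le1 x.2 y.2)) c1.le
        have c4 : Nk g.d (x.1 + y.1) (g.c x.2 y.2) * f (rp T y)
            ≤ Nk g.d (x.1 + y.1) (g.c x.2 y.2) * B := by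
          by_cases h : |x.1 + y.1| ≤ 1
          · refine mul_le_mul_of_nonneg_left (hB _ ?_) (Nk_nonneg (g.le1 x.2 y.2))
            simp only [rp]; linarith [le_abs_self (x.1 + y.1)]
          · simp [Nk, h]
        refine ⟨mul_nonneg (g.Γp_nonneg x y) c1.le, ?_⟩
        simp only [Γp, Gp]
        linarith)
    refine ⟨this.1, this.2.trans ?_⟩
    rw [integral_add ((sm x).2.1.const_mul 3) (b1.const_mul (2 * B)), integral_const_mul,
      integral_const_mul]
    have c5 := mul_le_mul_of_nonneg_left b2 (by positivity : 0 ≤ 2 * B)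
    linarith [(sm x).2.2, hU' x hx, n1 x]

/-- Lower bound of the mass of a nonlinear source. -/
lemma mass_ge {V : ℝ × S → ℝ} {b q : ℝ} (hq : 0 < q)
    (H' : g.Pot (fun x => exp (b * x.1) * U x ^ q) V) : ∃ c, 0 < c ∧ ∀ T,
      c * exp (b * T) * g.mass f T ^ q ≤ g.mass (fun x => exp (b * x.1) * U x ^ q) T := by
  have hσ : 0 < g.σ.real univ := by
    rw [Measure.real, ENNReal.toReal_pos_iff]
    exact ⟨pos_iff_ne_zero.2 (by simpa using g.ne), measure_lt_top _ _⟩
  have hd := g.hd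
  set c1 := (4 : ℝ) ^ (-g.d / 2) * exp (-g.d / 2) with hc1
  have hc : 0 < c1 := by positivity
  refine ⟨exp (-g.d / 2) * exp (-|b|) * c1 ^ q * g.σ.real univ, by positivity, fun T => ?_⟩
  have hs : MeasurableSet (Ioc (T - 1) T ×ˢ (univ : Set S)) :=
    measurableSet_Ioc.prod MeasurableSet.univ
  have hm : g.μ (Ioc (T - 1) T ×ˢ (univ : Set S)) = g.σ univ := by
    rw [μ, Measure.prod_prod]; simp
  have hfin : g.μ (Ioc (T - 1) T ×ˢ (univ : Set S)) ≠ ⊤ := by rw [hm]; exact measure_ne_top _ _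
  have m0 := (H.mass_pos T).le
  set L := exp (-g.d / 2) * exp (-|b|) * c1 ^ q * exp (b * T) * g.mass f T ^ q with hL
  have hI : Integrable ((Ioc (T - 1) T ×ˢ (univ : Set S)).indicator fun _ => L) g.μ :=
    (integrable_indicator_iff hs).2 (integrableOn_const hfin)
  refine (le_of_eq ?_).trans (integral_mono hI (H'.mass_int T) fun y => ?_)
  · rw [integral_indicator_const _ hs, smul_eq_mul, hL]
    simp only [Measure.real, hm]
    ring
  · by_cases hy : y ∈ Ioc (T - 1) T ×ˢ (univ : Set S)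
    · rw [indicator_of_mem hy]
      have a1 : |T - y.1| ≤ 1 := abs_le.2 ⟨by linarith [hy.1.2], by linarith [hy.1.1]⟩
      have a2 : exp (-g.d / 2) ≤ exp (-g.d / 2 * |T - y.1|) := exp_le_exp.2 (by nlinarith)
      have a3 : exp (-|b|) * exp (b * T) ≤ exp (b * y.1) := by
        rw [← exp_add]
        refine exp_le_exp.2 ?_
        have : |b * (T - y.1)| ≤ |b| := by
          rw [abs_mul]; exact mul_le_of_le_one_right (abs_nonneg b) a1
        linarith [le_abs_self (b * (T - y.1))]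
      have a4 : c1 * g.mass f T ≤ U y := by
        refine le_trans ?_ (H.lower y).2
        rw [hc1, mul_assoc]
        refine mul_le_mul_of_nonneg_left (le_trans ?_ (H.mass_shift T y.1)) (by positivity)
        exact mul_le_mul_of_nonneg_right a2 m0
      have a5 : c1 ^ q * g.mass f T ^ q ≤ U y ^ q := by
        rw [← mul_rpow hc.le m0]; exact rpow_le_rpow (by positivity) a4 hq.le
      calc L = exp (-g.d / 2) * ((exp (-|b|) * exp (b * T)) * (c1 ^ q * g.mass f T ^ q)) := by
            rw [hL]; ring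
        _ ≤ exp (-g.d / 2 * |T - y.1|) * (exp (b * y.1) * U y ^ q) := by gcongr
    · rw [indicator_of_notMem hy]
      exact mul_nonneg (exp_pos _).le (H'.pf y).le

end Pot

end Geo

end Vale.Agent.P100
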