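import Vale.Agent.P100.Kernel

/-! Measure theory on the half cylinder. -/

open Real Set MeasureTheory Filter Topology

namespace Vale.Agent.P100

/-- The truncated singular kernel. -/
noncomputable def Nk (d r k : ℝ) : ℝ := if |r| ≤ 1 then G1 d r k else 0

/-- Abstract cross-section data. -/
structure Geo (S : Type*) [MeasurableSpace S] where
  σ : Measure S
  fin : IsFiniteMeasure σ
  ne : σ ≠ 0
  c : S → S → ℝ
  meas : Measurable (fun z : S × S => c z.1 z.2)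
  symm : ∀ a b, c a b = c b a
  le1 : ∀ a b, |c a b| ≤ 1
  d : ℝ
  hd : 0 < d
  M : ℝ
  hint : ∀ θ, Integrable (fun y : ℝ × S => Nk d y.1 (c θ y.2)) (volume.prod σ)
  hM : ∀ θ, ∫ y : ℝ × S, Nk d y.1 (c θ y.2) ∂(volume.prod σ) ≤ M

variable {S : Type*} [MeasurableSpace S]

def HH (S : Type*) : Set (ℝ × S) := {x | 0 < x.1}

lemma measurableSet_HH : MeasurableSet (HH S) := measurableSet_lt measurable_const measurable_fst

noncomputable def J (h : ℝ) (x : ℝ × S) : ℝ := if h < x.1 then 1 else 0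

def shf (h : ℝ) (x : ℝ × S) : ℝ × S := (x.1 - h, x.2)

omit [MeasurableSpace S] in
lemma J_nonneg (h : ℝ) (x : ℝ × S) : 0 ≤ J h x := by unfold J; split_ifs <;> norm_num
omit [MeasurableSpace S] in
lemma J_le_one (h : ℝ) (x : ℝ × S) : J h x ≤ 1 := by unfold J; split_ifs <;> norm_num

lemma measurable_J (h : ℝ) : Measurable (J h : ℝ × S → ℝ) :=
  Measurable.ite (measurableSet_lt measurable_const measurable_fst) measurable_const
    measurable_const

lemma measurable_shf (h : ℝ) : Measurable (shf h : ℝ × S → ℝ × S) :=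
  (measurable_fst.sub_const h).prodMk measurable_snd

namespace Geo

variable (g : Geo S)

instance : IsFiniteMeasure g.σ := g.fin

noncomputable def μ : Measure (ℝ × S) := volume.prod g.σ
noncomputable def m : Measure (ℝ × S) := g.μ.restrict (HH S)

instance : SFinite g.μ := by unfold μ; infer_instance
instance : SFinite g.m := by unfold m; infer_instance

lemma mp_map {e : ℝ → ℝ} (he : MeasurePreserving e volume volume) :
    MeasurePreserving (Prod.map e (id : S → S)) g.μ g.μ :=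
  he.prod (MeasurePreserving.id g.σ)

lemma integral_map_eq {e : ℝ → ℝ} (he : MeasurePreserving e volume volume)
    (he' : MeasurableEmbedding e) (Φ : ℝ × S → ℝ) :
    ∫ x, Φ (e x.1, x.2) ∂g.μ = ∫ x, Φ x ∂g.μ :=
  (g.mp_map he).integral_comp (he'.prodMap MeasurableEmbedding.id) Φ

lemma integrable_map_iff {e : ℝ → ℝ} (he : MeasurePreserving e volume volume)
    (he' : MeasurableEmbedding e) (Φ : ℝ × S → ℝ) :
    Integrable (fun x => Φ (e x.1, x.2)) g.μ ↔ Integrable Φ g.μ :=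
  (g.mp_map he).integrable_comp_emb (he'.prodMap MeasurableEmbedding.id) (g := Φ)

lemma ae_H : ∀ᵐ x ∂g.m, 0 < x.1 := ae_restrict_mem measurableSet_HH

lemma ae_ne_μ (t : ℝ) : ∀ᵐ x ∂g.μ, x.1 ≠ t := by
  have h : ∀ᵐ s ∂(volume : Measure ℝ), s ≠ t := Measure.ae_ne volume t
  exact (Measure.quasiMeasurePreserving_fst (μ := volume) (ν := g.σ)).ae h

lemma ae_ne (t : ℝ) : ∀ᵐ x ∂g.m, x.1 ≠ t := ae_restrict_of_ae (g.ae_ne_μ t)

lemma ae_HH : ∀ᵐ z ∂(g.m.prod g.m), 0 < z.1.1 ∧ 0 < z.2.1 := by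
  filter_upwards [(Measure.quasiMeasurePreserving_fst (μ := g.m) (ν := g.m)).ae g.ae_H,
    (Measure.quasiMeasurePreserving_snd (μ := g.m) (ν := g.m)).ae g.ae_H] with z h1 h2
  exact ⟨h1, h2⟩

lemma ae_ne2 (h : ℝ) : ∀ᵐ z ∂(g.m.prod g.m), z.1.1 - z.2.1 ≠ h := by
  rw [Measure.ae_prod_iff_ae_ae]
  · refine ae_of_all _ fun x => ?_
    filter_upwards [g.ae_ne (x.1 - h)] with y hy
    intro h'; apply hy; linarith
  · exact (measurableSet_eq_fun (measurable_fst.fst.sub measurable_snd.fst)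
      measurable_const).compl

lemma m_ne_zero : g.m ≠ 0 := by
  intro h
  have h1 : g.m univ = 0 := by simp [h]
  have h2 : HH S = Ioi (0 : ℝ) ×ˢ (univ : Set S) := by ext x; simp [HH]
  rw [m, Measure.restrict_apply MeasurableSet.univ, univ_inter, h2, μ, Measure.prod_prod] at h1
  simp [g.ne] at h1

lemma int_m (Φ : ℝ × S → ℝ) : ∫ x, Φ x ∂g.m = ∫ x, (HH S).indicator Φ x ∂g.μ :=
  (integral_indicator measurableSet_HH).symm

lemma intg_m (Φ : ℝ × S → ℝ) : Integrable Φ g.m ↔ Integrable ((HH S).indicator Φ) g.μ :=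
  (integrable_indicator_iff measurableSet_HH).symm

omit [MeasurableSpace S] in
lemma ind_shift (h : ℝ) (Φ : ℝ × S → ℝ) :
    (HH S).indicator (fun x => J h x * Φ (shf h x))
      = fun x => (HH S).indicator (fun x => J (-h) x * Φ x) (x.1 - h, x.2) := by
  funext x
  simp only [indicator, HH, J, shf, mem_ofPred_eq]
  by_cases h1 : 0 < x.1 <;> by_cases h2 : h < x.1 <;> simp [h1, h2]

lemma integral_shift (h : ℝ) (Φ : ℝ × S → ℝ) :
    ∫ x, J h x * Φ (shf h x) ∂g.m = ∫ x, J (-h) x * Φ x ∂g.m := by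
  rw [int_m, int_m, ind_shift]
  exact g.integral_map_eq (measurePreserving_sub_right volume h)
    (MeasurableEquiv.subRight h).measurableEmbedding _

lemma integrable_shift (h : ℝ) (Φ : ℝ × S → ℝ) :
    Integrable (fun x => J h x * Φ (shf h x)) g.m ↔ Integrable (fun x => J (-h) x * Φ x) g.m := by
  rw [intg_m, intg_m, ind_shift]
  exact g.integrable_map_iff (measurePreserving_sub_right volume h)
    (MeasurableEquiv.subRight h).measurableEmbedding _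

lemma integrable_J_mul {Φ : ℝ × S → ℝ} (hΦ : Integrable Φ g.m) (h : ℝ) :
    Integrable (fun x => J h x * Φ x) g.m := by
  refine hΦ.bdd_mul (c := 1) (measurable_J h).aestronglyMeasurable (ae_of_all _ fun x => ?_)
  rw [norm_of_nonneg (J_nonneg h x)]; exact J_le_one h x

/-- Tonelli for a weighted kernel. -/
lemma pair {φ ψ : ℝ × S → ℝ} {k : ℝ × S → ℝ × S → ℝ} (hφ : Measurable φ) (hψ : Measurable ψ)
    (hk : Measurable fun z : (ℝ × S) × (ℝ × S) => k z.1 z.2)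
    (hφ0 : ∀ x, 0 < x.1 → 0 ≤ φ x) (hψ0 : ∀ x, 0 < x.1 → 0 ≤ ψ x)
    (hk0 : ∀ x y, 0 < x.1 → 0 < y.1 → 0 ≤ k x y)
    (h1 : ∀ x, 0 < x.1 → φ x ≠ 0 → Integrable (fun y => k x y * ψ y) g.m)
    (h2 : Integrable (fun x => φ x * ∫ y, k x y * ψ y ∂g.m) g.m) :
    Integrable (fun z : (ℝ × S) × (ℝ × S) => φ z.1 * (k z.1 z.2 * ψ z.2)) (g.m.prod g.m) ∧
      ∫ z, φ z.1 * (k z.1 z.2 * ψ z.2) ∂(g.m.prod g.m)
        = ∫ x, φ x * ∫ y, k x y * ψ y ∂g.m ∂g.m := by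
  have hI : Integrable (fun z : (ℝ × S) × (ℝ × S) => φ z.1 * (k z.1 z.2 * ψ z.2))
      (g.m.prod g.m) := by
    have hm : Measurable fun z : (ℝ × S) × (ℝ × S) => φ z.1 * (k z.1 z.2 * ψ z.2) :=
      (hφ.comp measurable_fst).mul (hk.mul (hψ.comp measurable_snd))
    rw [integrable_prod_iff hm.aestronglyMeasurable]
    constructor
    · filter_upwards [g.ae_H] with x hx
      by_cases h0 : φ x = 0
      · simp [h0]
      · exact (h1 x hx h0).const_mul _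
    · refine h2.congr ?_
      filter_upwards [g.ae_H] with x hx
      rw [← integral_const_mul]
      refine integral_congr_ae ?_
      filter_upwards [g.ae_H] with y hy
      have := hφ0 x hx
      have := hψ0 y hy
      have := hk0 x y hx hy
      rw [norm_of_nonneg (by positivity)]
  refine ⟨hI, ?_⟩
  rw [integral_prod _ hI]
  simp only [integral_const_mul]

lemma measurable_pot {ψ : ℝ × S → ℝ} {k : ℝ × S → ℝ × S → ℝ} (hψ : Measurable ψ)
    (hk : Measurable fun z : (ℝ × S) × (ℝ × S) => k z.1 z.2) :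
    Measurable fun x => ∫ y, k x y * ψ y ∂g.m :=
  ((hk.mul (hψ.comp measurable_snd)).stronglyMeasurable.integral_prod_right'
    (ν := g.m)).measurable

/-- Tonelli with a bounded potential. -/
lemma pair_bdd {φ ψ : ℝ × S → ℝ} {k : ℝ × S → ℝ × S → ℝ} {C : ℝ} (hφ : Measurable φ)
    (hψ : Measurable ψ) (hk : Measurable fun z : (ℝ × S) × (ℝ × S) => k z.1 z.2)
    (hφ0 : ∀ x, 0 < x.1 → 0 ≤ φ x) (hψ0 : ∀ x, 0 < x.1 → 0 ≤ ψ x)
    (hk0 : ∀ x y, 0 < x.1 → 0 < y.1 → 0 ≤ k x y) (hφi : Integrable φ g.m)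
    (h1 : ∀ x, 0 < x.1 → φ x ≠ 0 →
      Integrable (fun y => k x y * ψ y) g.m ∧ ∫ y, k x y * ψ y ∂g.m ≤ C) :
    Integrable (fun x => φ x * ∫ y, k x y * ψ y ∂g.m) g.m ∧
    Integrable (fun z : (ℝ × S) × (ℝ × S) => φ z.1 * (k z.1 z.2 * ψ z.2)) (g.m.prod g.m) ∧
      ∫ z, φ z.1 * (k z.1 z.2 * ψ z.2) ∂(g.m.prod g.m)
        = ∫ x, φ x * ∫ y, k x y * ψ y ∂g.m ∂g.m := by
  have h2 : Integrable (fun x => φ x * ∫ y, k x y * ψ y ∂g.m) g.m := by
    refine (hφi.mul_const |C|).mono' (hφ.mul (g.measurable_pot hψ hk)).aestronglyMeasurable ?_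
    filter_upwards [g.ae_H] with x hx
    by_cases h0 : φ x = 0
    · simp [h0]
    · have hn : 0 ≤ ∫ y, k x y * ψ y ∂g.m := by
        refine integral_nonneg_of_ae ?_
        filter_upwards [g.ae_H] with y hy
        exact mul_nonneg (hk0 x y hx hy) (hψ0 y hy)
      have := hφ0 x hx
      rw [norm_of_nonneg (by positivity)]
      exact mul_le_mul_of_nonneg_left ((h1 x hx h0).2.trans (le_abs_self C)) this
  exact ⟨h2, g.pair hφ hψ hk hφ0 hψ0 hk0 (fun x hx h0 => (h1 x hx h0).1) h2⟩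

noncomputable def Gm (x y : ℝ × S) : ℝ := Gk g.d (x.1 - y.1) (g.c x.2 y.2)
noncomputable def Gp (x y : ℝ × S) : ℝ := Gk g.d (x.1 + y.1) (g.c x.2 y.2)
noncomputable def Γm (x y : ℝ × S) : ℝ := Gam g.d (x.1 - y.1) (g.c x.2 y.2)
noncomputable def Γp (x y : ℝ × S) : ℝ := Gam g.d (x.1 + y.1) (g.c x.2 y.2)
noncomputable def Kp (x y : ℝ × S) : ℝ := Kr g.d (x.1 + y.1) (g.c x.2 y.2)
noncomputable def GD (x y : ℝ × S) : ℝ := max (g.Gm x y - g.Gp x y) 0

lemma meas_c : Measurable fun z : (ℝ × S) × (ℝ × S) => g.c z.1.2 z.2.2 :=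
  g.meas.comp (measurable_fst.snd.prodMk measurable_snd.snd)

lemma meas_Gm : Measurable fun z : (ℝ × S) × (ℝ × S) => g.Gm z.1 z.2 :=
  measurable_Gk (measurable_fst.fst.sub measurable_snd.fst) g.meas_c
lemma meas_Gp : Measurable fun z : (ℝ × S) × (ℝ × S) => g.Gp z.1 z.2 :=
  measurable_Gk (measurable_fst.fst.add measurable_snd.fst) g.meas_c
lemma meas_Γm : Measurable fun z : (ℝ × S) × (ℝ × S) => g.Γm z.1 z.2 :=
  measurable_Gam (measurable_fst.fst.sub measurable_snd.fst) g.meas_c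
lemma meas_Γp : Measurable fun z : (ℝ × S) × (ℝ × S) => g.Γp z.1 z.2 :=
  measurable_Gam (measurable_fst.fst.add measurable_snd.fst) g.meas_c
lemma meas_Kp : Measurable fun z : (ℝ × S) × (ℝ × S) => g.Kp z.1 z.2 :=
  measurable_Kr (measurable_fst.fst.add measurable_snd.fst) g.meas_c
lemma meas_GD : Measurable fun z : (ℝ × S) × (ℝ × S) => g.GD z.1 z.2 :=
  (g.meas_Gm.sub g.meas_Gp).max measurable_const

lemma Gm_nonneg (x y : ℝ × S) : 0 ≤ g.Gm x y := Gk_nonneg (g.le1 _ _)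
lemma Gp_nonneg (x y : ℝ × S) : 0 ≤ g.Gp x y := Gk_nonneg (g.le1 _ _)
lemma Γm_nonneg (x y : ℝ × S) : 0 ≤ g.Γm x y := Gam_nonneg (g.le1 _ _)
lemma Γp_nonneg (x y : ℝ × S) : 0 ≤ g.Γp x y := Gam_nonneg (g.le1 _ _)
lemma GD_nonneg (x y : ℝ × S) : 0 ≤ g.GD x y := le_max_right _ _
lemma Kp_nonneg (x y : ℝ × S) (hx : 0 < x.1) (hy : 0 < y.1) : 0 ≤ g.Kp x y :=
  Kr_nonneg g.hd (g.le1 _ _) (by linarith)
lemma Gm_le_Γm (x y : ℝ × S) : g.Gm x y ≤ g.Γm x y := Gk_le_Gam (g.le1 _ _)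
lemma Gp_le_Γp (x y : ℝ × S) : g.Gp x y ≤ g.Γp x y := Gk_le_Gam (g.le1 _ _)
lemma GD_le_Gm (x y : ℝ × S) : g.GD x y ≤ g.Gm x y :=
  max_le (by linarith [g.Gp_nonneg x y]) (g.Gm_nonneg x y)

lemma Gm_symm (x y : ℝ × S) : g.Gm x y = g.Gm y x := by
  unfold Gm; rw [← Gk_neg, neg_sub, g.symm]
lemma Γm_symm (x y : ℝ × S) : g.Γm x y = g.Γm y x := by
  unfold Γm; rw [← Gam_neg, neg_sub, g.symm]
lemma Gp_symm (x y : ℝ × S) : g.Gp x y = g.Gp y x := by
  unfold Gp; rw [add_comm, g.symm]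
lemma Kp_symm (x y : ℝ × S) : g.Kp x y = g.Kp y x := by
  unfold Kp; rw [add_comm, g.symm]
lemma GD_symm (x y : ℝ × S) : g.GD x y = g.GD y x := by
  unfold GD; rw [g.Gm_symm, g.Gp_symm]

lemma abs_sub_lt_abs_add {a b : ℝ} (ha : 0 < a) (hb : 0 < b) : |a - b| < |a + b| := by
  rw [abs_of_pos (by linarith : 0 < a + b), abs_lt]; constructor <;> linarith

lemma Gp_lt_Gm {x y : ℝ × S} (hx : 0 < x.1) (hy : 0 < y.1) (hne : y.1 ≠ x.1) :
    g.Gp x y < g.Gm x y :=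
  Gk_lt g.hd (g.le1 _ _) (sub_ne_zero.2 hne.symm) (abs_sub_lt_abs_add hx hy)

lemma Γp_le_Γm {x y : ℝ × S} (hx : 0 < x.1) (hy : 0 < y.1) (hne : y.1 ≠ x.1) :
    g.Γp x y ≤ g.Γm x y :=
  Gam_anti g.hd (g.le1 _ _) (sub_ne_zero.2 hne.symm) (abs_sub_lt_abs_add hx hy).le

lemma GD_eq {x y : ℝ × S} (hx : 0 < x.1) (hy : 0 < y.1) (hne : y.1 ≠ x.1) :
    g.GD x y = g.Gm x y - g.Gp x y :=
  max_eq_left (by linarith [g.Gp_lt_Gm hx hy hne])

lemma GD_pos {x y : ℝ × S} (hx : 0 < x.1) (hy : 0 < y.1) (hne : y.1 ≠ x.1) :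
    0 < g.GD x y := by
  rw [g.GD_eq hx hy hne]; linarith [g.Gp_lt_Gm hx hy hne]

lemma GD_le {x y : ℝ × S} (hx : 0 < x.1) (hy : 0 < y.1) (hne : y.1 ≠ x.1) :
    g.GD x y ≤ g.d * x.1 * g.Γm x y := by
  rw [g.GD_eq hx hy hne]
  have h := Gk_lip (r := y.1 - x.1) (r' := y.1 + x.1) g.hd (g.le1 y.2 x.2) (sub_ne_zero.2 hne)
    (by linarith)
  have e : |y.1 + x.1 - (y.1 - x.1)| = 2 * x.1 := by
    rw [abs_of_pos (by linarith)]; ring
  rw [e] at h
  rw [g.Gm_symm, g.Gp_symm, g.Γm_symm]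
  unfold Gm Gp Γm
  linarith

lemma Kp_le {x y : ℝ × S} (hx : 0 < x.1) (hy : 0 < y.1) : g.Kp x y ≤ g.d / 2 * g.Γp x y :=
  (le_abs_self _).trans (abs_Kr_le g.hd (g.le1 _ _) (by linarith))

end Geo

/-- A Fatou-type lemma with a two-sided bound on the limit. -/
lemma fatou_lim {Z : Type*} [MeasurableSpace Z] {ν : Measure Z} {F : ℝ → Z → ℝ} {F0 D : Z → ℝ}
    (hD : Integrable D ν) (hF : ∀ ε, 0 < ε → Integrable (F ε) ν)
    (hF0 : AEStronglyMeasurable F0 ν) (hlow : ∀ ε, 0 < ε → ∀ᵐ z ∂ν, -D z ≤ F ε z)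
    (h0 : ∀ᵐ z ∂ν, |F0 z| ≤ D z)
    (hlim : ∀ᵐ z ∂ν, Tendsto (fun ε => F ε z) (𝓝[>] 0) (𝓝 (F0 z))) :
    ∃ L : ℝ → ℝ, Tendsto L (𝓝[>] 0) (𝓝 (∫ z, F0 z ∂ν)) ∧
      ∀ ε, 0 < ε → L ε ≤ ∫ z, F ε z ∂ν := by
  have hF0i : Integrable F0 ν := hD.mono' hF0 h0
  refine ⟨fun ε => ∫ z, min (F ε z) (F0 z) ∂ν, ?_, fun ε hε => ?_⟩
  · refine tendsto_integral_filter_of_dominated_convergence D ?_ ?_ hD ?_
    · filter_upwards [self_mem_nhdsWithin] with ε hε
      exact ((hF ε hε).inf hF0i).aestronglyMeasurable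
    · filter_upwards [self_mem_nhdsWithin] with ε hε
      filter_upwards [hlow ε hε, h0] with z h1 h2
      rw [norm_eq_abs, abs_le]
      have h3 := abs_le.1 h2
      exact ⟨le_min h1 h3.1, (min_le_right _ _).trans h3.2⟩
    · filter_upwards [hlim] with z hz
      simpa using hz.min (tendsto_const_nhds (x := F0 z))
  · exact integral_mono ((hF ε hε).inf hF0i) (hF ε hε) fun z => min_le_left _ _

end Vale.Agent.P100
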