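import Mathlib

/-! Elementary facts on the cylinder kernel `(2 cosh r - 2 k) ^ (-d/2)`. -/

open Real Set

namespace Vale.Agent.P100

noncomputable def W (r k : ℝ) : ℝ := 2 * cosh r - 2 * k
noncomputable def Gk (d r k : ℝ) : ℝ := (W r k) ^ (-d / 2)
noncomputable def G1 (d r k : ℝ) : ℝ := (W r k) ^ (-(d + 1) / 2)
noncomputable def Gam (d r k : ℝ) : ℝ := Gk d r k + 2 * G1 d r k
noncomputable def Kr (d r k : ℝ) : ℝ := d * sinh r * (W r k) ^ (-d / 2 - 1)

variable {d r r' k : ℝ}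

lemma W_nonneg (hk : |k| ≤ 1) : 0 ≤ W r k := by
  have := one_le_cosh r
  have := (abs_le.1 hk).2
  unfold W; linarith

lemma W_pos (hk : |k| ≤ 1) (hr : r ≠ 0) : 0 < W r k := by
  have := one_lt_cosh.2 hr
  have := (abs_le.1 hk).2
  unfold W; linarith

lemma W_neg : W (-r) k = W r k := by simp [W]
lemma W_abs : W |r| k = W r k := by simp [W]
lemma Gk_neg : Gk d (-r) k = Gk d r k := by simp [Gk, W_neg]
lemma Gk_abs : Gk d |r| k = Gk d r k := by simp [Gk, W_abs]
lemma G1_neg : G1 d (-r) k = G1 d r k := by simp [G1, W_neg]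
lemma G1_abs : G1 d |r| k = G1 d r k := by simp [G1, W_abs]
lemma Gam_neg : Gam d (-r) k = Gam d r k := by simp [Gam, Gk_neg, G1_neg]
lemma Gam_abs : Gam d |r| k = Gam d r k := by simp [Gam, Gk_abs, G1_abs]
lemma Kr_neg : Kr d (-r) k = - Kr d r k := by simp [Kr, W_neg]

lemma W_mono (h : |r| ≤ |r'|) : W r k ≤ W r' k := by
  have := cosh_le_cosh.2 h
  unfold W; linarith

lemma W_lt (h : |r| < |r'|) : W r k < W r' k := by
  have := cosh_lt_cosh.2 h
  unfold W; linarith

lemma Gk_nonneg (hk : |k| ≤ 1) : 0 ≤ Gk d r k := rpow_nonneg (W_nonneg hk) _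
lemma G1_nonneg (hk : |k| ≤ 1) : 0 ≤ G1 d r k := rpow_nonneg (W_nonneg hk) _
lemma Gam_nonneg (hk : |k| ≤ 1) : 0 ≤ Gam d r k := by
  have := Gk_nonneg (d := d) (r := r) hk
  have := G1_nonneg (d := d) (r := r) hk
  unfold Gam; linarith

lemma Gk_le_Gam (hk : |k| ≤ 1) : Gk d r k ≤ Gam d r k := by
  have := G1_nonneg (d := d) (r := r) hk
  unfold Gam; linarith

lemma Kr_nonneg (hd : 0 < d) (hk : |k| ≤ 1) (hr : 0 ≤ r) : 0 ≤ Kr d r k := by
  have h1 : 0 ≤ sinh r := sinh_nonneg_iff.2 hr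
  have h2 := rpow_nonneg (W_nonneg (r := r) hk) (-d / 2 - 1)
  unfold Kr; positivity

lemma Gk_anti (hd : 0 < d) (hk : |k| ≤ 1) (hr : r ≠ 0) (h : |r| ≤ |r'|) :
    Gk d r' k ≤ Gk d r k :=
  rpow_le_rpow_of_nonpos (W_pos hk hr) (W_mono h) (by linarith)

lemma Gk_lt (hd : 0 < d) (hk : |k| ≤ 1) (hr : r ≠ 0) (h : |r| < |r'|) :
    Gk d r' k < Gk d r k :=
  rpow_lt_rpow_of_neg (W_pos hk hr) (W_lt h) (by linarith)

lemma G1_anti (hd : 0 < d) (hk : |k| ≤ 1) (hr : r ≠ 0) (h : |r| ≤ |r'|) :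
    G1 d r' k ≤ G1 d r k :=
  rpow_le_rpow_of_nonpos (W_pos hk hr) (W_mono h) (by linarith)

lemma Gam_anti (hd : 0 < d) (hk : |k| ≤ 1) (hr : r ≠ 0) (h : |r| ≤ |r'|) :
    Gam d r' k ≤ Gam d r k := by
  have := Gk_anti hd hk hr h
  have := G1_anti hd hk hr h
  unfold Gam; linarith

lemma hasDerivAt_Gk (hk : |k| ≤ 1) (hr : r ≠ 0) :
    HasDerivAt (fun s => Gk d s k) (-Kr d r k) r := by
  have h1 : HasDerivAt (fun s => W s k) (2 * sinh r) r := by
    unfold W
    exact ((hasDerivAt_cosh r).const_mul 2).sub_const _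
  have h2 := h1.rpow_const (p := -d / 2) (Or.inl (W_pos hk hr).ne')
  refine h2.congr_deriv ?_
  unfold Kr; ring

lemma abs_Kr_le (hd : 0 < d) (hk : |k| ≤ 1) (hr : r ≠ 0) :
    |Kr d r k| ≤ d / 2 * Gam d r k := by
  have hw := W_pos hk hr
  set w := W r k with hwdef
  have hs : 0 < √w := sqrt_pos.2 hw
  have hss : √w * √w = w := mul_self_sqrt hw.le
  have h1 : 2 * |sinh r| ≤ w + 2 * √w := by
    have e1 : sinh r ^ 2 = cosh r ^ 2 - 1 := sinh_sq r
    have hk1 := (abs_le.1 hk).1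
    have hk2 := (abs_le.1 hk).2
    have hc := one_le_cosh r
    have e2 : (2 * |sinh r|) ^ 2 ≤ (w + 2 * √w) ^ 2 := by
      have e3 : (2 * |sinh r|) ^ 2 = (2 * cosh r - 2) * (2 * cosh r + 2) := by
        rw [mul_pow, sq_abs, e1]; ring
      have e4 : 2 * cosh r - 2 ≤ w := by rw [hwdef]; unfold W; linarith
      have e5 : 2 * cosh r + 2 ≤ w + 4 := by rw [hwdef]; unfold W; linarith
      have e6 : (2 * cosh r - 2) * (2 * cosh r + 2) ≤ w * (w + 4) :=
        mul_le_mul e4 e5 (by linarith) hw.le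
      have e7 : (w + 2 * √w) ^ 2 = w * (w + 4) + 4 * w * √w := by
        have : (w + 2 * √w) ^ 2 = w ^ 2 + 4 * w * √w + 4 * (√w * √w) := by ring
        rw [this, hss]; ring
      have e8 : 0 ≤ 4 * w * √w := by positivity
      linarith
    exact abs_le_of_sq_le_sq' e2 (by positivity) |>.2
  have hA : w ^ (-d / 2) = w * w ^ (-d / 2 - 1) := by
    rw [rpow_sub_one hw.ne']; field_simp
  have hB : w ^ (-(d + 1) / 2) = √w * w ^ (-d / 2 - 1) := by
    rw [sqrt_eq_rpow, ← rpow_add hw]; congr 1; ring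
  have hP : 0 < w ^ (-d / 2 - 1) := rpow_pos_of_pos hw _
  unfold Kr Gam Gk G1
  rw [← hwdef, hA, hB, abs_mul, abs_mul, abs_of_pos hd, abs_of_pos hP]
  have : d / 2 * (w * w ^ (-d / 2 - 1) + 2 * (√w * w ^ (-d / 2 - 1)))
      = d / 2 * (w + 2 * √w) * w ^ (-d / 2 - 1) := by ring
  rw [this]
  have h3 : d * |sinh r| ≤ d / 2 * (w + 2 * √w) := by nlinarith
  exact mul_le_mul_of_nonneg_right h3 hP.le

/-- One-sided Lipschitz bound. -/
lemma Gk_lip (hd : 0 < d) (hk : |k| ≤ 1) (hr : r ≠ 0) (hr' : r' ≠ 0) :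
    Gk d r k - d / 2 * |r' - r| * Gam d r k ≤ Gk d r' k := by
  have hG := Gam_nonneg (d := d) (r := r) hk
  rcases le_total |r'| |r| with h | h
  · have := Gk_anti hd hk hr' h
    have : 0 ≤ d / 2 * |r' - r| * Gam d r k := by positivity
    linarith
  · set L := d / 2 * Gam d r k with hL
    have hr0 : 0 < |r| := abs_pos.2 hr
    have hder : ∀ s ∈ Ici |r|, HasDerivAt (fun s => Gk d s k + L * s) (-Kr d s k + L) s := by
      intro s hs
      have hs0 : s ≠ 0 := (lt_of_lt_of_le hr0 hs).ne'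
      exact ((hasDerivAt_Gk hk hs0).fun_add ((hasDerivAt_id' s).const_mul L)).congr_deriv
        (by ring)
    have hmono : MonotoneOn (fun s => Gk d s k + L * s) (Ici |r|) := by
      apply monotoneOn_of_deriv_nonneg (convex_Ici _)
      · exact fun s hs => (hder s hs).continuousAt.continuousWithinAt
      · exact fun s hs => (hder s (interior_subset hs)).differentiableAt.differentiableWithinAt
      · intro s hs
        have hs' : s ∈ Ici |r| := interior_subset hs
        rw [(hder s hs').deriv]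
        have hs0 : 0 < s := lt_of_lt_of_le hr0 hs'
        have h1 := abs_Kr_le hd hk hs0.ne'
        have h2 : Gam d s k ≤ Gam d r k :=
          Gam_anti hd hk hr (by rw [abs_of_pos hs0]; exact hs')
        have h3 := le_abs_self (Kr d s k)
        have : d / 2 * Gam d s k ≤ L := by rw [hL]; gcongr
        linarith
    have h1 := hmono (self_mem_Ici) (show |r'| ∈ Ici |r| from h) h
    simp only [Gk_abs] at h1
    have h2 : |r'| - |r| ≤ |r' - r| := abs_sub_abs_le_abs_sub _ _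
    have hL0 : 0 ≤ L := by positivity
    have h3 : L * (|r'| - |r|) ≤ L * |r' - r| := mul_le_mul_of_nonneg_left h2 hL0
    have h4 : d / 2 * |r' - r| * Gam d r k = L * |r' - r| := by rw [hL]; ring
    linarith

lemma G1_le_Gk (hk : |k| ≤ 1) (hr : 1 ≤ |r|) : G1 d r k ≤ Gk d r k := by
  have h1 : (1 : ℝ) ≤ W r k := by
    have h2 : W 1 k ≤ W r k := W_mono (by simpa using hr)
    have h3 : (3 : ℝ) / 2 ≤ cosh 1 := by
      rw [cosh_eq]
      have := exp_one_gt_d9
      have := exp_neg_one_gt_d9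
      linarith
    have := (abs_le.1 hk).2
    unfold W at h2 ⊢; linarith
  exact rpow_le_rpow_of_exponent_le h1 (by linarith)

lemma Gk_upper (hd : 0 < d) (hk : |k| ≤ 1) {η : ℝ} (h0 : 0 < η) (h1 : η ≤ 1) (hr : η ≤ r) :
    Gk d r k ≤ (2 / η) ^ d * exp (-d / 2 * r) := by
  have hE : 0 < exp r := exp_pos r
  have hw : (η / 2) ^ 2 * exp r ≤ W r k := by
    have e1 : exp (-r) ≤ exp (-η) := exp_le_exp.2 (by linarith)
    have e2 : exp (-η) ≤ 1 / (1 + η) := by
      rw [exp_neg, ← one_div]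
      exact one_div_le_one_div_of_le (by linarith) (by linarith [add_one_le_exp η])
    have e3 : 1 / (1 + η) ≤ 1 - η / 2 := by
      rw [div_le_iff₀ (by linarith)]; nlinarith
    have e4 : η / 2 ≤ 1 - exp (-r) := by linarith
    have e5 : (η / 2) ^ 2 ≤ (1 - exp (-r)) ^ 2 := by gcongr
    have e6 : exp r * exp (-r) = 1 := by rw [← exp_add]; simp
    have e7 : (1 - exp (-r)) ^ 2 * exp r = exp r + exp (-r) - 2 := by
      have : (1 - exp (-r)) ^ 2 * exp r
        = exp r - 2 * (exp r * exp (-r)) + exp (-r) * (exp r * exp (-r)) := by ring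
      rw [this, e6]; ring
    have e8 : (η / 2) ^ 2 * exp r ≤ (1 - exp (-r)) ^ 2 * exp r := by gcongr
    have := (abs_le.1 hk).2
    unfold W; rw [cosh_eq]; linarith
  have hp : 0 < (η / 2) ^ 2 * exp r := by positivity
  have h2 : Gk d r k ≤ ((η / 2) ^ 2 * exp r) ^ (-d / 2) :=
    rpow_le_rpow_of_nonpos hp hw (by linarith)
  refine h2.trans (le_of_eq ?_)
  rw [mul_rpow (by positivity) hE.le, ← exp_mul, mul_comm r]
  congr 1
  rw [← rpow_natCast, ← rpow_mul (by positivity), ← inv_div η 2, inv_rpow (by positivity),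
    ← rpow_neg (by positivity)]
  congr 1; push_cast; ring

lemma Gk_lower (hd : 0 < d) (hk : |k| ≤ 1) (hr : r ≠ 0) :
    (4 : ℝ) ^ (-d / 2) * exp (-d / 2 * |r|) ≤ Gk d r k := by
  have hw : W r k ≤ 4 * exp |r| := by
    rw [← W_abs]
    have e1 : exp (-|r|) ≤ exp |r| := exp_le_exp.2 (by linarith [abs_nonneg r])
    have e2 : 1 ≤ exp |r| := one_le_exp (abs_nonneg r)
    have := (abs_le.1 hk).1
    unfold W; rw [cosh_eq]; linarith
  have h2 : (4 * exp |r|) ^ (-d / 2) ≤ Gk d r k :=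
    rpow_le_rpow_of_nonpos (W_pos hk hr) hw (by linarith)
  refine le_trans (le_of_eq ?_) h2
  rw [mul_rpow (by norm_num) (exp_pos _).le, ← exp_mul, mul_comm |r|]

section meas
variable {α : Type*} [MeasurableSpace α] {a b : α → ℝ}

lemma measurable_W (ha : Measurable a) (hb : Measurable b) :
    Measurable fun x => W (a x) (b x) := by
  unfold W
  exact ((continuous_cosh.measurable.comp ha).const_mul 2).sub (hb.const_mul 2)

lemma measurable_Gk (ha : Measurable a) (hb : Measurable b) :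
    Measurable fun x => Gk d (a x) (b x) := (measurable_W ha hb).pow_const _

lemma measurable_G1 (ha : Measurable a) (hb : Measurable b) :
    Measurable fun x => G1 d (a x) (b x) := (measurable_W ha hb).pow_const _

lemma measurable_Gam (ha : Measurable a) (hb : Measurable b) :
    Measurable fun x => Gam d (a x) (b x) :=
  (measurable_Gk ha hb).add ((measurable_G1 ha hb).const_mul 2)

lemma measurable_Kr (ha : Measurable a) (hb : Measurable b) :
    Measurable fun x => Kr d (a x) (b x) := by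
  unfold Kr
  exact ((continuous_sinh.measurable.comp ha).const_mul d).mul ((measurable_W ha hb).pow_const _)

end meas

/-- Convexity of `s ^ (p+1)`. -/
lemma convex_pow_succ {p x y : ℝ} (hp : 0 < p) (hx : 0 ≤ x) (hy : 0 ≤ y) :
    x ^ p * (y - x) ≤ (y ^ (p + 1) - x ^ (p + 1)) / (p + 1) := by
  rcases hx.eq_or_lt with rfl | hx
  · rw [zero_rpow hp.ne', zero_rpow (by linarith)]
    simp only [zero_mul, sub_zero]
    positivity
  · rw [le_div_iff₀ (by linarith)]
    have h1 : 1 + (p + 1) * (y / x - 1) ≤ (1 + (y / x - 1)) ^ (p + 1) :=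
      one_add_mul_self_le_rpow_one_add (by have := div_nonneg hy hx.le; linarith) (by linarith)
    rw [add_sub_cancel, div_rpow hy hx.le, le_div_iff₀ (rpow_pos_of_pos hx _)] at h1
    have h2 : x ^ (p + 1) = x ^ p * x := rpow_add_one hx.ne' p
    have h3 : (1 + (p + 1) * (y / x - 1)) * x ^ (p + 1)
        = x ^ (p + 1) + x ^ p * (y - x) * (p + 1) := by
      rw [h2]; field_simp
    linarith

/-- Difference quotient lower bound. -/
lemma pow_sub_ge {p θ b b' : ℝ} (hp : 0 < p) (hθ : 0 < θ) (hb : 0 < b) (h1 : θ * b ≤ b')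
    (h2 : b' ≤ b) : p * θ ^ p * b ^ p * (b - b') ≤ b * (b ^ p - b' ^ p) := by
  have hb' : 0 < b' := lt_of_lt_of_le (by positivity) h1
  have e1 : b' ^ p * (1 + p * (1 - b' / b)) ≤ b ^ p := by
    have l1 : log (b' / b) ≤ b' / b - 1 := log_le_sub_one_of_pos (by positivity)
    have l2 : 1 + p * (1 - b' / b) ≤ exp (-(p * log (b' / b))) := by
      have := add_one_le_exp (-(p * log (b' / b)))
      nlinarith
    have l3 : b' ^ p * exp (-(p * log (b' / b))) = b ^ p := by
      rw [rpow_def_of_pos hb', rpow_def_of_pos hb, ← exp_add, log_div hb'.ne' hb.ne']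
      congr 1; ring
    rw [← l3]
    exact mul_le_mul_of_nonneg_left l2 (rpow_nonneg hb'.le _)
  have e2 : θ ^ p * b ^ p ≤ b' ^ p := by
    rw [← mul_rpow hθ.le hb.le]
    exact rpow_le_rpow (by positivity) h1 hp.le
  have e3 : b * (b' ^ p * (1 + p * (1 - b' / b))) = b * b' ^ p + p * b' ^ p * (b - b') := by
    field_simp
  have e4 : b * (b' ^ p * (1 + p * (1 - b' / b))) ≤ b * b ^ p :=
    mul_le_mul_of_nonneg_left e1 hb.le
  have e5 : p * (θ ^ p * b ^ p) * (b - b') ≤ p * b' ^ p * (b - b') := by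
    have : 0 ≤ b - b' := by linarith
    gcongr
  nlinarith

end Vale.Agent.P100
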