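import Vale.Agent.P100.KeyB

/-! The key inequality. -/

open Real Set MeasureTheory Filter Topology

namespace Vale.Agent.P100

variable {S : Type*} [MeasurableSpace S]

namespace Geo

variable {g : Geo S}

lemma J_assoc (η : ℝ) (φ W : ℝ × S → ℝ) :
    ∫ x, J η x * φ x * W x ∂g.m = ∫ x, J η x * (φ x * W x) ∂g.m := by
  simp only [mul_assoc]

lemma J_mono {Φ Ψ : ℝ × S → ℝ} (η : ℝ) (hΦ : Integrable Φ g.m) (hΨ : Integrable Ψ g.m)
    (h : ∀ x, 0 < x.1 → Φ x ≤ Ψ x) :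
    ∫ x, Φ x ∂g.m - ∫ x, J η x * Φ x ∂g.m ≤ ∫ x, Ψ x ∂g.m - ∫ x, J η x * Ψ x ∂g.m := by
  rw [← integral_sub hΦ (g.integrable_J_mul hΦ η), ← integral_sub hΨ (g.integrable_J_mul hΨ η)]
  refine integral_mono_ae (isub hΦ (g.integrable_J_mul hΦ η))
    (isub hΨ (g.integrable_J_mul hΨ η)) ?_
  filter_upwards [g.ae_H] with x hx
  have := mul_le_mul_of_nonneg_left (h x hx) (sub_nonneg.2 (J_le_one η x))
  linarith

lemma J_bounds {Φ : ℝ × S → ℝ} (η : ℝ) (hΦ : Integrable Φ g.m) (h : ∀ x, 0 < x.1 → 0 ≤ Φ x) :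
    0 ≤ ∫ x, J η x * Φ x ∂g.m ∧ ∫ x, J η x * Φ x ∂g.m ≤ ∫ x, Φ x ∂g.m := by
  constructor
  · refine integral_nonneg_of_ae ?_
    filter_upwards [g.ae_H] with x hx
    exact mul_nonneg (J_nonneg η x) (h x hx)
  · refine integral_mono_ae (g.integrable_J_mul hΦ η) hΦ ?_
    filter_upwards [g.ae_H] with x hx
    exact mul_le_of_le_one_left (h x hx) (J_le_one η x)

lemma Side.part_le {φ1 φ2 U1 U2 : ℝ × S → ℝ} {C : ℝ} (H : g.Side φ1 φ2 U1 U2 C) (x : ℝ × S)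
    (hx : 0 < x.1) : ∫ y, g.Gm x y * φ1 y ∂g.m ≤ U1 x := by
  have : 0 ≤ ∫ y, g.Gp x y * φ2 y ∂g.m := by
    refine integral_nonneg_of_ae ?_
    filter_upwards [g.ae_H] with y hy
    exact mul_nonneg (g.Gp_nonneg x y) (H.src.n2 y hy)
  rw [H.e1 x hx, pot]; linarith

theorem key_core {p q a b α β C κ η : ℝ} {U1 U2 V1 V2 : ℝ × S → ℝ} (hp : 0 < p) (hq : 0 < q)
    (hκ : 1 < κ) (hκ2 : κ ^ 2 < p * q) (hab : 0 < a / (p + 1) + b / (q + 1))
    (hα : 0 < α) (hβ : 0 < β) (mU1 : Measurable U1) (mU2 : Measurable U2) (mV1 : Measurable V1)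
    (mV2 : Measurable V2) (pU1 : ∀ x, 0 < x.1 → 0 < U1 x) (pU2 : ∀ x, 0 < x.1 → 0 < U2 x)
    (pV1 : ∀ x, 0 < x.1 → 0 < V1 x) (pV2 : ∀ x, 0 < x.1 → 0 < V2 x)
    (HF : g.Side (fun x => wt α a x * V1 x ^ p) (fun x => wt α (-a) x * V2 x ^ p) U1 U2 C)
    (HG : g.Side (fun x => wt β b x * U1 x ^ q) (fun x => wt β (-b) x * U2 x ^ q) V1 V2 C)
    (h0 : 0 < η) (h1 : η ≤ 1) :
    ∫ x, J η x * (wt α a x * V1 x ^ p * V1 x) ∂g.m + ∫ x, J η x * (wt β b x * U1 x ^ q * U1 x) ∂g.m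
      ≤ 2 / (a / (p + 1) + b / (q + 1)) * ((|a / (p + 1)| + |b / (q + 1)|) * (3 + 2 * (κ / (κ - 1))))
        * ((∫ x, wt α a x * V1 x ^ p * V1 x ∂g.m + ∫ x, wt β b x * U1 x ^ q * U1 x ∂g.m
          - (∫ x, J η x * (wt α a x * V1 x ^ p * V1 x) ∂g.m
            + ∫ x, J η x * (wt β b x * U1 x ^ q * U1 x) ∂g.m))
        + (2 / η) ^ g.d *
          (∫ x, exp (-g.d / 2 * x.1) * (wt α a x * V1 x ^ p + wt α (-a) x * V2 x ^ p) ∂g.m) *
          ∫ x, exp (-g.d / 2 * x.1) * (wt β b x * U1 x ^ q + wt β (-b) x * U2 x ^ q) ∂g.m) := by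
  set f1 : ℝ × S → ℝ := fun x => wt α a x * V1 x ^ p with hf1
  set f2 : ℝ × S → ℝ := fun x => wt α (-a) x * V2 x ^ p with hf2
  set g1 : ℝ × S → ℝ := fun x => wt β b x * U1 x ^ q with hg1
  set g2 : ℝ × S → ℝ := fun x => wt β (-b) x * U2 x ^ q with hg2
  have D : MinData (wt α |a|) (wt β |b|) (g.hm f1 f2) (g.hm g1 g2) p q :=
    ⟨measurable_wt _ _, measurable_wt _ _, HF.h_meas, HG.h_meas, fun x _ => wt_pos hα _ x,
      fun x _ => wt_pos hβ _ x, HF.h_pos, HG.h_pos, hp, hq⟩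
  have wle : ∀ {γ c c' r : ℝ} {w w' : ℝ × S → ℝ}, 0 < γ → c' ≤ |c| → 0 < r →
      (∀ x, 0 < x.1 → 0 < w x) → (∀ x, 0 < x.1 → w x ≤ w' x) → ∀ y, 0 < y.1 →
      0 ≤ wt γ |c| y * w y ^ r ∧ wt γ |c| y * w y ^ r ≤ wt γ c' y * w' y ^ r := by
    intro γ c c' r w w' hγ hc hr hw hw' y hy
    have a1 := wt_pos hγ |c| y
    have a2 := (hw y hy).le
    exact ⟨by positivity, mul_le_mul (wt_abs_le hγ hc hy) (rpow_le_rpow a2 (hw' y hy) hr.le)
      (by positivity) (wt_pos hγ c' y).le⟩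
  have s1 := sup_side HF.src.m1 D.mk1 mV1 (wle hα (le_abs_self a) hp pV1 fun _ _ => le_rfl)
    (fun x hx => (HF.src.q1 x hx).1) HF.d1
  have s2 := sup_side HG.src.m1 D.mk2 mU1 (wle hβ (le_abs_self b) hq pU1 fun _ _ => le_rfl)
    (fun x hx => (HG.src.q1 x hx).1) HG.d1
  have s3 := sup_side HF.src.m2 D.mk1 mV2 (wle hα (neg_le_abs a) hp pV2 fun _ _ => le_rfl)
    HF.i2 HF.d2
  have s4 := sup_side HG.src.m2 D.mk2 mU2 (wle hβ (neg_le_abs b) hq pU2 fun _ _ => le_rfl)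
    HG.i2 HG.d2
  have S1 : g.Sup (wt α |a|) (wt β |b|) (g.hm f1 f2) (g.hm g1 g2) p q U1 V1 :=
    ⟨fun x hx => (s1 x hx).1, fun x hx => (s2 x hx).1, fun x hx => (s1 x hx).2.1,
      fun x hx => (s2 x hx).2.1, fun x hx => (s1 x hx).2.2, fun x hx => (s2 x hx).2.2⟩
  have S2 : g.Sup (wt α |a|) (wt β |b|) (g.hm f1 f2) (g.hm g1 g2) p q U2 V2 :=
    ⟨fun x hx => (s3 x hx).1, fun x hx => (s4 x hx).1, fun x hx => (s3 x hx).2.1,
      fun x hx => (s4 x hx).2.1, fun x hx => (s3 x hx).2.2, fun x hx => (s4 x hx).2.2⟩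
  obtain ⟨A, B, M⟩ := exists_min D S1
  have l1 := M.le _ _ S1
  have l2 := M.le _ _ S2
  set fb : ℝ × S → ℝ := fun x => wt α |a| x * B x ^ p with hfb
  set gb : ℝ × S → ℝ := fun x => wt β |b| x * A x ^ q with hgb
  have mfb : Measurable fb := D.mk1.mul (M.mb.pow_const p)
  have mgb : Measurable gb := D.mk2.mul (M.ma.pow_const q)
  have bf : ∀ y, 0 < y.1 → 0 ≤ fb y ∧ fb y ≤ f1 y ∧ fb y ≤ f2 y := fun y hy =>
    ⟨(wle hα (le_abs_self a) hp M.bp (fun x hx => (l1 x hx).2) y hy).1,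
      (wle hα (le_abs_self a) hp M.bp (fun x hx => (l1 x hx).2) y hy).2,
      (wle hα (neg_le_abs a) hp M.bp (fun x hx => (l2 x hx).2) y hy).2⟩
  have bg : ∀ y, 0 < y.1 → 0 ≤ gb y ∧ gb y ≤ g1 y ∧ gb y ≤ g2 y := fun y hy =>
    ⟨(wle hβ (le_abs_self b) hq M.ap (fun x hx => (l1 x hx).1) y hy).1,
      (wle hβ (le_abs_self b) hq M.ap (fun x hx => (l1 x hx).1) y hy).2,
      (wle hβ (neg_le_abs b) hq M.ap (fun x hx => (l2 x hx).1) y hy).2⟩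
  have sf := HF.flat_src mfb bf
  have sg := HG.flat_src mgb bg
  have eA : ∀ x, 0 < x.1 → A x = g.hm f1 f2 x + ∫ y, g.GD x y * fb y ∂g.m := M.ea
  have eB : ∀ x, 0 < x.1 → B x = g.hm g1 g2 x + ∫ y, g.GD x y * gb y ∂g.m := M.eb
  have hC := le_abs_self C
  have hC0 := abs_nonneg C
  have bB : ∀ x, 0 < x.1 → 0 ≤ B x ∧ B x ≤ V1 x ∧ V1 x ≤ 2 * |C| ∧
      V1 x - B x ≤ g.d * |C| * x.1 := fun x hx =>
    ⟨(M.bp x hx).le, (l1 x hx).2, by linarith [HG.U1_le x hx],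
      by rw [eB x hx]; exact HG.flat_gap mgb bg x hx⟩
  have bA : ∀ x, 0 < x.1 → 0 ≤ A x ∧ A x ≤ U1 x ∧ U1 x ≤ 2 * |C| ∧
      U1 x - A x ≤ g.d * |C| * x.1 := fun x hx =>
    ⟨(M.ap x hx).le, (l1 x hx).1, by linarith [HF.U1_le x hx],
      by rw [eA x hx]; exact HF.flat_gap mfb bf x hx⟩
  have hd := g.hd
  have iP : Integrable (fun x => f1 x * V1 x) g.m :=
    int_bdd HF.src.i1 mV1 fun x hx => ⟨(pV1 x hx).le, (bB x hx).2.2.1⟩
  have iQ : Integrable (fun x => g1 x * U1 x) g.m :=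
    int_bdd HG.src.i1 mU1 fun x hx => ⟨(pU1 x hx).le, (bA x hx).2.2.1⟩
  have ip : Integrable (fun x => fb x * B x) g.m :=
    int_bdd sf.i1 M.mb fun x hx => ⟨(bB x hx).1, (bB x hx).2.1.trans (bB x hx).2.2.1⟩
  have iq : Integrable (fun x => gb x * A x) g.m :=
    int_bdd sg.i1 M.ma fun x hx => ⟨(bA x hx).1, (bA x hx).2.1.trans (bA x hx).2.2.1⟩
  have vir : a / (p + 1) * ∫ x, f1 x * V1 x ∂g.m + b / (q + 1) * ∫ x, g1 x * U1 x ∂g.m
      ≤ |a / (p + 1)| * ∫ x, fb x * B x ∂g.m + |b / (q + 1)| * ∫ x, gb x * A x ∂g.m := by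
    obtain ⟨L1, t1, u1⟩ := virial HF.src HG.src (s := 1) abs_one
    obtain ⟨L2, t2, u2⟩ := virial sf sg (s := -1) (by simp)
    obtain ⟨R1, t3, u3⟩ := one_side (g := g) (a := a) hα hp mV1 M.mb (by positivity)
      (by positivity) bB HF.src.i1 sf.i1
    obtain ⟨R2, t4, u4⟩ := one_side (g := g) (a := b) hβ hq mU1 M.ma (by positivity)
      (by positivity) bA HG.src.i1 sg.i1
    have eA' : ∀ x, 0 < x.1 → A x = g.pot fb (fun y => f1 y + f2 y - fb y) x := fun x hx => by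
      rw [eA x hx, HF.flat_pot mfb bf x hx]
    have eB' : ∀ x, 0 < x.1 → B x = g.pot gb (fun y => g1 y + g2 y - gb y) x := fun x hx => by
      rw [eB x hx, HG.flat_pot mgb bg x hx]
    have cr := cross_le HF.src HG.src sf sg (fun y hy => (bf y hy).2) (fun y hy => (bg y hy).2)
    have lim := le_of_tendsto_of_tendsto (t1.add t2) (t3.add t4) (by
      filter_upwards [Ioc_mem_nhdsGT (zero_lt_one' ℝ)] with ε hε
      have v1 := u1 ε hε.1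
      have v2 := u2 ε hε.1
      have v3 := u3 ε hε.1 hε.2
      have v4 := u4 ε hε.1 hε.2
      rw [one_mul, ← congr_shift ε HG.e1, ← congr_shift ε HF.e1] at v1
      rw [neg_one_mul, ← congr_shift (-ε) eB', ← congr_shift (-ε) eA'] at v2
      simp only [hf1, hg1, hfb, hgb] at v1 v2
      have v5 : ε * (L1 ε + L2 ε) ≤ ε * (R1 ε + R2 ε) := by linarith
      exact le_of_mul_le_mul_left v5 hε.1)
    rw [abs_div, abs_div, abs_of_pos (by linarith : 0 < p + 1),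
      abs_of_pos (by linarith : 0 < q + 1)]
    simp only [div_mul_eq_mul_div]
    rw [sub_div, sub_div] at lim
    linarith
  have iF := HF.im
  have iG := HG.im
  have nf : ∀ x, 0 < x.1 → 0 ≤ f1 x ∧ f1 x ≤ f1 x + f2 x := fun x hx =>
    ⟨HF.src.n1 x hx, by linarith [HF.src.n2 x hx]⟩
  have ng : ∀ x, 0 < x.1 → 0 ≤ g1 x ∧ g1 x ≤ g1 x + g2 x := fun x hx =>
    ⟨HG.src.n1 x hx, by linarith [HG.src.n2 x hx]⟩
  obtain ⟨t1, t2⟩ := energy_split (W := V1) (W' := fun x => g1 x * U1 x) h0 h1 HF.src.m1 HG.src.m1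
    g.meas_Gm g.Gm_symm nf HG.src.n1 g.Gm_nonneg HF.src.i1 HG.src.i1 HF.src.q1 HG.src.q1 HG.src.m2
    (fun x hx => ⟨HG.src.n2 x hx, by linarith [HG.src.n1 x hx]⟩) iF iG (fun _ _ => rfl)
    (fun x hx => by rw [HG.e1 x hx, pot, add_comm])
    (fun x hx => mul_le_mul_of_nonneg_left (HF.part_le x hx) (HG.src.n1 x hx)) iQ
  obtain ⟨t3, t4⟩ := energy_split (W := U1) (W' := fun x => f1 x * V1 x) h0 h1 HG.src.m1 HF.src.m1
    g.meas_Gm g.Gm_symm ng HF.src.n1 g.Gm_nonneg HG.src.i1 HF.src.i1 HG.src.q1 HF.src.q1 HF.src.m2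
    (fun x hx => ⟨HF.src.n2 x hx, by linarith [HF.src.n1 x hx]⟩) iG iF (fun _ _ => rfl)
    (fun x hx => by rw [HF.e1 x hx, pot, add_comm])
    (fun x hx => mul_le_mul_of_nonneg_left (HG.part_le x hx) (HF.src.n1 x hx)) iP
  have sy1 := (split η HF.src.m1 HG.src.m1 g.meas_Gm g.Gm_symm HF.src.n1 HG.src.n1 g.Gm_nonneg
    HF.src.i1 HG.src.i1 HF.src.q1 HG.src.q1).2.1
  have gA : ∀ x, 0 < x.1 → gb x * ∫ y, g.GD x y * fb y ∂g.m ≤ g1 x * U1 x := fun x hx =>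
    mul_le_mul (bg x hx).2.1 (by linarith [eA x hx, (bA x hx).2.1, HF.h_pos x hx])
      (by
        refine integral_nonneg_of_ae ?_
        filter_upwards [g.ae_H] with y hy
        exact mul_nonneg (g.GD_nonneg x y) (bf y hy).1) (HG.src.n1 x hx)
  have gB : ∀ x, 0 < x.1 → fb x * ∫ y, g.GD x y * gb y ∂g.m ≤ f1 x * V1 x := fun x hx =>
    mul_le_mul (bf x hx).2.1 (by linarith [eB x hx, (bB x hx).2.1, HG.h_pos x hx])
      (by
        refine integral_nonneg_of_ae ?_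
        filter_upwards [g.ae_H] with y hy
        exact mul_nonneg (g.GD_nonneg x y) (bg y hy).1) (HF.src.n1 x hx)
  obtain ⟨-, r2⟩ := energy_split (W := B) (W' := fun x => g1 x * U1 x) h0 h1 mfb mgb
    g.meas_GD g.GD_symm (fun x hx => ⟨(bf x hx).1, (bf x hx).2.1.trans (nf x hx).2⟩) sg.n1
    g.GD_nonneg sf.i1 sg.i1 (HF.flat_GD mfb bf) (HG.flat_GD mgb bg)
    (χ := fun x => g1 x + g2 x) (HG.src.m1.add HG.src.m2)
    (fun x hx => ⟨(ng x hx).1.trans (ng x hx).2, le_rfl⟩) iF iG (fun _ _ => rfl) eB gA iQ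
  obtain ⟨-, r4⟩ := energy_split (W := A) (W' := fun x => f1 x * V1 x) h0 h1 mgb mfb
    g.meas_GD g.GD_symm (fun x hx => ⟨(bg x hx).1, (bg x hx).2.1.trans (ng x hx).2⟩) sf.n1
    g.GD_nonneg sg.i1 sf.i1 (HG.flat_GD mgb bg) (HF.flat_GD mfb bf)
    (χ := fun x => f1 x + f2 x) (HF.src.m1.add HF.src.m2)
    (fun x hx => ⟨(nf x hx).1.trans (nf x hx).2, le_rfl⟩) iG iF (fun _ _ => rfl) eA gB iP
  obtain ⟨iν, sy2, -⟩ := split η mfb mgb g.meas_GD g.GD_symm sf.n1 sg.n1 g.GD_nonneg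
    sf.i1 sg.i1 (HF.flat_GD mfb bf) (HG.flat_GD mgb bg)
  have st := M.stab κ η hκ2
    ((g.integrable_J_mul ip η).congr (ae_of_all _ fun x => (mul_assoc _ _ _).symm))
    ((g.integrable_J_mul iq η).congr (ae_of_all _ fun x => (mul_assoc _ _ _).symm)) iν
  have mf0 : 0 ≤ ∫ x, exp (-g.d / 2 * x.1) * (f1 x + f2 x) ∂g.m := by
    refine integral_nonneg_of_ae ?_
    filter_upwards [g.ae_H] with x hx
    exact mul_nonneg (exp_pos _).le ((nf x hx).1.trans (nf x hx).2)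
  have mg0 : 0 ≤ ∫ x, exp (-g.d / 2 * x.1) * (g1 x + g2 x) ∂g.m := by
    refine integral_nonneg_of_ae ?_
    filter_upwards [g.ae_H] with x hx
    exact mul_nonneg (exp_pos _).le ((ng x hx).1.trans (ng x hx).2)
  rw [J_assoc] at t1 t2 t3 t4 r2 r4
  rw [← sy1, mul_right_comm ((2 / η) ^ g.d)] at t4
  rw [← sy1] at t3
  rw [← sy2, mul_right_comm ((2 / η) ^ g.d)] at r4
  rw [J_assoc, J_assoc] at st
  have jP := J_bounds η iP fun x hx => mul_nonneg (HF.src.n1 x hx) (pV1 x hx).le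
  have jQ := J_bounds η iQ fun x hx => mul_nonneg (HG.src.n1 x hx) (pU1 x hx).le
  have jp := J_bounds η ip fun x hx => mul_nonneg (bf x hx).1 (bB x hx).1
  have jq := J_bounds η iq fun x hx => mul_nonneg (bg x hx).1 (bA x hx).1
  have kp := J_mono η ip iP fun x hx =>
    mul_le_mul (bf x hx).2.1 (bB x hx).2.1 (bB x hx).1 (HF.src.n1 x hx)
  have kq := J_mono η iq iQ fun x hx =>
    mul_le_mul (bg x hx).2.1 (bA x hx).2.1 (bA x hx).1 (HG.src.n1 x hx)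
  exact key_algebra hab hκ (by positivity) vir jP.2 jQ.2 jp.1 jq.1 kp kq t1 t2 t3 t4 r2 r4 st

end Geo

end Vale.Agent.P100
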