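import Vale.Agent.P100.Minimal

/-! Pressure terms and auxiliary splitting lemmas. -/

open Real Set MeasureTheory Filter Topology

namespace Vale.Agent.P100

variable {S : Type*} [MeasurableSpace S]

noncomputable def wt (α a : ℝ) (x : ℝ × S) : ℝ := α * exp (-a * x.1)

lemma measurable_wt (α a : ℝ) : Measurable (wt α a : ℝ × S → ℝ) :=
  (measurable_exp.comp (measurable_fst.const_mul (-a))).const_mul α

omit [MeasurableSpace S] in
lemma wt_pos {α : ℝ} (hα : 0 < α) (a : ℝ) (x : ℝ × S) : 0 < wt α a x := by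
  unfold wt; positivity

omit [MeasurableSpace S] in
lemma wt_abs_le {α a a' : ℝ} (hα : 0 < α) (h : a' ≤ a) {x : ℝ × S} (hx : 0 < x.1) :
    wt α a x ≤ wt α a' x := by
  unfold wt
  exact mul_le_mul_of_nonneg_left (exp_le_exp.2 (by nlinarith)) hα.le

omit [MeasurableSpace S] in
lemma shf_mem {h : ℝ} {x : ℝ × S} (hx : h < x.1) : 0 < (shf h x).1 := by simpa [shf] using hx

lemma rpow_succ' {x p : ℝ} (hx : 0 ≤ x) (hp : 0 < p) : x ^ (p + 1) = x ^ p * x :=
  rpow_add_one' hx (by linarith)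

lemma exp_quot_tendsto (a : ℝ) :
    Tendsto (fun ε => (exp (a * ε) - 1) / ε) (𝓝[>] 0) (𝓝 a) := by
  have h1 : HasDerivAt (fun ε : ℝ => exp (a * ε)) a 0 :=
    (((hasDerivAt_id' (0 : ℝ)).const_mul a).exp).congr_deriv (by simp)
  have h5 := h1.tendsto_slope_zero_right
  simp only [zero_add, mul_zero, exp_zero, smul_eq_mul] at h5
  refine h5.congr fun ε => ?_
  rw [div_eq_inv_mul]

lemma layer_pt {α a p B L t ε v b : ℝ} (hα : 0 < α) (hp : 0 < p) (hL : 0 ≤ L) (hB0 : 0 ≤ B)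
    (hx : 0 < t) (hxε : t ≤ ε) (hε1 : ε ≤ 1) (b0 : 0 ≤ b) (b1 : b ≤ v) (b2 : v ≤ B)
    (b3 : v - b ≤ L * t) :
    α * exp (-a * t) * v ^ p * v - α * exp (-|a| * t) * b ^ p * b ≤
      (α * (2 * |a| * exp |a|) * (B ^ p * B) + α * ((p + 1) * B ^ p * L)) * ε := by
  have hε : 0 < ε := hx.trans_le hxε
  have V0 : 0 ≤ v := b0.trans b1
  have c1 := convex_pow_succ hp V0 b0
  rw [rpow_succ' V0 hp, rpow_succ' b0 hp, le_div_iff₀ (by linarith)] at c1
  have c2 : v ^ p ≤ B ^ p := rpow_le_rpow V0 b2 hp.le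
  have c3 : 0 ≤ v ^ p := rpow_nonneg V0 p
  have c4 : v ^ p * v - b ^ p * b ≤ (p + 1) * B ^ p * L * ε := by
    have : v ^ p * (v - b) ≤ B ^ p * (L * ε) :=
      mul_le_mul c2 (b3.trans (by gcongr)) (by linarith) (by positivity)
    nlinarith
  have c5 : v ^ p * v ≤ B ^ p * B := by gcongr
  have c6 : exp (-a * t) - exp (-|a| * t) ≤ 2 * |a| * exp |a| * ε := by
    have ha0 := abs_nonneg a
    have d1 : exp (-a * t) ≤ exp (|a| * t) :=
      exp_le_exp.2 (by nlinarith [neg_abs_le a])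
    have d2 : exp (-|a| * t) = exp (|a| * t) * exp (-(2 * |a| * t)) := by
      rw [← exp_add]; congr 1; ring
    have d3 := add_one_le_exp (-(2 * |a| * t))
    have d4 : exp (|a| * t) ≤ exp |a| := exp_le_exp.2 (by nlinarith)
    have d5 := exp_pos (|a| * t)
    have d6 : exp (|a| * t) - exp (-|a| * t) ≤ exp (|a| * t) * (2 * |a| * t) := by
      rw [d2]; nlinarith
    have d7 : exp (|a| * t) * (2 * |a| * t) ≤ exp |a| * (2 * |a| * ε) := by gcongr
    linarith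
  have c7 : exp (-|a| * t) ≤ 1 := exp_le_one_iff.2 (by nlinarith [abs_nonneg a])
  have c9 : 0 ≤ v ^ p * v - b ^ p * b := by
    have : b ^ p * b ≤ v ^ p * v := by
      have := rpow_nonneg b0 p
      have := rpow_le_rpow b0 b1 hp.le
      gcongr
    linarith
  have e1 : α * exp (-a * t) * v ^ p * v - α * exp (-|a| * t) * b ^ p * b
      = α * ((exp (-a * t) - exp (-|a| * t)) * (v ^ p * v))
        + α * (exp (-|a| * t) * (v ^ p * v - b ^ p * b)) := by
    ring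
  have e2 : (exp (-a * t) - exp (-|a| * t)) * (v ^ p * v)
      ≤ (2 * |a| * exp |a| * ε) * (B ^ p * B) :=
    mul_le_mul c6 c5 (by positivity) (by positivity)
  have e3 : exp (-|a| * t) * (v ^ p * v - b ^ p * b) ≤ (p + 1) * B ^ p * L * ε :=
    (mul_le_of_le_one_left c9 c7).trans c4
  rw [e1]
  have e4 := mul_le_mul_of_nonneg_left e2 hα.le
  have e5 := mul_le_mul_of_nonneg_left e3 hα.le
  linarith

namespace Geo

variable {g : Geo S}

lemma int_bdd {f W : ℝ × S → ℝ} {B : ℝ} (hf : Integrable f g.m) (hW : Measurable W)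
    (h : ∀ x, 0 < x.1 → 0 ≤ W x ∧ W x ≤ B) : Integrable (fun x => f x * W x) g.m := by
  refine hf.mul_bdd (c := B) hW.aestronglyMeasurable ?_
  filter_upwards [g.ae_H] with x hx
  rw [norm_of_nonneg (h x hx).1]; exact (h x hx).2

lemma congr_shift {f W W' : ℝ × S → ℝ} (h : ℝ) (hW : ∀ x, 0 < x.1 → W x = W' x) :
    ∫ x, J h x * f x * (W (shf h x) - W x) ∂g.m
      = ∫ x, J h x * f x * (W' (shf h x) - W' x) ∂g.m := by
  refine integral_congr_ae ?_
  filter_upwards [g.ae_H] with x hx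
  by_cases hJ : h < x.1
  · rw [hW x hx, hW _ (shf_mem hJ)]
  · simp [J, hJ]

lemma press {W : ℝ × S → ℝ} {α a p B : ℝ} (hα : 0 < α) (hp : 0 < p) (hW : Measurable W)
    (hB : ∀ x, 0 < x.1 → 0 ≤ W x ∧ W x ≤ B)
    (hi : Integrable (fun x => wt α a x * W x ^ p) g.m) (h : ℝ) :
    ∫ x, J h x * (wt α a x * W x ^ p) * (W (shf h x) - W x) ∂g.m ≤
      (exp (-a * h) * ∫ x, J (-h) x * (wt α a x * W x ^ p * W x) ∂g.m
        - ∫ x, J h x * (wt α a x * W x ^ p * W x) ∂g.m) / (p + 1) := by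
  have hE : Integrable (fun x => wt α a x * W x ^ p * W x) g.m := int_bdd hi hW hB
  have h1 := (g.integrable_shift h _).2 (g.integrable_J_mul hE (-h))
  have h2 := g.integrable_J_mul hE h
  have h3 : Integrable (fun x => J h x * (wt α a x * W x ^ p) * (W (shf h x) - W x)) g.m := by
    have b1 : Integrable (fun x => (wt α a x * W x ^ p) * (J h x * W (shf h x))) g.m := by
      refine int_bdd (B := |B|) hi ((measurable_J h).mul (hW.comp (measurable_shf h))) ?_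
      intro x _
      by_cases hJ : h < x.1
      · simpa [J, hJ] using ⟨(hB _ (shf_mem hJ)).1, (hB _ (shf_mem hJ)).2.trans (le_abs_self B)⟩
      · simp [J, hJ]
    refine (isub b1 h2).congr (ae_of_all _ fun x => ?_)
    simp only; ring
  rw [← g.integral_shift h, ← integral_const_mul, ← integral_sub (h1.const_mul _) h2,
    ← integral_div]
  refine integral_mono_ae h3 ((isub (h1.const_mul _) h2).div_const _) ?_
  filter_upwards [g.ae_H] with x hx
  by_cases hJ : h < x.1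
  · have c1 := convex_pow_succ hp (hB x hx).1 (hB _ (shf_mem hJ)).1
    rw [rpow_succ' (hB x hx).1 hp, rpow_succ' (hB _ (shf_mem hJ)).1 hp] at c1
    have c2 : wt α a x = exp (-a * h) * wt α a (shf h x) := by
      simp only [wt, shf]
      rw [mul_left_comm, ← exp_add]; congr 2; ring
    have c3 := mul_le_mul_of_nonneg_left c1 (wt_pos hα a x).le
    simp only [J, hJ, if_true, one_mul]
    calc _ = wt α a x * (W x ^ p * (W (shf h x) - W x)) := by ring
      _ ≤ _ := c3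
      _ = _ := by
        rw [← mul_assoc (exp (-a * h)), ← mul_assoc (exp (-a * h)), ← c2]; ring
  · simp [J, hJ]

lemma J_neg_int {Φ : ℝ × S → ℝ} {ε : ℝ} (hε : 0 < ε) :
    ∫ x, J (-ε) x * Φ x ∂g.m = ∫ x, Φ x ∂g.m := by
  refine integral_congr_ae ?_
  filter_upwards [g.ae_H] with x hx
  have : -ε < x.1 := by linarith
  simp [J, this]

lemma layer {Φ : ℝ × S → ℝ} {L ε : ℝ} (hΦ : Integrable Φ g.m) (hε : 0 < ε) (hL : 0 ≤ L)
    (h : ∀ x, 0 < x.1 → x.1 ≤ ε → Φ x ≤ L) :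
    ∫ x, Φ x ∂g.m - ∫ x, J ε x * Φ x ∂g.m ≤ L * (ε * g.σ.real univ) := by
  have hs : MeasurableSet (Ioc (0 : ℝ) ε ×ˢ (univ : Set S)) :=
    measurableSet_Ioc.prod MeasurableSet.univ
  have hm : g.m (Ioc (0 : ℝ) ε ×ˢ (univ : Set S)) = ENNReal.ofReal ε * g.σ univ := by
    rw [m, Measure.restrict_apply hs, inter_eq_left.2 (fun x hx => hx.1.1), μ, Measure.prod_prod]
    simp
  have hfin : g.m (Ioc (0 : ℝ) ε ×ˢ (univ : Set S)) ≠ ⊤ := by
    rw [hm]; exact ENNReal.mul_ne_top ENNReal.ofReal_ne_top (measure_ne_top _ _)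
  have hI : Integrable ((Ioc (0 : ℝ) ε ×ˢ (univ : Set S)).indicator fun _ => L) g.m :=
    (integrable_indicator_iff hs).2 (integrableOn_const hfin)
  rw [← integral_sub hΦ (g.integrable_J_mul hΦ ε)]
  refine (integral_mono_ae (isub hΦ (g.integrable_J_mul hΦ ε)) hI ?_).trans (le_of_eq ?_)
  · filter_upwards [g.ae_H] with x hx
    by_cases hJ : ε < x.1
    · simp only [J, hJ, if_true, one_mul, sub_self]
      exact indicator_nonneg (fun _ _ => hL) x
    · have hm : x ∈ Ioc (0 : ℝ) ε ×ˢ (univ : Set S) := ⟨⟨hx, not_lt.1 hJ⟩, mem_univ _⟩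
      simp only [J, hJ, if_false, zero_mul, sub_zero, indicator_of_mem hm]
      exact h x hx (not_lt.1 hJ)
  · rw [integral_indicator_const _ hs, Measure.real, hm, ENNReal.toReal_mul,
      ENNReal.toReal_ofReal hε.le, smul_eq_mul, mul_comm]
    rfl

lemma one_side {V b : ℝ × S → ℝ} {α a p B L : ℝ} (hα : 0 < α) (hp : 0 < p) (hV : Measurable V)
    (hb : Measurable b) (hL : 0 ≤ L) (hB0 : 0 ≤ B)
    (hB : ∀ x, 0 < x.1 → 0 ≤ b x ∧ b x ≤ V x ∧ V x ≤ B ∧ V x - b x ≤ L * x.1)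
    (hi : Integrable (fun x => wt α a x * V x ^ p) g.m)
    (hi' : Integrable (fun x => wt α |a| x * b x ^ p) g.m) :
    ∃ R : ℝ → ℝ, Tendsto R (𝓝[>] 0) (𝓝 ((|a| * ∫ x, wt α |a| x * b x ^ p * b x ∂g.m
        - a * ∫ x, wt α a x * V x ^ p * V x ∂g.m) / (p + 1))) ∧
      ∀ ε, 0 < ε → ε ≤ 1 →
        ∫ x, J ε x * (wt α a x * V x ^ p) * (V (shf ε x) - V x) ∂g.m
        + ∫ x, J (-ε) x * (wt α |a| x * b x ^ p) * (b (shf (-ε) x) - b x) ∂g.m ≤ ε * R ε := by
  have hBV : ∀ x, 0 < x.1 → 0 ≤ V x ∧ V x ≤ B := fun x hx =>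
    ⟨(hB x hx).1.trans (hB x hx).2.1, (hB x hx).2.2.1⟩
  have hBb : ∀ x, 0 < x.1 → 0 ≤ b x ∧ b x ≤ B := fun x hx =>
    ⟨(hB x hx).1, (hB x hx).2.1.trans (hB x hx).2.2.1⟩
  have hE := int_bdd hi hV hBV
  have hE' := int_bdd hi' hb hBb
  set E := ∫ x, wt α a x * V x ^ p * V x ∂g.m with hEd
  set E' := ∫ x, wt α |a| x * b x ^ p * b x ∂g.m with hEd'
  set L' := α * (2 * |a| * exp |a|) * (B ^ p * B) + α * ((p + 1) * B ^ p * L) with hL'
  have hL'0 : 0 ≤ L' := by positivity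
  refine ⟨fun ε => ((exp (-a * ε) - 1) / ε * E + (exp (|a| * ε) - 1) / ε * E'
    + L' * g.σ.real univ * ε) / (p + 1), ?_, fun ε hε hε1 => ?_⟩
  · have t3 : Tendsto (fun ε : ℝ => L' * g.σ.real univ * ε) (𝓝[>] 0)
        (𝓝 (L' * g.σ.real univ * 0)) :=
      ((continuous_const.mul continuous_id).tendsto 0).mono_left nhdsWithin_le_nhds
    have := ((((exp_quot_tendsto (-a)).mul_const E).add
      ((exp_quot_tendsto |a|).mul_const E')).add t3).div_const (p + 1)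
    refine this.trans (le_of_eq ?_)
    congr 2; ring
  · have p1 := press hα hp hV hBV hi ε
    have p2 := press hα hp hb hBb hi' (-ε)
    rw [J_neg_int hε] at p1
    rw [J_neg_int hε, neg_neg, show -|a| * -ε = |a| * ε by ring] at p2
    have l1 := layer (L := L' * ε) (isub hE hE') hε (by positivity) (fun x hx hxε => by
      obtain ⟨b0, b1, b2, b3⟩ := hB x hx
      exact layer_pt hα hp hL hB0 hx hxε hε1 b0 b1 b2 b3)
    have s1 : ∫ x, J ε x * (wt α a x * V x ^ p * V x - wt α |a| x * b x ^ p * b x) ∂g.m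
        = ∫ x, J ε x * (wt α a x * V x ^ p * V x) ∂g.m
          - ∫ x, J ε x * (wt α |a| x * b x ^ p * b x) ∂g.m := by
      rw [← integral_sub (g.integrable_J_mul hE ε) (g.integrable_J_mul hE' ε)]
      refine integral_congr_ae (ae_of_all _ fun x => ?_)
      simp only; ring
    rw [s1, integral_sub hE hE', ← hEd, ← hEd'] at l1
    rw [← hEd] at p1
    rw [← hEd'] at p2
    set X := ∫ x, J ε x * (wt α a x * V x ^ p * V x) ∂g.m
    set X' := ∫ x, J ε x * (wt α |a| x * b x ^ p * b x) ∂g.m with hX'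
    have n1 : X' ≤ E' := by
      refine integral_mono_ae (g.integrable_J_mul hE' ε) hE' ?_
      filter_upwards [g.ae_H] with x hx
      have := wt_pos hα |a| x
      have := (hB x hx).1
      exact mul_le_of_le_one_left (by positivity) (J_le_one ε x)
    have n2 : 1 ≤ exp (|a| * ε) := one_le_exp (by positivity)
    have n3 : exp (|a| * ε) * X' - E' ≤ (exp (|a| * ε) - 1) * E' - (E' - X') := by nlinarith
    have hp1 : 0 < p + 1 := by linarith
    refine (add_le_add p1 p2).trans ?_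
    rw [← add_div, mul_div_assoc', div_le_div_iff_of_pos_right hp1]
    have n4 : ε * ((exp (-a * ε) - 1) / ε * E + (exp (|a| * ε) - 1) / ε * E'
        + L' * g.σ.real univ * ε) = (exp (-a * ε) - 1) * E + (exp (|a| * ε) - 1) * E'
        + L' * ε * (ε * g.σ.real univ) := by
      field_simp
    rw [n4]
    linarith

/-- Splitting an interaction into the inner part and a layer part. -/
lemma split {φ ψ : ℝ × S → ℝ} {k : ℝ × S → ℝ × S → ℝ} {C : ℝ} (η : ℝ) (hφ : Measurable φ)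
    (hψ : Measurable ψ) (hk : Measurable fun z : (ℝ × S) × (ℝ × S) => k z.1 z.2)
    (hks : ∀ x y, k x y = k y x)
    (hφ0 : ∀ x, 0 < x.1 → 0 ≤ φ x) (hψ0 : ∀ x, 0 < x.1 → 0 ≤ ψ x)
    (hk0 : ∀ x y, 0 ≤ k x y) (hφi : Integrable φ g.m) (hψi : Integrable ψ g.m)
    (h1 : ∀ x, 0 < x.1 → Integrable (fun y => k x y * φ y) g.m ∧ ∫ y, k x y * φ y ∂g.m ≤ C)
    (h2 : ∀ x, 0 < x.1 → Integrable (fun y => k x y * ψ y) g.m ∧ ∫ y, k x y * ψ y ∂g.m ≤ C) :
    Integrable (fun z : (ℝ × S) × (ℝ × S) => J η z.1 * φ z.1 * (k z.1 z.2 * (J η z.2 * ψ z.2)))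
      (g.m.prod g.m) ∧
    ∫ z, J η z.1 * φ z.1 * (k z.1 z.2 * (J η z.2 * ψ z.2)) ∂(g.m.prod g.m)
      = ∫ z, J η z.1 * ψ z.1 * (k z.1 z.2 * (J η z.2 * φ z.2)) ∂(g.m.prod g.m) ∧
    ∫ z, J η z.1 * φ z.1 * (k z.1 z.2 * (J η z.2 * ψ z.2)) ∂(g.m.prod g.m)
      ≤ ∫ x, J η x * φ x * ∫ y, k x y * ψ y ∂g.m ∂g.m ∧
    ∫ x, J η x * φ x * ∫ y, k x y * ψ y ∂g.m ∂g.m
      ≤ ∫ z, J η z.1 * φ z.1 * (k z.1 z.2 * (J η z.2 * ψ z.2)) ∂(g.m.prod g.m)
        + ∫ x, (1 - J η x) * ψ x * ∫ y, k x y * φ y ∂g.m ∂g.m := by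
  obtain ⟨-, b1, c1⟩ := g.pair_bdd (φ := fun x => J η x * φ x) ((measurable_J η).mul hφ) hψ hk
    (fun x hx => mul_nonneg (J_nonneg η x) (hφ0 x hx)) hψ0 (fun x y _ _ => hk0 x y)
    (g.integrable_J_mul hφi η) (fun x hx _ => h2 x hx)
  have hi2 : Integrable (fun x => (1 - J η x) * ψ x) g.m := by
    refine (isub hψi (g.integrable_J_mul hψi η)).congr (ae_of_all _ fun x => ?_)
    simp only; ring
  obtain ⟨-, b2, c2⟩ := g.pair_bdd (φ := fun x => (1 - J η x) * ψ x)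
    (((measurable_J η).const_sub 1).mul hψ) hφ hk
    (fun x hx => mul_nonneg (sub_nonneg.2 (J_le_one η x)) (hψ0 x hx)) hφ0
    (fun x y _ _ => hk0 x y) hi2 (fun x hx _ => h1 x hx)
  have b2' : Integrable (fun z : (ℝ × S) × (ℝ × S) =>
      (1 - J η z.2) * ψ z.2 * (k z.2 z.1 * φ z.1)) (g.m.prod g.m) := b2.swap
  have c2' : ∫ z : (ℝ × S) × (ℝ × S), (1 - J η z.2) * ψ z.2 * (k z.2 z.1 * φ z.1) ∂(g.m.prod g.m)
      = ∫ x, (1 - J η x) * ψ x * ∫ y, k x y * φ y ∂g.m ∂g.m := by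
    rw [← c2]
    exact integral_prod_swap (fun z : (ℝ × S) × (ℝ × S) =>
      (1 - J η z.1) * ψ z.1 * (k z.1 z.2 * φ z.2))
  obtain ⟨d1, d2⟩ := int_dom (a := fun z : (ℝ × S) × (ℝ × S) =>
    J η z.1 * φ z.1 * (k z.1 z.2 * (J η z.2 * ψ z.2)))
    ((((measurable_J η).mul hφ).comp measurable_fst).mul
      (hk.mul (((measurable_J η).mul hψ).comp measurable_snd))) b1 (by
      filter_upwards [g.ae_HH] with z hz
      have := J_nonneg η z.1
      have := J_nonneg η z.2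
      have := hφ0 _ hz.1
      have a4 := hψ0 _ hz.2
      have := hk0 z.1 z.2
      have := mul_le_of_le_one_left a4 (J_le_one η z.2)
      exact ⟨by positivity, by gcongr⟩)
  refine ⟨d1, ?_, c1 ▸ d2, ?_⟩
  · rw [← integral_prod_swap]
    refine integral_congr_ae (ae_of_all _ fun z => ?_)
    simp only [Prod.fst_swap, Prod.snd_swap]
    rw [hks z.2 z.1]; ring
  · rw [← c1, ← c2', ← integral_add d1 b2']
    refine integral_mono_ae b1 (iadd d1 b2') ?_
    filter_upwards [g.ae_HH] with z hz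
    have a1 := J_le_one η z.1
    have a2 := J_le_one η z.2
    have := hφ0 _ hz.1
    have := hψ0 _ hz.2
    have := hk0 z.1 z.2
    rw [hks z.2 z.1]
    have a3 : 0 ≤ (1 - J η z.1) * (1 - J η z.2) * (φ z.1 * k z.1 z.2 * ψ z.2) := by
      have := sub_nonneg.2 a1
      have := sub_nonneg.2 a2
      positivity
    nlinarith

/-- Far interactions through the reflected kernel. -/
lemma far {φ ψ φ' ψ' : ℝ × S → ℝ} {η : ℝ} (h0 : 0 < η) (h1 : η ≤ 1) (hφ : Measurable φ)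
    (hψ : Measurable ψ) (hφ0 : ∀ x, 0 < x.1 → 0 ≤ φ x ∧ φ x ≤ φ' x)
    (hψ0 : ∀ x, 0 < x.1 → 0 ≤ ψ x ∧ ψ x ≤ ψ' x)
    (hφi : Integrable (fun x => exp (-g.d / 2 * x.1) * φ' x) g.m)
    (hψi : Integrable (fun x => exp (-g.d / 2 * x.1) * ψ' x) g.m) :
    Integrable (fun x => J η x * φ x * ∫ y, g.Gp x y * ψ y ∂g.m) g.m ∧
    0 ≤ ∫ x, J η x * φ x * ∫ y, g.Gp x y * ψ y ∂g.m ∂g.m ∧
    ∫ x, J η x * φ x * ∫ y, g.Gp x y * ψ y ∂g.m ∂g.m ≤ (2 / η) ^ g.d *
      (∫ x, exp (-g.d / 2 * x.1) * φ' x ∂g.m) * ∫ x, exp (-g.d / 2 * x.1) * ψ' x ∂g.m := by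
  set mψ := ∫ x, exp (-g.d / 2 * x.1) * ψ' x ∂g.m with hmψ
  have hκ : 0 < (2 / η) ^ g.d := by positivity
  have mψ0 : 0 ≤ mψ := by
    refine integral_nonneg_of_ae ?_
    filter_upwards [g.ae_H] with y hy
    exact mul_nonneg (exp_pos _).le ((hψ0 y hy).1.trans (hψ0 y hy).2)
  have hn : ∀ x, 0 ≤ ∫ y, g.Gp x y * ψ y ∂g.m := fun x => by
    refine integral_nonneg_of_ae ?_
    filter_upwards [g.ae_H] with y hy
    exact mul_nonneg (g.Gp_nonneg x y) (hψ0 y hy).1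
  have hb : ∀ x : ℝ × S, η < x.1 →
      ∫ y, g.Gp x y * ψ y ∂g.m ≤ (2 / η) ^ g.d * exp (-g.d / 2 * x.1) * mψ := by
    intro x hx
    rw [hmψ, ← integral_const_mul]
    refine (int_dom (a := fun y => g.Gp x y * ψ y) ((meas_sec g.meas_Gp x).mul hψ)
      (hψi.const_mul _) ?_).2
    filter_upwards [g.ae_H] with y hy
    refine ⟨mul_nonneg (g.Gp_nonneg x y) (hψ0 y hy).1, ?_⟩
    have c1 : g.Gp x y ≤ (2 / η) ^ g.d * exp (-g.d / 2 * (x.1 + y.1)) :=
      Gk_upper g.hd (g.le1 _ _) h0 h1 (by linarith)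
    rw [mul_add, exp_add] at c1
    calc g.Gp x y * ψ y
        ≤ (2 / η) ^ g.d * (exp (-g.d / 2 * x.1) * exp (-g.d / 2 * y.1)) * ψ' y :=
          mul_le_mul c1 (hψ0 y hy).2 (hψ0 y hy).1 (by positivity)
      _ = _ := by ring
  have hpt : ∀ᵐ x ∂g.m, 0 ≤ J η x * φ x * ∫ y, g.Gp x y * ψ y ∂g.m ∧
      J η x * φ x * ∫ y, g.Gp x y * ψ y ∂g.m
        ≤ (2 / η) ^ g.d * mψ * (exp (-g.d / 2 * x.1) * φ' x) := by
    filter_upwards [g.ae_H] with x hx
    have a1 := (hφ0 x hx).1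
    have a2 := (hφ0 x hx).2
    have a3 := hn x
    have a4 := J_nonneg η x
    have a5 := a1.trans a2
    refine ⟨by positivity, ?_⟩
    by_cases hJ : η < x.1
    · simp only [J, hJ, if_true, one_mul]
      calc φ x * ∫ y, g.Gp x y * ψ y ∂g.m
          ≤ φ' x * ((2 / η) ^ g.d * exp (-g.d / 2 * x.1) * mψ) :=
            mul_le_mul a2 (hb x hJ) a3 a5
        _ = _ := by ring
    · simp only [J, hJ, if_false, zero_mul]; positivity
  obtain ⟨d1, d2⟩ := int_dom (a := fun x => J η x * φ x * ∫ y, g.Gp x y * ψ y ∂g.m)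
    (((measurable_J η).mul hφ).mul (g.measurable_pot hψ g.meas_Gp))
    (hφi.const_mul ((2 / η) ^ g.d * mψ)) hpt
  refine ⟨d1, integral_nonneg_of_ae (hpt.mono fun x hx => hx.1), d2.trans (le_of_eq ?_)⟩
  rw [integral_const_mul]; ring

end Geo

end Vale.Agent.P100
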