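import Vale.Agent.P100.KeyA

/-! The key inequality on the half cylinder. -/

open Real Set MeasureTheory Filter Topology

namespace Vale.Agent.P100

variable {S : Type*} [MeasurableSpace S]

namespace Geo

variable {g : Geo S}

lemma pos_int' {F : ℝ × S → ℝ} (hp : ∀ᵐ y ∂g.m, 0 < F y) (hi : Integrable F g.m) :
    0 < ∫ y, F y ∂g.m := by
  have h0 : 0 ≤ᵐ[g.m] F := hp.mono fun y hy => hy.le
  refine lt_of_le_of_ne (integral_nonneg_of_ae h0) fun h => ?_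
  have h1 := (integral_eq_zero_iff_of_nonneg_ae h0 hi).1 h.symm
  have h2 : ∀ᵐ _y ∂g.m, False := by
    filter_upwards [hp, h1] with y a b
    exact a.ne' b
  exact g.m_ne_zero (ae_eq_bot.1 (eventually_false_iff_eq_bot.1 h2))

lemma dom_Gm {φ ψ : ℝ × S → ℝ} {x : ℝ × S} (hx : 0 < x.1) (hψ : Measurable ψ)
    (h : ∀ y, 0 < y.1 → 0 ≤ ψ y ∧ ψ y ≤ φ y) (hi : Integrable (fun y => g.Gm x y * φ y) g.m) :
    (Integrable (fun y => g.Gp x y * ψ y) g.m) ∧ (Integrable (fun y => g.GD x y * ψ y) g.m ∧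
      ∫ y, g.GD x y * ψ y ∂g.m ≤ ∫ y, g.Gm x y * φ y ∂g.m) := by
  constructor
  · refine (int_dom (a := fun y => g.Gp x y * ψ y) ((meas_sec g.meas_Gp x).mul hψ) hi ?_).1
    filter_upwards [g.ae_H, g.ae_ne x.1] with y hy hne
    exact ⟨mul_nonneg (g.Gp_nonneg x y) (h y hy).1,
      mul_le_mul (g.Gp_lt_Gm hx hy hne).le (h y hy).2 (h y hy).1 (g.Gm_nonneg x y)⟩
  · refine int_dom (a := fun y => g.GD x y * ψ y) ((meas_sec g.meas_GD x).mul hψ) hi ?_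
    filter_upwards [g.ae_H] with y hy
    exact ⟨mul_nonneg (g.GD_nonneg x y) (h y hy).1,
      mul_le_mul (g.GD_le_Gm x y) (h y hy).2 (h y hy).1 (g.Gm_nonneg x y)⟩

lemma decomp {φ1 φ2 : ℝ × S → ℝ} {x : ℝ × S} (hx : 0 < x.1) (m1 : Measurable φ1)
    (n1 : ∀ y, 0 < y.1 → 0 ≤ φ1 y) (i1 : Integrable (fun y => g.Gm x y * φ1 y) g.m)
    (i2 : Integrable (fun y => g.Gp x y * φ2 y) g.m) :
    g.pot φ1 φ2 x = ∫ y, g.Gp x y * (φ1 y + φ2 y) ∂g.m + ∫ y, g.GD x y * φ1 y ∂g.m := by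
  obtain ⟨a1, a2, -⟩ := dom_Gm hx m1 (fun y hy => ⟨n1 y hy, le_rfl⟩) i1
  have e1 : (fun y => g.Gp x y * (φ1 y + φ2 y))
      = fun y => g.Gp x y * φ1 y + g.Gp x y * φ2 y := by funext y; ring
  rw [e1, pot, ← integral_add i1 i2, ← integral_add (iadd a1 i2) a2]
  refine integral_congr_ae ?_
  filter_upwards [g.ae_H, g.ae_ne x.1] with y hy hne
  rw [g.GD_eq hx hy hne]; ring

variable (g) in
structure Side (φ1 φ2 U1 U2 : ℝ × S → ℝ) (C : ℝ) : Prop where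
  src : g.Src φ1 φ2 C
  pos : ∀ x, 0 < x.1 → 0 < φ1 x
  i2 : ∀ x, 0 < x.1 → Integrable (fun y => g.Gm x y * φ2 y) g.m
  e1 : ∀ x, 0 < x.1 → U1 x = g.pot φ1 φ2 x
  e2 : ∀ x, 0 < x.1 → U2 x = g.pot φ2 φ1 x
  im : Integrable (fun x => exp (-g.d / 2 * x.1) * (φ1 x + φ2 x)) g.m

variable (g) in
noncomputable def hm (φ1 φ2 : ℝ × S → ℝ) (x : ℝ × S) : ℝ :=
  ∫ y, g.Gp x y * (φ1 y + φ2 y) ∂g.m

namespace Side

variable {φ1 φ2 U1 U2 : ℝ × S → ℝ} {C : ℝ} (H : g.Side φ1 φ2 U1 U2 C)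
include H

lemma ip1 {x : ℝ × S} (hx : 0 < x.1) : Integrable (fun y => g.Gp x y * φ1 y) g.m :=
  (dom_Gm hx H.src.m1 (fun y hy => ⟨H.src.n1 y hy, le_rfl⟩) (H.src.q1 x hx).1).1

lemma h_meas : Measurable (g.hm φ1 φ2) := g.measurable_pot (H.src.m1.add H.src.m2) g.meas_Gp

lemma h_pos (x : ℝ × S) (hx : 0 < x.1) : 0 < g.hm φ1 φ2 x := by
  refine pos_int' ?_ ?_
  · filter_upwards [g.ae_H] with y hy
    have a1 : 0 < g.Gp x y := rpow_pos_of_pos (W_pos (g.le1 _ _) (by linarith)) _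
    have a2 := H.pos y hy
    have a3 := H.src.n2 y hy
    positivity
  · refine (iadd (H.ip1 hx) (H.src.q2 x hx).1).congr (ae_of_all _ fun y => ?_)
    simp only; ring

lemma d1 (x : ℝ × S) (hx : 0 < x.1) : U1 x = g.hm φ1 φ2 x + ∫ y, g.GD x y * φ1 y ∂g.m := by
  rw [H.e1 x hx, decomp hx H.src.m1 H.src.n1 (H.src.q1 x hx).1 (H.src.q2 x hx).1]; rfl

lemma d2 (x : ℝ × S) (hx : 0 < x.1) : U2 x = g.hm φ1 φ2 x + ∫ y, g.GD x y * φ2 y ∂g.m := by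
  rw [H.e2 x hx, decomp hx H.src.m2 H.src.n2 (H.i2 x hx) (H.ip1 hx)]
  simp only [hm, add_comm (φ2 _) (φ1 _)]

lemma U1_le (x : ℝ × S) (hx : 0 < x.1) : U1 x ≤ 2 * C := by
  rw [H.e1 x hx, pot]; linarith [(H.src.q1 x hx).2, (H.src.q2 x hx).2]

end Side

lemma sup_side {φ h U k w : ℝ × S → ℝ} {r : ℝ} (mφ : Measurable φ) (mk : Measurable k)
    (mw : Measurable w)
    (hle : ∀ y, 0 < y.1 → 0 ≤ k y * w y ^ r ∧ k y * w y ^ r ≤ φ y)
    (hi : ∀ x, 0 < x.1 → Integrable (fun y => g.Gm x y * φ y) g.m)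
    (hU : ∀ x, 0 < x.1 → U x = h x + ∫ y, g.GD x y * φ y ∂g.m) (x : ℝ × S) (hx : 0 < x.1) :
    Integrable (fun y => g.GD x y * (k y * w y ^ r)) g.m ∧ g.Top k h r w x ≤ U x ∧ h x ≤ U x := by
  have a1 := (dom_Gm hx mφ (fun y hy => ⟨(hle y hy).1.trans (hle y hy).2, le_rfl⟩) (hi x hx)).2.1
  have a2 := int_dom (a := fun y => g.GD x y * (k y * w y ^ r))
    ((meas_sec g.meas_GD x).mul (mk.mul (mw.pow_const r))) a1 (by
      filter_upwards [g.ae_H] with y hy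
      exact ⟨mul_nonneg (g.GD_nonneg x y) (hle y hy).1,
        mul_le_mul_of_nonneg_left (hle y hy).2 (g.GD_nonneg x y)⟩)
  have a3 : 0 ≤ ∫ y, g.GD x y * φ y ∂g.m := by
    refine integral_nonneg_of_ae ?_
    filter_upwards [g.ae_H] with y hy
    exact mul_nonneg (g.GD_nonneg x y) ((hle y hy).1.trans (hle y hy).2)
  rw [hU x hx]
  exact ⟨a2.1, by unfold Top; linarith [a2.2], by linarith⟩

namespace Side

variable {φ1 φ2 U1 U2 φb : ℝ × S → ℝ} {C : ℝ} (H : g.Side φ1 φ2 U1 U2 C) (mb : Measurable φb)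
  (hb : ∀ y, 0 < y.1 → 0 ≤ φb y ∧ φb y ≤ φ1 y ∧ φb y ≤ φ2 y)
include H mb hb

lemma flat_src : g.Src φb (fun y => φ1 y + φ2 y - φb y) (2 * |C|) where
  m1 := mb
  m2 := (H.src.m1.add H.src.m2).sub mb
  n1 := fun y hy => (hb y hy).1
  n2 := fun y hy => by linarith [(hb y hy).2.1, H.src.n2 y hy]
  i1 := (int_dom mb H.src.i1 (g.ae_H.mono fun y hy => ⟨(hb y hy).1, (hb y hy).2.1⟩)).1
  p1 := fun x hx => by
    have := int_dom (a := fun y => g.Γm x y * φb y) ((meas_sec g.meas_Γm x).mul mb)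
      (H.src.p1 x hx).1 (g.ae_H.mono fun y hy => ⟨mul_nonneg (g.Γm_nonneg x y) (hb y hy).1,
        mul_le_mul_of_nonneg_left (hb y hy).2.1 (g.Γm_nonneg x y)⟩)
    exact ⟨this.1, by linarith [this.2, (H.src.p1 x hx).2, le_abs_self C, abs_nonneg C]⟩
  p2 := fun x hx => by
    have := int_dom (a := fun y => g.Γp x y * (φ1 y + φ2 y - φb y))
      ((meas_sec g.meas_Γp x).mul ((H.src.m1.add H.src.m2).sub mb))
      (iadd (H.src.p1 x hx).1 (H.src.p2 x hx).1) (by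
        filter_upwards [g.ae_H, g.ae_ne x.1] with y hy hne
        have a1 := g.Γp_nonneg x y
        have a2 := g.Γp_le_Γm hx hy hne
        have a3 := H.src.n1 y hy
        have a4 := H.src.n2 y hy
        obtain ⟨a5, a6, a7⟩ := hb y hy
        exact ⟨mul_nonneg a1 (by linarith), by nlinarith⟩)
    rw [integral_add (H.src.p1 x hx).1 (H.src.p2 x hx).1] at this
    exact ⟨this.1, by linarith [this.2, (H.src.p1 x hx).2, (H.src.p2 x hx).2, le_abs_self C]⟩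

lemma flat_pot (x : ℝ × S) (hx : 0 < x.1) :
    g.hm φ1 φ2 x + ∫ y, g.GD x y * φb y ∂g.m = g.pot φb (fun y => φ1 y + φ2 y - φb y) x := by
  have s := H.flat_src mb hb
  rw [decomp hx mb s.n1 (s.q1 x hx).1 (s.q2 x hx).1]
  simp only [hm, add_sub_cancel]

lemma flat_GD (x : ℝ × S) (hx : 0 < x.1) :
    Integrable (fun y => g.GD x y * φb y) g.m ∧ ∫ y, g.GD x y * φb y ∂g.m ≤ C := by
  have := (dom_Gm hx mb (fun y hy => ⟨(hb y hy).1, (hb y hy).2.1⟩) (H.src.q1 x hx).1).2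
  exact ⟨this.1, this.2.trans (H.src.q1 x hx).2⟩

lemma flat_gap (x : ℝ × S) (hx : 0 < x.1) :
    U1 x - (g.hm φ1 φ2 x + ∫ y, g.GD x y * φb y ∂g.m) ≤ g.d * |C| * x.1 := by
  rw [H.d1 x hx]
  have a1 : 0 ≤ ∫ y, g.GD x y * φb y ∂g.m := by
    refine integral_nonneg_of_ae ?_
    filter_upwards [g.ae_H] with y hy
    exact mul_nonneg (g.GD_nonneg x y) (hb y hy).1
  have a2 := (int_dom (a := fun y => g.GD x y * φ1 y) ((meas_sec g.meas_GD x).mul H.src.m1)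
    ((H.src.p1 x hx).1.const_mul (g.d * x.1)) (by
      filter_upwards [g.ae_H, g.ae_ne x.1] with y hy hne
      have := mul_le_mul_of_nonneg_right (g.GD_le hx hy hne) (H.src.n1 y hy)
      exact ⟨mul_nonneg (g.GD_nonneg x y) (H.src.n1 y hy), by linarith⟩)).2
  rw [integral_const_mul] at a2
  have a3 : g.d * x.1 * ∫ y, g.Γm x y * φ1 y ∂g.m ≤ g.d * x.1 * |C| :=
    mul_le_mul_of_nonneg_left ((H.src.p1 x hx).2.trans (le_abs_self C)) (mul_pos g.hd hx).le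
  linarith

end Side

lemma Src.intKp {φ ψ1 ψ2 : ℝ × S → ℝ} {C : ℝ} (hψ : g.Src ψ1 ψ2 C) (hφ : Measurable φ)
    (hφ0 : ∀ x, 0 < x.1 → 0 ≤ φ x) (hφi : Integrable φ g.m) :
    Integrable (fun z : (ℝ × S) × (ℝ × S) => φ z.1 * (g.Kp z.1 z.2 * ψ2 z.2)) (g.m.prod g.m) := by
  refine (int_dom (a := fun z : (ℝ × S) × (ℝ × S) => φ z.1 * (g.Kp z.1 z.2 * ψ2 z.2))
    ((hφ.comp measurable_fst).mul (g.meas_Kp.mul (hψ.m2.comp measurable_snd)))
    ((hψ.intΓp hφ hφ0 hφi).const_mul (g.d / 2)) ?_).1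
  filter_upwards [g.ae_HH] with z hz
  have a1 := hφ0 _ hz.1
  have a2 := hψ.n2 _ hz.2
  have a3 := g.Kp_nonneg z.1 z.2 hz.1 hz.2
  have a4 := mul_le_mul_of_nonneg_left (g.Kp_le hz.1 hz.2) (mul_nonneg a1 a2)
  exact ⟨by positivity, by linarith⟩

lemma cross_le {f1 f2 g1 g2 fb gb : ℝ × S → ℝ} {C C' D D' : ℝ} (hf : g.Src f1 f2 C)
    (hg : g.Src g1 g2 C') (hfb : g.Src fb (fun y => f1 y + f2 y - fb y) D)
    (hgb : g.Src gb (fun y => g1 y + g2 y - gb y) D')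
    (lf : ∀ y, 0 < y.1 → fb y ≤ f1 y ∧ fb y ≤ f2 y)
    (lg : ∀ y, 0 < y.1 → gb y ≤ g1 y ∧ gb y ≤ g2 y) :
    g.cr fb (fun y => g1 y + g2 y - gb y) + g.cr gb (fun y => f1 y + f2 y - fb y)
      ≤ g.cr f1 g2 + g.cr g1 f2 := by
  have i1 := hgb.intKp hfb.m1 hfb.n1 hfb.i1
  have i2 : Integrable (fun z : (ℝ × S) × (ℝ × S) =>
    gb z.2 * (g.Kp z.2 z.1 * (f1 z.1 + f2 z.1 - fb z.1))) (g.m.prod g.m) :=
      (hfb.intKp hgb.m1 hgb.n1 hgb.i1).swap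
  have i3 := hg.intKp hf.m1 hf.n1 hf.i1
  have i4 : Integrable (fun z : (ℝ × S) × (ℝ × S) =>
    g1 z.2 * (g.Kp z.2 z.1 * f2 z.1)) (g.m.prod g.m) := (hf.intKp hg.m1 hg.n1 hg.i1).swap
  have e2 : g.cr gb (fun y => f1 y + f2 y - fb y) = ∫ z : (ℝ × S) × (ℝ × S),
      gb z.2 * (g.Kp z.2 z.1 * (f1 z.1 + f2 z.1 - fb z.1)) ∂(g.m.prod g.m) :=
    (integral_prod_swap (fun z : (ℝ × S) × (ℝ × S) =>
      gb z.1 * (g.Kp z.1 z.2 * (f1 z.2 + f2 z.2 - fb z.2)))).symm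
  have e4 : g.cr g1 f2 = ∫ z : (ℝ × S) × (ℝ × S),
      g1 z.2 * (g.Kp z.2 z.1 * f2 z.1) ∂(g.m.prod g.m) :=
    (integral_prod_swap (fun z : (ℝ × S) × (ℝ × S) => g1 z.1 * (g.Kp z.1 z.2 * f2 z.2))).symm
  rw [e2, e4, cr, cr, ← integral_add i1 i2, ← integral_add i3 i4]
  refine integral_mono_ae (iadd i1 i2) (iadd i3 i4) ?_
  filter_upwards [g.ae_HH] with z hz
  rw [g.Kp_symm z.2 z.1]
  have a0 := g.Kp_nonneg z.1 z.2 hz.1 hz.2
  have a1 := mul_nonneg a0 (mul_nonneg (sub_nonneg.2 (lf _ hz.1).1) (sub_nonneg.2 (lg _ hz.2).2))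
  have a2 := mul_nonneg a0 (mul_nonneg (sub_nonneg.2 (lf _ hz.1).2) (sub_nonneg.2 (lg _ hz.2).1))
  linarith

/-- Two-sided control of a localized energy by the inner interaction. -/
lemma energy_split {φ ψ h W W' Φ' Ψ' χ : ℝ × S → ℝ} {k : ℝ × S → ℝ × S → ℝ} {C η : ℝ}
    (h0 : 0 < η) (h1 : η ≤ 1) (hφ : Measurable φ)
    (hψ : Measurable ψ) (hk : Measurable fun z : (ℝ × S) × (ℝ × S) => k z.1 z.2)
    (hks : ∀ x y, k x y = k y x)
    (hφ0 : ∀ x, 0 < x.1 → 0 ≤ φ x ∧ φ x ≤ Φ' x) (hψ0 : ∀ x, 0 < x.1 → 0 ≤ ψ x)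
    (hk0 : ∀ x y, 0 ≤ k x y) (hφi : Integrable φ g.m) (hψi : Integrable ψ g.m)
    (p1 : ∀ x, 0 < x.1 → Integrable (fun y => k x y * φ y) g.m ∧ ∫ y, k x y * φ y ∂g.m ≤ C)
    (p2 : ∀ x, 0 < x.1 → Integrable (fun y => k x y * ψ y) g.m ∧ ∫ y, k x y * ψ y ∂g.m ≤ C)
    (hχ : Measurable χ) (hχ0 : ∀ x, 0 < x.1 → 0 ≤ χ x ∧ χ x ≤ Ψ' x)
    (iΦ : Integrable (fun x => exp (-g.d / 2 * x.1) * Φ' x) g.m)
    (iΨ : Integrable (fun x => exp (-g.d / 2 * x.1) * Ψ' x) g.m)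
    (hh : ∀ x, 0 < x.1 → h x = ∫ y, g.Gp x y * χ y ∂g.m)
    (hW : ∀ x, 0 < x.1 → W x = h x + ∫ y, k x y * ψ y ∂g.m)
    (hW' : ∀ x, 0 < x.1 → ψ x * ∫ y, k x y * φ y ∂g.m ≤ W' x) (iW' : Integrable W' g.m) :
    ∫ z, J η z.1 * φ z.1 * (k z.1 z.2 * (J η z.2 * ψ z.2)) ∂(g.m.prod g.m)
      ≤ ∫ x, J η x * φ x * W x ∂g.m ∧
    ∫ x, J η x * φ x * W x ∂g.m
      ≤ ∫ z, J η z.1 * φ z.1 * (k z.1 z.2 * (J η z.2 * ψ z.2)) ∂(g.m.prod g.m)
        + (∫ x, W' x ∂g.m - ∫ x, J η x * W' x ∂g.m) + (2 / η) ^ g.d *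
          (∫ x, exp (-g.d / 2 * x.1) * Φ' x ∂g.m) * ∫ x, exp (-g.d / 2 * x.1) * Ψ' x ∂g.m := by
  obtain ⟨-, -, s3, s4⟩ := split η hφ hψ hk hks (fun x hx => (hφ0 x hx).1) hψ0 hk0 hφi hψi p1 p2
  obtain ⟨t1, t2, t3⟩ := far h0 h1 hφ hχ hφ0 hχ0 iΦ iΨ
  have u1 := (g.pair_bdd (φ := fun x => J η x * φ x) ((measurable_J η).mul hφ) hψ hk
    (fun x hx => mul_nonneg (J_nonneg η x) (hφ0 x hx).1) hψ0 (fun x y _ _ => hk0 x y)
    (g.integrable_J_mul hφi η) (fun x hx _ => p2 x hx)).1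
  have e : ∫ x, J η x * φ x * W x ∂g.m = ∫ x, J η x * φ x * ∫ y, g.Gp x y * χ y ∂g.m ∂g.m
      + ∫ x, J η x * φ x * ∫ y, k x y * ψ y ∂g.m ∂g.m := by
    rw [← integral_add t1 u1]
    refine integral_congr_ae ?_
    filter_upwards [g.ae_H] with x hx
    rw [hW x hx, hh x hx]; ring
  have v : ∫ x, (1 - J η x) * ψ x * ∫ y, k x y * φ y ∂g.m ∂g.m
      ≤ ∫ x, W' x ∂g.m - ∫ x, J η x * W' x ∂g.m := by
    rw [← integral_sub iW' (g.integrable_J_mul iW' η)]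
    refine (int_dom (a := fun x => (1 - J η x) * ψ x * ∫ y, k x y * φ y ∂g.m)
      ((((measurable_J η).const_sub 1).mul hψ).mul (g.measurable_pot hφ hk))
      (isub iW' (g.integrable_J_mul iW' η)) ?_).2
    filter_upwards [g.ae_H] with x hx
    have a1 := sub_nonneg.2 (J_le_one η x)
    have a2 := hψ0 x hx
    have a3 : 0 ≤ ∫ y, k x y * φ y ∂g.m := by
      refine integral_nonneg_of_ae ?_
      filter_upwards [g.ae_H] with y hy
      exact mul_nonneg (hk0 x y) (hφ0 y hy).1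
    have a4 := mul_le_mul_of_nonneg_left (hW' x hx) a1
    exact ⟨by positivity, by linarith⟩
  constructor <;> linarith

end Geo

lemma key_algebra {a b κ P Q PI QI p q pI qI μ ν H : ℝ} (hab : 0 < a + b) (hκ : 1 < κ)
    (hH : 0 ≤ H) (h1 : a * P + b * Q ≤ |a| * p + |b| * q)
    (hP : PI ≤ P) (hQ : QI ≤ Q) (hp0 : 0 ≤ pI) (hq0 : 0 ≤ qI)
    (hp : p - pI ≤ P - PI) (hq : q - qI ≤ Q - QI)
    (t1 : μ ≤ PI) (t2 : PI ≤ μ + (Q - QI) + H) (t3 : μ ≤ QI) (t4 : QI ≤ μ + (P - PI) + H)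
    (s2 : pI ≤ ν + (Q - QI) + H) (s4 : qI ≤ ν + (P - PI) + H) (st : 2 * κ * ν ≤ pI + qI) :
    PI + QI ≤ 2 / (a + b) * ((|a| + |b|) * (3 + 2 * (κ / (κ - 1))))
      * ((P + Q - (PI + QI)) + H) := by
  set L := P + Q - (PI + QI) with hL
  set A := |a| + |b| with hA
  set K := κ / (κ - 1) with hK
  have hL0 : 0 ≤ L := by linarith
  have ha := abs_nonneg a
  have hb := abs_nonneg b
  have hK0 : 0 ≤ K := div_nonneg (by linarith) (by linarith)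
  have y1 : pI + qI ≤ K * (L + 2 * H) := by
    rw [hK, div_mul_eq_mul_div, le_div_iff₀ (by linarith)]
    nlinarith
  have y2 : |a| * p + |b| * q ≤ A * (K * (L + 2 * H)) + A * L := by
    have c1 : p ≤ K * (L + 2 * H) + L := by linarith
    have c2 : q ≤ K * (L + 2 * H) + L := by linarith
    have c3 := mul_le_mul_of_nonneg_left c1 ha
    have c4 := mul_le_mul_of_nonneg_left c2 hb
    rw [hA]; linarith
  have y3 : (a + b) / 2 * (PI + QI) - A / 2 * (L + H) - A * L ≤ a * P + b * Q := by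
    have c1 : -(|a| * L) ≤ a * (P - PI) := by
      have : |a * (P - PI)| ≤ |a| * L := by
        rw [abs_mul, abs_of_nonneg (sub_nonneg.2 hP)]
        exact mul_le_mul_of_nonneg_left (by linarith) ha
      linarith [neg_abs_le (a * (P - PI))]
    have c2 : -(|b| * L) ≤ b * (Q - QI) := by
      have : |b * (Q - QI)| ≤ |b| * L := by
        rw [abs_mul, abs_of_nonneg (sub_nonneg.2 hQ)]
        exact mul_le_mul_of_nonneg_left (by linarith) hb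
      linarith [neg_abs_le (b * (Q - QI))]
    have c3 : -(A * (L + H)) ≤ (a - b) * (PI - QI) := by
      have : |(a - b) * (PI - QI)| ≤ A * (L + H) := by
        rw [abs_mul]
        exact mul_le_mul (abs_sub a b) (abs_le.2 ⟨by linarith, by linarith⟩) (abs_nonneg _)
          (by positivity)
      linarith [neg_abs_le ((a - b) * (PI - QI))]
    rw [hA] at c3 ⊢
    nlinarith
  have hA0 : 0 ≤ A := by positivity
  have y4 : (a + b) / 2 * (PI + QI) ≤ A * (3 + 2 * K) * (L + H) := by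
    have c1 : 0 ≤ A * H := by positivity
    have c2 : 0 ≤ A * L := by positivity
    have c3 : 0 ≤ A * K * L := by positivity
    nlinarith
  rw [div_mul_eq_mul_div, div_mul_eq_mul_div, le_div_iff₀ hab]
  linarith

end Vale.Agent.P100
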