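import Vale.Agent.P100.ReprKer

/-! Riesz representation of nonnegative supersolutions on `ℝⁿ ∖ {0}`. -/

namespace Vale.Agent.P100

open MeasureTheory Set Laplacian Filter Topology Metric Real

noncomputable section

theorem repr_core (n : ℕ) (hn : 2 ≤ n) : ∃ c : ℝ, 0 < c ∧ ∃ C : ℝ, 0 < C ∧
    ∀ u : Euc n → ℝ, Continuous u → ContDiffOn ℝ 2 u {0}ᶜ → (∀ x, 0 ≤ u x) →
      (∀ x, x ≠ 0 → 0 ≤ -(Δ u) x) → ∀ x, ∃ l : ℝ, 0 ≤ l ∧ (∀ y, l ≤ C * (c * u y)) ∧
        ENNReal.ofReal (c * u x) = ENNReal.ofReal l +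
          ∫⁻ y, kerK n * ENNReal.ofReal (‖x - y‖ ^ (2 - n : ℝ) * (-(Δ u) y)) := by
  obtain ⟨C, hC, hH⟩ := avK_harnack (n := n)
  refine ⟨_, avg_const_pos (n := n), C, hC, fun u hu hu2 hpos hf x => ?_⟩
  set c := ∫ w in closedBall (0 : Euc n) 1, psi (‖w‖ ^ 2)
  obtain ⟨I, hI⟩ : ∃ I : Euc n → ℝ → ℝ, I = fun x τ => ∫ z, avK x τ z * u z := ⟨_, rfl⟩
  obtain ⟨F, hF⟩ : ∃ F : Euc n → ℝ → ENNReal,
    F = fun x τ => ∫⁻ z, ENNReal.ofReal (bigT x τ z * -(Δ u) z) := ⟨_, rfl⟩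
  have hI0 : ∀ x τ, 0 ≤ I x τ := fun x τ => by
    rw [hI]; exact integral_nonneg fun z => mul_nonneg (avK_nonneg x τ z) (hpos z)
  have hstep : ∀ x a b, a ≤ b → I x b ≤ I x a ∧
      ENNReal.ofReal (I x a) = ENNReal.ofReal (I x b) + ∫⁻ τ in Ioc a b, F x τ := by
    intro x a b hab
    have hw := fun τ => weak_form hn hu hu2 hf (bigT_contDiff' x τ) (bigT_compact x τ)
      (bigT_nonneg x τ)
    obtain ⟨h1, h2⟩ := avg_sub x hu hab
    have h3 : ∫ τ in Ioc a b, -∫ z, lap (bigT x τ) z * u z = I x a - I x b := by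
      rw [integral_neg, h2, hI]; ring
    have h4 : 0 ≤ I x a - I x b := h3 ▸ integral_nonneg fun τ => (hw τ).1
    refine ⟨by linarith, ?_⟩
    simp only [hF, fun τ => (hw τ).2]
    rw [← ofReal_integral_eq_lintegral_ofReal (f := fun τ => -∫ z, lap (bigT x τ) z * u z) h1.neg
        (Eventually.of_forall fun τ => (hw τ).1), h3,
      ← ENNReal.ofReal_add (hI0 x b) h4, add_sub_cancel]
  have hanti : ∀ x, Antitone (I x) := fun x a b hab => (hstep x a b hab).1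
  have hbot : ∀ x, Tendsto (I x) atBot (𝓝 (c * u x)) := fun x => by
    rw [hI]; exact avg_tendsto x hu
  have hle : ∀ x τ, I x τ ≤ c * u x := fun x τ =>
    ge_of_tendsto (hbot x) ((eventually_le_atBot τ).mono fun σ h => hanti x h)
  have hbdd : BddBelow (range (I x)) := ⟨0, forall_mem_range.mpr (hI0 x)⟩
  have htop : Tendsto (I x) atTop (𝓝 (⨅ τ, I x τ)) := tendsto_atTop_ciInf (hanti x) hbdd
  refine ⟨⨅ τ, I x τ, le_ciInf (hI0 x), fun y => ?_, ?_⟩
  · have h1 : ‖x - y‖ ≤ exp ‖x - y‖ := by linarith [add_one_le_exp ‖x - y‖]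
    refine (ciInf_le hbdd ‖x - y‖).trans (le_trans ?_
      (mul_le_mul_of_nonneg_left (hle y (‖x - y‖ + 2)) hC.le))
    simp only [hI]
    rw [← integral_const_mul]
    refine integral_mono (avK_integrable x _ hu) ((avK_integrable y _ hu).const_mul C) fun z => ?_
    simp only
    rw [← mul_assoc]
    exact mul_le_mul_of_nonneg_right (hH x y z _ h1) (hpos z)
  · have hU : IsOpen ({0}ᶜ : Set (Euc n)) := isOpen_compl_singleton
    have hm : Measurable (Δ u) := measurable_of_continuousOn_compl_singleton 0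
      ((lap_continuousOn hU hu2).congr fun y hy => lap_eq (hu2.contDiffAt (hU.mem_nhds hy)))
    have h1 : ∫⁻ τ, F x τ = ∫⁻ y, kerK n * ENNReal.ofReal (‖x - y‖ ^ (2 - n : ℝ) * (-(Δ u) y)) := by
      simp only [hF]
      rw [lintegral_lintegral_swap]
      · refine lintegral_congr_ae ?_
        filter_upwards [ae_ne_pt hn x] with y hy
        exact lintegral_bigT hy _
      · exact ((bigT_contDiff x).continuous.measurable.mul
          (hm.comp measurable_snd).neg).ennreal_ofReal.aemeasurable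
    have hmono : Monotone fun k : ℕ => Ioc (-(k : ℝ)) k := fun k l h =>
      Ioc_subset_Ioc (neg_le_neg (by exact_mod_cast h)) (by exact_mod_cast h)
    have h2 : Tendsto (fun k : ℕ => ∫⁻ τ in Ioc (-(k : ℝ)) k, F x τ) atTop (𝓝 (∫⁻ τ, F x τ)) := by
      have h3 : ⋃ k : ℕ, Ioc (-(k : ℝ)) k = univ := by
        refine eq_univ_of_forall fun t => mem_iUnion.mpr ?_
        obtain ⟨k, hk⟩ := exists_nat_gt |t|
        exact ⟨k, by linarith [neg_abs_le t], by linarith [le_abs_self t]⟩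
      rw [← setLIntegral_univ, ← h3, setLIntegral_iUnion_of_directed _ hmono.directed_le]
      exact tendsto_atTop_iSup fun k l h => lintegral_mono_set (hmono h)
    rw [← h1]
    refine tendsto_nhds_unique (ENNReal.tendsto_ofReal ((hbot x).comp
      (tendsto_neg_atTop_atBot.comp tendsto_natCast_atTop_atTop)))
      (((ENNReal.tendsto_ofReal (htop.comp tendsto_natCast_atTop_atTop)).add h2).congr fun k => ?_)
    exact (hstep x _ _ (by linarith [Nat.cast_nonneg (α := ℝ) k])).2.symm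

theorem newton_repr (n : ℕ) (hn : 3 ≤ n) : ∃ c : ℝ, 0 < c ∧ ∃ C : ℝ, 0 < C ∧
    ∀ u : EuclideanSpace ℝ (Fin n) → ℝ, Continuous u → ContDiffOn ℝ 2 u {0}ᶜ → (∀ x, 0 ≤ u x) →
      (∀ x, x ≠ 0 → 0 ≤ -(Δ u) x) → ∀ x, ∃ l : ℝ, 0 ≤ l ∧ (∀ y, l ≤ C * u y) ∧
        ENNReal.ofReal (u x) = ENNReal.ofReal l +
          ∫⁻ y, ENNReal.ofReal (c * (‖x - y‖ ^ (2 - n : ℝ) * (-(Δ u) y))) := by
  obtain ⟨c, hc, C, hC, h⟩ := repr_core n (by omega)
  have hK : 0 < (kerK n).toReal := ENNReal.toReal_pos (kerK_ne_zero (by omega)) (kerK_ne_top hn)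
  refine ⟨c⁻¹ * (kerK n).toReal, by positivity, C, hC, fun u hu hu2 hpos hf x => ?_⟩
  obtain ⟨l, h0, h1, h2⟩ := h u hu hu2 hpos hf x
  refine ⟨c⁻¹ * l, by positivity, fun y => ?_, ?_⟩
  · rw [inv_mul_le_iff₀ hc]
    linarith [h1 y]
  · have h3 := congrArg (ENNReal.ofReal c⁻¹ * ·) h2
    rw [← ENNReal.ofReal_mul (by positivity), inv_mul_cancel_left₀ hc.ne', mul_add,
      ← ENNReal.ofReal_mul (by positivity), ← lintegral_const_mul' _ _ ENNReal.ofReal_ne_top] at h3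
    rw [h3]
    congr 1
    refine lintegral_congr fun y => ?_
    rw [mul_assoc, ENNReal.ofReal_mul (inv_pos.mpr hc).le, ENNReal.ofReal_mul hK.le,
      ENNReal.ofReal_toReal (kerK_ne_top hn)]

theorem plane_false (u : EuclideanSpace ℝ (Fin 2) → ℝ) (hu : Continuous u)
    (hu2 : ContDiffOn ℝ 2 u {0}ᶜ) (hpos : ∀ x, 0 ≤ u x) (hlap : ∀ x, x ≠ 0 → 0 < -(Δ u) x) :
    False := by
  obtain ⟨c, -, C, -, h⟩ := repr_core 2 le_rfl
  obtain ⟨l, -, -, h2⟩ := h u hu hu2 hpos (fun x hx => (hlap x hx).le) 0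
  have h3 : ∫⁻ y : Euc 2, kerK 2 * ENNReal.ofReal (‖0 - y‖ ^ (2 - (2 : ℕ) : ℝ) * (-(Δ u) y)) =
      ∫⁻ _ : Euc 2, ⊤ := by
    refine lintegral_congr_ae ?_
    filter_upwards [ae_ne_pt le_rfl 0] with y hy
    rw [kerK_two, ENNReal.top_mul]
    simpa using hlap y hy
  rw [h3, lintegral_const, ENNReal.top_mul (by simp), add_top] at h2
  exact ENNReal.ofReal_ne_top h2

end

end Vale.Agent.P100
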