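import Vale.Agent.P100.Polar
import Vale.Agent.P100.Repr

/-! The Liouville theorem. -/

open Real Set MeasureTheory Filter Topology Metric Laplacian

namespace Vale.Agent.P100

section

variable {E : Type*} [NormedAddCommGroup E] [InnerProductSpace ℝ E]
  [FiniteDimensional ℝ E] [MeasurableSpace E] [BorelSpace E] (ν : Measure E)
  [ν.IsAddHaarMeasure] [Nontrivial E]

lemma meas_src {v : E → ℝ} (hv : Continuous v) (x : E) (e A p : ℝ) :
    Measurable fun y : E => ‖x - y‖ ^ e * (‖y‖ ^ A * v y ^ p) :=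
  ((measurable_id.const_sub x).norm.pow_const e).mul
    ((measurable_norm.pow_const A).mul (hv.measurable.pow_const p))

lemma pot_of {g : Geo (sphere (0 : E) 1)} {c : ℝ} (hc : 0 < c)
    (hσ : g.σ = ENNReal.ofReal c • ν.toSphere) (hd : g.d + 2 = Module.finrank ℝ E)
    (hi : ∀ a b, g.c a b = inner ℝ (a : E) (b : E)) {u v : E → ℝ} (hv : Continuous v)
    (pu : ∀ x, 0 < u x) (pv : ∀ x, 0 < v x) {A p : ℝ}
    (rep : ∀ x, ENNReal.ofReal (u x)
      = ∫⁻ y, ENNReal.ofReal (c * (‖x - y‖ ^ (-g.d) * (‖y‖ ^ A * v y ^ p))) ∂ν) :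
    g.Pot (fun z => exp ((A + 2 - (p - 1) * g.d / 2) * z.1) * (exp (g.d / 2 * z.1) * v (pol z)) ^ p)
      (fun z => exp (g.d / 2 * z.1) * u (pol z)) := by
  have mf : Measurable fun z : ℝ × sphere (0 : E) 1 =>
      exp ((A + 2 - (p - 1) * g.d / 2) * z.1) * (exp (g.d / 2 * z.1) * v (pol z)) ^ p :=
    (measurable_exp.comp (measurable_fst.const_mul _)).mul
      (((measurable_exp.comp (measurable_fst.const_mul _)).mul
        (hv.comp continuous_pol).measurable).pow_const p)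
  have pf : ∀ z : ℝ × sphere (0 : E) 1,
      0 < exp ((A + 2 - (p - 1) * g.d / 2) * z.1) * (exp (g.d / 2 * z.1) * v (pol z)) ^ p :=
    fun z => by have := pv (pol z); positivity
  have key : ∀ x, ∫⁻ z, ENNReal.ofReal (g.Gm x z * (exp ((A + 2 - (p - 1) * g.d / 2) * z.1) *
      (exp (g.d / 2 * z.1) * v (pol z)) ^ p)) ∂g.μ
      = ENNReal.ofReal (exp (g.d / 2 * x.1) * u (pol x)) := by
    intro x
    rw [ENNReal.ofReal_mul (exp_pos _).le, rep, polar_c ν hc (meas_src hv _ _ _ _), Geo.μ, hσ,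
      ← lintegral_const_mul' _ _ ENNReal.ofReal_ne_top]
    refine lintegral_congr fun z => ?_
    rw [← ENNReal.ofReal_mul (exp_pos _).le, dist_pol, norm_pol, mul_rpow (exp_pos _).le (pv _).le,
      ← exp_mul, ← exp_mul, Geo.Gm, Gk, hi, ← hd]
    congr 1
    have e : exp ((A + 2 - (p - 1) * g.d / 2) * z.1) * exp (g.d / 2 * z.1 * p)
        = exp (g.d / 2 * x.1) * exp ((g.d + 2) * z.1) * exp (-g.d / 2 * (x.1 + z.1))
          * exp (z.1 * A) := by
      simp only [← exp_add]; congr 1; ring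
    linear_combination (W (x.1 - z.1) (inner ℝ (x.2 : E) (z.2 : E)) ^ (-g.d / 2)
      * v (pol z) ^ p) * e
  have k2 := fun x => of_lint (F := fun z => g.Gm x z * (exp ((A + 2 - (p - 1) * g.d / 2) * z.1) *
      (exp (g.d / 2 * z.1) * v (pol z)) ^ p)) ((Geo.meas_sec g.meas_Gm x).mul mf)
    (fun z => mul_nonneg (g.Gm_nonneg x z) (pf z).le) (by rw [key x]; exact ENNReal.ofReal_ne_top)
  refine ⟨mf, pf, fun x => (k2 x).1, fun x => ?_⟩
  rw [(k2 x).2, key x, ENNReal.toReal_ofReal (mul_pos (exp_pos _) (pu _)).le]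

lemma fin0 {c d : ℝ} (hc : 0 < c) (hd : d + 2 = Module.finrank ℝ E) {v : E → ℝ}
    (hv : Continuous v) {A p δ : ℝ}
    (rep : ∫⁻ y, ENNReal.ofReal (c * (‖0 - y‖ ^ (-d) * (‖y‖ ^ A * v y ^ p))) ∂ν ≠ ⊤)
    {s : Set ℝ} (hs : MeasurableSet s) (hs' : volume s = ⊤) (hδ : 0 < δ)
    (h : ∀ z : ℝ × sphere (0 : E) 1, z.1 ∈ s → δ ≤ exp ((A + 2) * z.1) * v (pol z) ^ p) :
    False := by
  rw [polar_c ν hc (meas_src hv _ _ _ _)] at rep
  refine rep (top_unique ?_)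
  have hm : MeasurableSet (s ×ˢ (univ : Set (sphere (0 : E) 1))) := hs.prod MeasurableSet.univ
  have h1 : ∫⁻ z, (s ×ˢ (univ : Set (sphere (0 : E) 1))).indicator (fun _ => ENNReal.ofReal δ) z
      ∂(volume.prod (ENNReal.ofReal c • ν.toSphere)) = ⊤ := by
    rw [lintegral_indicator_const hm, Measure.prod_smul_right, Measure.smul_apply,
      Measure.prod_prod, hs', ENNReal.top_mul (Measure.measure_univ_ne_zero.2 ν.toSphere_ne_zero),
      smul_eq_mul, ENNReal.mul_top (by simpa using hc), ENNReal.mul_top (by simpa using hδ)]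
  rw [← h1]
  refine lintegral_mono fun z => ?_
  by_cases hz : z ∈ s ×ˢ (univ : Set (sphere (0 : E) 1))
  · rw [indicator_of_mem hz]
    refine ENNReal.ofReal_le_ofReal ((h z hz.1).trans (le_of_eq ?_))
    rw [zero_sub, norm_neg, norm_pol, ← exp_mul, ← exp_mul, ← hd, ← mul_assoc, ← mul_assoc,
      mul_assoc (exp _) (exp _), ← exp_add, ← exp_add]
    congr 2; ring
  · rw [indicator_of_notMem hz]; exact zero_le

omit [MeasurableSpace E] [BorelSpace E] [Nontrivial E] in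
lemma cyl_bound {u : E → ℝ} (hu : Continuous u) (d T : ℝ) :
    ∃ C, ∀ x : ℝ × sphere (0 : E) 1, x.1 ≤ T →
      exp (d / 2 * x.1) * u (pol x) ≤ C * exp (d / 2 * x.1) := by
  obtain ⟨C, hC⟩ := ((isCompact_closedBall (0 : E) (exp T)).image hu).bddAbove
  refine ⟨C, fun x hx => ?_⟩
  rw [mul_comm]
  refine mul_le_mul_of_nonneg_right (hC ⟨pol x, ?_, rfl⟩) (exp_pos _).le
  rw [mem_closedBall_zero_iff, norm_pol]; exact exp_le_exp.2 hx

lemma exp_pos_of {c d : ℝ} (hc : 0 < c) (hd : d + 2 = Module.finrank ℝ E) {v : E → ℝ}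
    (hv : Continuous v) (pv : ∀ x, 0 < v x) {A p : ℝ} (hp : 0 < p)
    (rep : ∫⁻ y, ENNReal.ofReal (c * (‖0 - y‖ ^ (-d) * (‖y‖ ^ A * v y ^ p))) ∂ν ≠ ⊤) :
    0 < A + 2 := by
  by_contra hA
  obtain ⟨x, -, hx⟩ := (isCompact_closedBall (0 : E) 1).exists_isMinOn ⟨0, by simp⟩ hv.continuousOn
  refine fin0 ν hc hd hv rep measurableSet_Iic (volume_Iic (a := 0))
    (rpow_pos_of_pos (pv x) p) fun z hz => ?_
  have a1 : v x ≤ v (pol z) := hx (by
    rw [mem_closedBall_zero_iff, norm_pol]; exact exp_le_one_iff.2 hz)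
  exact (rpow_le_rpow (pv x).le a1 hp.le).trans (le_mul_of_one_le_left (rpow_nonneg (pv _).le p)
    (one_le_exp (mul_nonneg_of_nonpos_of_nonpos (not_lt.1 hA) hz)))

lemma not_bdd_below {c d : ℝ} (hc : 0 < c) (hd : d + 2 = Module.finrank ℝ E) {v : E → ℝ}
    (hv : Continuous v) (pv : ∀ x, 0 < v x) {A p : ℝ} (hp : 0 < p)
    (rep : ∫⁻ y, ENNReal.ofReal (c * (‖0 - y‖ ^ (-d) * (‖y‖ ^ A * v y ^ p))) ∂ν ≠ ⊤)
    {l C : ℝ} (hC : 0 < C) (hl : 0 ≤ l) (h : ∀ y, l ≤ C * v y) : l = 0 := by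
  by_contra h0
  have l0 : 0 < l / C := div_pos (lt_of_le_of_ne hl (Ne.symm h0)) hC
  have hA := exp_pos_of ν hc hd hv pv hp rep
  refine fin0 ν hc hd hv rep measurableSet_Ici (volume_Ici (a := 0))
    (rpow_pos_of_pos l0 p) fun z hz => ?_
  have a1 : l / C ≤ v (pol z) := by rw [div_le_iff₀' hC]; exact h _
  exact (rpow_le_rpow l0.le a1 hp.le).trans (le_mul_of_one_le_left (rpow_nonneg (pv _).le p)
    (one_le_exp (mul_nonneg hA.le hz)))

theorem integral_false {c C d p q A B : ℝ} (hc : 0 < c) (hC : 0 < C) (hd0 : 0 < d)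
    (hd : d + 2 = Module.finrank ℝ E) (hp : 0 < p) (hq : 0 < q)
    (hsub : d < (d + 2 + A) / (p + 1) + (d + 2 + B) / (q + 1)) {u v : E → ℝ} (hu : Continuous u)
    (hv : Continuous v) (pu : ∀ x, 0 < u x) (pv : ∀ x, 0 < v x)
    (ru : ∀ x, ∃ l, 0 ≤ l ∧ (∀ y, l ≤ C * u y) ∧ ENNReal.ofReal (u x) = ENNReal.ofReal l
      + ∫⁻ y, ENNReal.ofReal (c * (‖x - y‖ ^ (-d) * (‖y‖ ^ A * v y ^ p))) ∂ν)
    (rv : ∀ x, ∃ l, 0 ≤ l ∧ (∀ y, l ≤ C * v y) ∧ ENNReal.ofReal (v x) = ENNReal.ofReal l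
      + ∫⁻ y, ENNReal.ofReal (c * (‖x - y‖ ^ (-d) * (‖y‖ ^ B * u y ^ q))) ∂ν) : False := by
  have fu : ∫⁻ y, ENNReal.ofReal (c * (‖0 - y‖ ^ (-d) * (‖y‖ ^ A * v y ^ p))) ∂ν ≠ ⊤ := by
    obtain ⟨l, -, -, h⟩ := ru 0
    exact ne_top_of_le_ne_top ENNReal.ofReal_ne_top (h ▸ le_add_self)
  have fv : ∫⁻ y, ENNReal.ofReal (c * (‖0 - y‖ ^ (-d) * (‖y‖ ^ B * u y ^ q))) ∂ν ≠ ⊤ := by
    obtain ⟨l, -, -, h⟩ := rv 0
    exact ne_top_of_le_ne_top ENNReal.ofReal_ne_top (h ▸ le_add_self)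
  have hA := exp_pos_of ν hc hd hv pv hp fu
  have hB := exp_pos_of ν hc hd hu pu hq fv
  obtain ⟨g, hσ, rfl, hi⟩ := exists_geo ν hc hd0 hd
  have HU := pot_of ν hc hσ hd hi hv pu pv (A := A) (p := p) fun x => by
    obtain ⟨l, h1, h2, h⟩ := ru x
    rw [h, not_bdd_below ν hc hd hu pu hq fv hC h1 h2, ENNReal.ofReal_zero, zero_add]
  have HV := pot_of ν hc hσ hd hi hu pv pu (A := B) (p := q) fun x => by
    obtain ⟨l, h1, h2, h⟩ := rv x
    rw [h, not_bdd_below ν hc hd hv pv hp fu hC h1 h2, ENNReal.ofReal_zero, zero_add]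
  refine Geo.cyl_false hp hq
    ((measurable_exp.comp (measurable_fst.const_mul _)).mul (hu.comp continuous_pol).measurable)
    ((measurable_exp.comp (measurable_fst.const_mul _)).mul (hv.comp continuous_pol).measurable)
    (fun x => mul_pos (exp_pos _) (pu _)) (fun x => mul_pos (exp_pos _) (pv _)) HU HV
    (cyl_bound hu _) (cyl_bound hv _) (by linarith) (by linarith) ?_
  have e1 : (A + 2 - (p - 1) * g.d / 2) / (p + 1) = (g.d + 2 + A) / (p + 1) - g.d / 2 := by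
    field_simp; ring
  have e2 : (B + 2 - (q - 1) * g.d / 2) / (q + 1) = (g.d + 2 + B) / (q + 1) - g.d / 2 := by
    field_simp; ring
  rw [e1, e2]; linarith

end

theorem liouville (n : ℕ) (hn : 2 ≤ n) (p q A B : ℝ) (hp : 0 < p) (hq : 0 < q)
    (hsub : (n + A) / (p + 1) + (n + B) / (q + 1) > n - 2)
    (u v : EuclideanSpace ℝ (Fin n) → ℝ) (hu : Continuous u) (hv : Continuous v)
    (hu2 : ContDiffOn ℝ 2 u {0}ᶜ) (hv2 : ContDiffOn ℝ 2 v {0}ᶜ) (pu : ∀ x, 0 < u x)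
    (pv : ∀ x, 0 < v x) (eu : ∀ x, x ≠ 0 → -(Δ u) x = ‖x‖ ^ A * v x ^ p)
    (ev : ∀ x, x ≠ 0 → -(Δ v) x = ‖x‖ ^ B * u x ^ q) : False := by
  have su : ∀ x, x ≠ 0 → 0 < -(Δ u) x := fun x hx => by
    have := pv x
    have := norm_pos_iff.2 hx
    rw [eu x hx]; positivity
  have sv : ∀ x, x ≠ 0 → 0 < -(Δ v) x := fun x hx => by
    have := pu x
    have := norm_pos_iff.2 hx
    rw [ev x hx]; positivity
  rcases hn.eq_or_lt with rfl | hn3
  · exact plane_false u hu hu2 (fun x => (pu x).le) su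
  obtain ⟨c, hc, C, hC, h⟩ := newton_repr n hn3
  have hn' : (2 : ℝ) < n := by exact_mod_cast hn3
  haveI : Nonempty (Fin n) := ⟨⟨0, by omega⟩⟩
  have ae0 : ∀ᵐ y : EuclideanSpace ℝ (Fin n), y ≠ 0 := Measure.ae_ne volume 0
  refine integral_false volume (d := n - 2) (p := p) (q := q) (A := A) (B := B) hc hC (by linarith)
    (by simp) hp hq (by simpa using hsub) hu hv pu pv (fun x => ?_) (fun x => ?_)
  · obtain ⟨l, h1, h2, h3⟩ := h u hu hu2 (fun x => (pu x).le) (fun x hx => (su x hx).le) x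
    refine ⟨l, h1, h2, h3.trans ?_⟩
    congr 1
    refine lintegral_congr_ae ?_
    filter_upwards [ae0] with y hy
    rw [eu y hy, neg_sub]
  · obtain ⟨l, h1, h2, h3⟩ := h v hv hv2 (fun x => (pv x).le) (fun x hx => (sv x hx).le) x
    refine ⟨l, h1, h2, h3.trans ?_⟩
    congr 1
    refine lintegral_congr_ae ?_
    filter_upwards [ae0] with y hy
    rw [ev y hy, neg_sub]

end Vale.Agent.P100
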