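import Vale.Agent.P100.Virial

/-! The minimal solution of the reduced system and its stability. -/

open Real Set MeasureTheory Filter Topology

namespace Vale.Agent.P100

variable {S : Type*} [MeasurableSpace S]

namespace Geo

variable (g : Geo S)

noncomputable def Top (k h : ℝ × S → ℝ) (r : ℝ) (w : ℝ × S → ℝ) (x : ℝ × S) : ℝ :=
  h x + ∫ y, g.GD x y * (k y * w y ^ r) ∂g.m

variable {g}

section op
variable {k h w w' : ℝ × S → ℝ} {r : ℝ}

lemma Top_meas (hk : Measurable k) (hh : Measurable h) (hw : Measurable w) :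
    Measurable (g.Top k h r w) :=
  hh.add (g.measurable_pot (hk.mul (hw.pow_const r)) g.meas_GD)

lemma Top_ge (hk0 : ∀ x, 0 < x.1 → 0 < k x) (hw0 : ∀ x, 0 < x.1 → 0 ≤ w x) (x : ℝ × S) :
    h x ≤ g.Top k h r w x := by
  have : 0 ≤ ∫ y, g.GD x y * (k y * w y ^ r) ∂g.m := by
    refine integral_nonneg_of_ae ?_
    filter_upwards [g.ae_H] with y hy
    exact mul_nonneg (g.GD_nonneg x y) (mul_nonneg (hk0 y hy).le (rpow_nonneg (hw0 y hy) _))
  unfold Top; linarith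

lemma Top_mono (hk : Measurable k) (hw : Measurable w) (hr : 0 < r)
    (hk0 : ∀ x, 0 < x.1 → 0 < k x) (hw0 : ∀ x, 0 < x.1 → 0 ≤ w x)
    (hle : ∀ x, 0 < x.1 → w x ≤ w' x) {x : ℝ × S}
    (hi : Integrable (fun y => g.GD x y * (k y * w' y ^ r)) g.m) :
    Integrable (fun y => g.GD x y * (k y * w y ^ r)) g.m ∧ g.Top k h r w x ≤ g.Top k h r w' x := by
  have := int_dom (a := fun y => g.GD x y * (k y * w y ^ r))
    ((meas_sec g.meas_GD x).mul (hk.mul (hw.pow_const r))) hi (by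
    filter_upwards [g.ae_H] with y hy
    have a1 := g.GD_nonneg x y
    have a2 := (hk0 y hy).le
    have a3 := rpow_nonneg (hw0 y hy) r
    have a4 := rpow_le_rpow (hw0 y hy) (hle y hy) hr.le
    exact ⟨by positivity, by gcongr⟩)
  exact ⟨this.1, by unfold Top; linarith [this.2]⟩

lemma Top_sub {x : ℝ × S} (hi : Integrable (fun y => g.GD x y * (k y * w y ^ r)) g.m)
    (hi' : Integrable (fun y => g.GD x y * (k y * w' y ^ r)) g.m) :
    Integrable (fun y => g.GD x y * (k y * (w' y ^ r - w y ^ r))) g.m ∧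
    ∫ y, g.GD x y * (k y * (w' y ^ r - w y ^ r)) ∂g.m = g.Top k h r w' x - g.Top k h r w x := by
  have e : (fun y => g.GD x y * (k y * (w' y ^ r - w y ^ r)))
      = fun y => g.GD x y * (k y * w' y ^ r) - g.GD x y * (k y * w y ^ r) := by
    funext y; ring
  rw [e]
  refine ⟨isub hi' hi, ?_⟩
  rw [integral_sub hi' hi]; unfold Top; ring

lemma pos_int {φ : ℝ × S → ℝ} {x : ℝ × S} (hx : 0 < x.1) (hφ : ∀ y, 0 < y.1 → 0 < φ y)
    (hi : Integrable (fun y => g.GD x y * φ y) g.m) : 0 < ∫ y, g.GD x y * φ y ∂g.m := by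
  have hp : ∀ᵐ y ∂g.m, 0 < g.GD x y * φ y := by
    filter_upwards [g.ae_H, g.ae_ne x.1] with y hy hne
    exact mul_pos (g.GD_pos hx hy hne) (hφ y hy)
  have h0 : 0 ≤ᵐ[g.m] fun y => g.GD x y * φ y := hp.mono fun y hy => hy.le
  refine lt_of_le_of_ne (integral_nonneg_of_ae h0) fun h => ?_
  have h1 := (integral_eq_zero_iff_of_nonneg_ae h0 hi).1 h.symm
  have h2 : ∀ᵐ _y ∂g.m, False := by
    filter_upwards [hp, h1] with y a b
    exact a.ne' b
  exact g.m_ne_zero (ae_eq_bot.1 (eventually_false_iff_eq_bot.1 h2))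

lemma Top_gt (hk0 : ∀ x, 0 < x.1 → 0 < k x) (hw0 : ∀ x, 0 < x.1 → 0 < w x) {x : ℝ × S}
    (hx : 0 < x.1) (hi : Integrable (fun y => g.GD x y * (k y * w y ^ r)) g.m) :
    h x < g.Top k h r w x := by
  have := pos_int hx (fun y hy => mul_pos (hk0 y hy) (rpow_pos_of_pos (hw0 y hy) r)) hi
  unfold Top; linarith

lemma Top_lt (hr : 0 < r) (hk0 : ∀ x, 0 < x.1 → 0 < k x) (hw0 : ∀ x, 0 < x.1 → 0 ≤ w x)
    (hlt : ∀ x, 0 < x.1 → w x < w' x) {x : ℝ × S} (hx : 0 < x.1)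
    (hi : Integrable (fun y => g.GD x y * (k y * w y ^ r)) g.m)
    (hi' : Integrable (fun y => g.GD x y * (k y * w' y ^ r)) g.m) :
    g.Top k h r w x < g.Top k h r w' x := by
  obtain ⟨a, b⟩ := Top_sub (h := h) hi hi'
  have := pos_int hx (fun y hy => mul_pos (hk0 y hy)
    (sub_pos.2 (rpow_lt_rpow (hw0 y hy) (hlt y hy) hr))) a
  linarith

lemma Top_tendsto {ws : ℕ → ℝ × S → ℝ} (hk : Measurable k) (hws : ∀ j, Measurable (ws j))
    (hr : 0 < r) (hk0 : ∀ x, 0 < x.1 → 0 < k x) (hw0 : ∀ j x, 0 < x.1 → 0 ≤ ws j x)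
    (hle : ∀ j x, 0 < x.1 → ws j x ≤ w' x)
    (hlim : ∀ x, 0 < x.1 → Tendsto (fun j => ws j x) atTop (𝓝 (w x))) {x : ℝ × S}
    (hi : Integrable (fun y => g.GD x y * (k y * w' y ^ r)) g.m) :
    Tendsto (fun j => g.Top k h r (ws j) x) atTop (𝓝 (g.Top k h r w x)) := by
  unfold Top
  refine tendsto_const_nhds.add (tendsto_integral_of_dominated_convergence _
    (fun j => ((meas_sec g.meas_GD x).mul (hk.mul ((hws j).pow_const r))).aestronglyMeasurable)
    hi (fun j => ?_) ?_)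
  · filter_upwards [g.ae_H] with y hy
    have a1 := g.GD_nonneg x y
    have a2 := (hk0 y hy).le
    have a3 := rpow_nonneg (hw0 j y hy) r
    have a4 := rpow_le_rpow (hw0 j y hy) (hle j y hy) hr.le
    rw [norm_of_nonneg (by positivity)]
    gcongr
  · filter_upwards [g.ae_H] with y hy
    exact (((hlim y hy).rpow_const (Or.inr hr.le)).const_mul _).const_mul _

end op

structure MinData (k1 k2 h1 h2 : ℝ × S → ℝ) (p q : ℝ) : Prop where
  mk1 : Measurable k1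
  mk2 : Measurable k2
  mh1 : Measurable h1
  mh2 : Measurable h2
  k1p : ∀ x, 0 < x.1 → 0 < k1 x
  k2p : ∀ x, 0 < x.1 → 0 < k2 x
  h1p : ∀ x, 0 < x.1 → 0 < h1 x
  h2p : ∀ x, 0 < x.1 → 0 < h2 x
  hp : 0 < p
  hq : 0 < q

variable (g) in
structure Sup (k1 k2 h1 h2 : ℝ × S → ℝ) (p q : ℝ) (U V : ℝ × S → ℝ) : Prop where
  iU : ∀ x, 0 < x.1 → Integrable (fun y => g.GD x y * (k1 y * V y ^ p)) g.m
  iV : ∀ x, 0 < x.1 → Integrable (fun y => g.GD x y * (k2 y * U y ^ q)) g.m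
  lU : ∀ x, 0 < x.1 → g.Top k1 h1 p V x ≤ U x
  lV : ∀ x, 0 < x.1 → g.Top k2 h2 q U x ≤ V x
  hU : ∀ x, 0 < x.1 → h1 x ≤ U x
  hV : ∀ x, 0 < x.1 → h2 x ≤ V x

variable (g) in
noncomputable def it (k1 k2 h1 h2 : ℝ × S → ℝ) (p q : ℝ) : ℕ → (ℝ × S → ℝ) × (ℝ × S → ℝ)
  | 0 => (h1, h2)
  | j + 1 => (g.Top k1 h1 p (it k1 k2 h1 h2 p q j).2, g.Top k2 h2 q (it k1 k2 h1 h2 p q j).1)

section iter
variable {k1 k2 h1 h2 U V : ℝ × S → ℝ} {p q : ℝ}

lemma it_meas (D : MinData k1 k2 h1 h2 p q) (j : ℕ) :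
    Measurable (g.it k1 k2 h1 h2 p q j).1 ∧ Measurable (g.it k1 k2 h1 h2 p q j).2 := by
  induction j with
  | zero => exact ⟨D.mh1, D.mh2⟩
  | succ j ih => exact ⟨Top_meas D.mk1 D.mh1 ih.2, Top_meas D.mk2 D.mh2 ih.1⟩

lemma it_pos (D : MinData k1 k2 h1 h2 p q) (j : ℕ) :
    (∀ x, 0 < x.1 → 0 < (g.it k1 k2 h1 h2 p q j).1 x) ∧
    (∀ x, 0 < x.1 → 0 < (g.it k1 k2 h1 h2 p q j).2 x) := by
  induction j with
  | zero => exact ⟨D.h1p, D.h2p⟩
  | succ j ih =>
    exact ⟨fun x hx => (D.h1p x hx).trans_le (Top_ge D.k1p (fun y hy => (ih.2 y hy).le) x),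
      fun x hx => (D.h2p x hx).trans_le (Top_ge D.k2p (fun y hy => (ih.1 y hy).le) x)⟩

lemma it_le (D : MinData k1 k2 h1 h2 p q) (H : g.Sup k1 k2 h1 h2 p q U V) (j : ℕ) :
    (∀ x, 0 < x.1 → (g.it k1 k2 h1 h2 p q j).1 x ≤ U x) ∧
    (∀ x, 0 < x.1 → (g.it k1 k2 h1 h2 p q j).2 x ≤ V x) := by
  induction j with
  | zero => exact ⟨H.hU, H.hV⟩
  | succ j ih =>
    exact ⟨fun x hx => (Top_mono D.mk1 (it_meas D j).2 D.hp D.k1p
        (fun y hy => ((it_pos D j).2 y hy).le) ih.2 (H.iU x hx)).2.trans (H.lU x hx),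
      fun x hx => (Top_mono D.mk2 (it_meas D j).1 D.hq D.k2p
        (fun y hy => ((it_pos D j).1 y hy).le) ih.1 (H.iV x hx)).2.trans (H.lV x hx)⟩

lemma it_int (D : MinData k1 k2 h1 h2 p q) (H : g.Sup k1 k2 h1 h2 p q U V) (j : ℕ)
    {x : ℝ × S} (hx : 0 < x.1) :
    Integrable (fun y => g.GD x y * (k1 y * (g.it k1 k2 h1 h2 p q j).2 y ^ p)) g.m ∧
    Integrable (fun y => g.GD x y * (k2 y * (g.it k1 k2 h1 h2 p q j).1 y ^ q)) g.m :=
  ⟨(Top_mono (h := h1) D.mk1 (it_meas D j).2 D.hp D.k1p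
        (fun y hy => ((it_pos D j).2 y hy).le) (it_le D H j).2 (H.iU x hx)).1,
    (Top_mono (h := h2) D.mk2 (it_meas D j).1 D.hq D.k2p
        (fun y hy => ((it_pos D j).1 y hy).le) (it_le D H j).1 (H.iV x hx)).1⟩

lemma it_lt (D : MinData k1 k2 h1 h2 p q) (H : g.Sup k1 k2 h1 h2 p q U V) (j : ℕ) :
    (∀ x, 0 < x.1 → (g.it k1 k2 h1 h2 p q j).1 x < (g.it k1 k2 h1 h2 p q (j + 1)).1 x) ∧
    (∀ x, 0 < x.1 → (g.it k1 k2 h1 h2 p q j).2 x < (g.it k1 k2 h1 h2 p q (j + 1)).2 x) := by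
  induction j with
  | zero =>
    exact ⟨fun x hx => Top_gt D.k1p D.h2p hx (it_int D H 0 hx).1,
      fun x hx => Top_gt D.k2p D.h1p hx (it_int D H 0 hx).2⟩
  | succ j ih =>
    exact ⟨fun x hx => Top_lt D.hp D.k1p (fun y hy => ((it_pos D j).2 y hy).le) ih.2 hx
        (it_int D H j hx).1 (it_int D H (j + 1) hx).1,
      fun x hx => Top_lt D.hq D.k2p (fun y hy => ((it_pos D j).1 y hy).le) ih.1 hx
        (it_int D H j hx).2 (it_int D H (j + 1) hx).2⟩

end iter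

lemma schur_half {ω X Δ : ℝ × S → ℝ} (hω : Measurable ω) (hX : Measurable X) (hΔ : Measurable Δ)
    (hω0 : ∀ x, 0 < x.1 → 0 ≤ ω x) (hX0 : ∀ x, 0 < x.1 → 0 < X x)
    (hΔ0 : ∀ x, 0 < x.1 → 0 ≤ Δ x) (hωi : Integrable ω g.m)
    (h : ∀ x, 0 < x.1 → Integrable (fun y => g.GD x y * Δ y) g.m ∧
      ∫ y, g.GD x y * Δ y ∂g.m ≤ X x) :
    Integrable (fun z : (ℝ × S) × (ℝ × S) => ω z.1 / X z.1 * (g.GD z.1 z.2 * Δ z.2))
      (g.m.prod g.m) ∧
    ∫ z, ω z.1 / X z.1 * (g.GD z.1 z.2 * Δ z.2) ∂(g.m.prod g.m) ≤ ∫ x, ω x ∂g.m := by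
  have h2 := int_dom (a := fun x => ω x / X x * ∫ y, g.GD x y * Δ y ∂g.m)
    ((hω.div hX).mul (g.measurable_pot hΔ g.meas_GD)) hωi (by
    filter_upwards [g.ae_H] with x hx
    have a1 := hω0 x hx
    have a2 := hX0 x hx
    have a3 : 0 ≤ ∫ y, g.GD x y * Δ y ∂g.m := by
      refine integral_nonneg_of_ae ?_
      filter_upwards [g.ae_H] with y hy
      exact mul_nonneg (g.GD_nonneg x y) (hΔ0 y hy)
    refine ⟨by positivity, ?_⟩
    calc ω x / X x * ∫ y, g.GD x y * Δ y ∂g.m ≤ ω x / X x * X x :=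
          mul_le_mul_of_nonneg_left (h x hx).2 (by positivity)
      _ = ω x := by field_simp)
  obtain ⟨a, b⟩ := g.pair (φ := fun x => ω x / X x) (hω.div hX) hΔ g.meas_GD
    (fun x hx => div_nonneg (hω0 x hx) (hX0 x hx).le) hΔ0 (fun x y _ _ => g.GD_nonneg x y)
    (fun x hx _ => (h x hx).1) h2.1
  exact ⟨a, b ▸ h2.2⟩

lemma amgm {r r' κ P : ℝ} (hr : 0 ≤ r) (hr' : 0 ≤ r') (h : (κ * P) ^ 2 ≤ r * r') :
    2 * κ * P ≤ r + r' := by
  have h1 : (2 * κ * P) ^ 2 ≤ (r + r') ^ 2 := by nlinarith [sq_nonneg (r - r')]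
  exact (abs_le_of_sq_le_sq' h1 (by positivity)).2

variable (g) in
/-- The minimal solution with the properties used later. -/
structure IsMin (k1 k2 h1 h2 : ℝ × S → ℝ) (p q : ℝ) (a b : ℝ × S → ℝ) : Prop where
  ma : Measurable a
  mb : Measurable b
  ap : ∀ x, 0 < x.1 → 0 < a x
  bp : ∀ x, 0 < x.1 → 0 < b x
  ea : ∀ x, 0 < x.1 → a x = g.Top k1 h1 p b x
  eb : ∀ x, 0 < x.1 → b x = g.Top k2 h2 q a x
  le : ∀ U V, g.Sup k1 k2 h1 h2 p q U V → ∀ x, 0 < x.1 → a x ≤ U x ∧ b x ≤ V x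
  stab : ∀ κ η : ℝ, κ ^ 2 < p * q →
    Integrable (fun x => J η x * (k1 x * b x ^ p) * b x) g.m →
    Integrable (fun x => J η x * (k2 x * a x ^ q) * a x) g.m →
    Integrable (fun z : (ℝ × S) × (ℝ × S) => J η z.1 * (k1 z.1 * b z.1 ^ p) *
      (g.GD z.1 z.2 * (J η z.2 * (k2 z.2 * a z.2 ^ q)))) (g.m.prod g.m) →
    2 * κ * ∫ z, J η z.1 * (k1 z.1 * b z.1 ^ p) *
      (g.GD z.1 z.2 * (J η z.2 * (k2 z.2 * a z.2 ^ q))) ∂(g.m.prod g.m)
      ≤ ∫ x, J η x * (k1 x * b x ^ p) * b x ∂g.m + ∫ x, J η x * (k2 x * a x ^ q) * a x ∂g.m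

theorem exists_min {k1 k2 h1 h2 U V : ℝ × S → ℝ} {p q : ℝ} (D : MinData k1 k2 h1 h2 p q)
    (H : g.Sup k1 k2 h1 h2 p q U V) : ∃ a b, g.IsMin k1 k2 h1 h2 p q a b := by
  set A : ℕ → ℝ × S → ℝ := fun j => (g.it k1 k2 h1 h2 p q j).1 with hA
  set B : ℕ → ℝ × S → ℝ := fun j => (g.it k1 k2 h1 h2 p q j).2 with hB
  set a : ℝ × S → ℝ := fun x => ⨆ j, A j x with ha
  set b : ℝ × S → ℝ := fun x => ⨆ j, B j x with hb
  have mA : ∀ j, Measurable (A j) := fun j => (it_meas D j).1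
  have mB : ∀ j, Measurable (B j) := fun j => (it_meas D j).2
  have pA : ∀ j x, 0 < x.1 → 0 < A j x := fun j => (it_pos D j).1
  have pB : ∀ j x, 0 < x.1 → 0 < B j x := fun j => (it_pos D j).2
  have ltA : ∀ j x, 0 < x.1 → A j x < A (j + 1) x := fun j => (it_lt D H j).1
  have ltB : ∀ j x, 0 < x.1 → B j x < B (j + 1) x := fun j => (it_lt D H j).2
  have bdA : ∀ x : ℝ × S, 0 < x.1 → BddAbove (range fun j => A j x) := fun x hx =>
    ⟨U x, by rintro _ ⟨j, rfl⟩; exact (it_le D H j).1 x hx⟩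
  have bdB : ∀ x : ℝ × S, 0 < x.1 → BddAbove (range fun j => B j x) := fun x hx =>
    ⟨V x, by rintro _ ⟨j, rfl⟩; exact (it_le D H j).2 x hx⟩
  have leA : ∀ j x, 0 < x.1 → A j x ≤ a x := fun j x hx => le_ciSup (bdA x hx) j
  have leB : ∀ j x, 0 < x.1 → B j x ≤ b x := fun j x hx => le_ciSup (bdB x hx) j
  have tA : ∀ x : ℝ × S, 0 < x.1 → Tendsto (fun j => A j x) atTop (𝓝 (a x)) := fun x hx =>
    tendsto_atTop_ciSup (monotone_nat_of_le_succ fun j => (ltA j x hx).le) (bdA x hx)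
  have tB : ∀ x : ℝ × S, 0 < x.1 → Tendsto (fun j => B j x) atTop (𝓝 (b x)) := fun x hx =>
    tendsto_atTop_ciSup (monotone_nat_of_le_succ fun j => (ltB j x hx).le) (bdB x hx)
  have ma : Measurable a := Measurable.iSup mA
  have mb : Measurable b := Measurable.iSup mB
  have ap : ∀ x, 0 < x.1 → 0 < a x := fun x hx => (pA 0 x hx).trans_le (leA 0 x hx)
  have bp : ∀ x, 0 < x.1 → 0 < b x := fun x hx => (pB 0 x hx).trans_le (leB 0 x hx)
  have hle : ∀ U V, g.Sup k1 k2 h1 h2 p q U V → ∀ x, 0 < x.1 → a x ≤ U x ∧ b x ≤ V x :=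
    fun U V H' x hx => ⟨ciSup_le fun j => (it_le D H' j).1 x hx,
      ciSup_le fun j => (it_le D H' j).2 x hx⟩
  have ea : ∀ x, 0 < x.1 → a x = g.Top k1 h1 p b x := fun x hx =>
    tendsto_nhds_unique ((tA x hx).comp (tendsto_add_atTop_nat 1))
      (Top_tendsto D.mk1 mB D.hp D.k1p (fun j y hy => (pB j y hy).le)
        (fun j => (it_le D H j).2) tB (H.iU x hx))
  have eb : ∀ x, 0 < x.1 → b x = g.Top k2 h2 q a x := fun x hx =>
    tendsto_nhds_unique ((tB x hx).comp (tendsto_add_atTop_nat 1))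
      (Top_tendsto D.mk2 mA D.hq D.k2p (fun j y hy => (pA j y hy).le)
        (fun j => (it_le D H j).1) tA (H.iV x hx))
  have ib : ∀ x : ℝ × S, 0 < x.1 → Integrable (fun y => g.GD x y * (k1 y * b y ^ p)) g.m :=
    fun x hx => (Top_mono (h := h1) D.mk1 mb D.hp D.k1p (fun y hy => (bp y hy).le)
      (fun y hy => (hle U V H y hy).2) (H.iU x hx)).1
  have ia : ∀ x : ℝ × S, 0 < x.1 → Integrable (fun y => g.GD x y * (k2 y * a y ^ q)) g.m :=
    fun x hx => (Top_mono (h := h2) D.mk2 ma D.hq D.k2p (fun y hy => (ap y hy).le)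
      (fun y hy => (hle U V H y hy).1) (H.iV x hx)).1
  refine ⟨a, b, ma, mb, ap, bp, ea, eb, hle, fun κ η hκ i1 i2 i3 => ?_⟩
  have hp := D.hp
  have hq := D.hq
  -- choice of `θ`
  obtain ⟨θ, hθ0, hθ1, hθ⟩ : ∃ θ : ℝ, 0 < θ ∧ θ < 1 ∧ κ ^ 2 ≤ (p * θ ^ p) * (q * θ ^ q) := by
    have hc : ContinuousAt (fun θ : ℝ => (p * θ ^ p) * (q * θ ^ q)) 1 :=
      ((continuousAt_id.rpow_const (Or.inl one_ne_zero)).const_mul p).mul
        ((continuousAt_id.rpow_const (Or.inl one_ne_zero)).const_mul q)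
    have h1 : ∀ᶠ θ in 𝓝 (1 : ℝ), κ ^ 2 < (p * θ ^ p) * (q * θ ^ q) :=
      hc.eventually (lt_mem_nhds (by simpa using hκ))
    have h2 : ∀ᶠ θ in 𝓝[<] (1 : ℝ), 0 < θ ∧ θ < 1 ∧ κ ^ 2 < (p * θ ^ p) * (q * θ ^ q) := by
      filter_upwards [self_mem_nhdsWithin, mem_nhdsWithin_of_mem_nhds h1,
        mem_nhdsWithin_of_mem_nhds (lt_mem_nhds (zero_lt_one' ℝ))] with θ a1 a2 a3
      exact ⟨a3, a1, a2⟩
    obtain ⟨θ, a1, a2, a3⟩ := h2.exists
    exact ⟨θ, a1, a2, a3.le⟩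
  set P : (ℝ × S) × (ℝ × S) → ℝ := fun z => J η z.1 * (k1 z.1 * b z.1 ^ p) *
      (g.GD z.1 z.2 * (J η z.2 * (k2 z.2 * a z.2 ^ q))) with hP
  let e : ℕ → (ℝ × S) × (ℝ × S) → ℝ := fun j z =>
    if θ * b z.1 ≤ B j z.1 ∧ θ * a z.2 ≤ A j z.2 then 1 else 0
  have me : ∀ j, Measurable (e j) := fun j =>
    Measurable.ite ((measurableSet_le ((mb.comp measurable_fst).const_mul θ)
      ((mB j).comp measurable_fst)).inter (measurableSet_le ((ma.comp measurable_snd).const_mul θ)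
      ((mA j).comp measurable_snd))) measurable_const measurable_const
  have eb1 : ∀ j z, ‖e j z‖ ≤ 1 := fun j z => by
    simp only [e]; split_ifs <;> simp
  have ie : ∀ j, Integrable (fun z => e j z * P z) (g.m.prod g.m) := fun j =>
    i3.bdd_mul (c := 1) (me j).aestronglyMeasurable (ae_of_all _ (eb1 j))
  have key : ∀ j, 2 * κ * ∫ z, e j z * P z ∂(g.m.prod g.m)
      ≤ ∫ x, J η x * (k1 x * b x ^ p) * b x ∂g.m
        + ∫ x, J η x * (k2 x * a x ^ q) * a x ∂g.m := by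
    intro j
    have XB : ∀ x : ℝ × S, 0 < x.1 → 0 < b x - B j x := fun x hx => by
      linarith [ltB j x hx, leB (j + 1) x hx]
    have XA : ∀ x : ℝ × S, 0 < x.1 → 0 < a x - A j x := fun x hx => by
      linarith [ltA j x hx, leA (j + 1) x hx]
    have dA : ∀ x : ℝ × S, 0 < x.1 → 0 ≤ k2 x * (a x ^ q - A j x ^ q) := fun x hx =>
      mul_nonneg (D.k2p x hx).le (sub_nonneg.2 (rpow_le_rpow (pA j x hx).le (leA j x hx) hq.le))
    have dB : ∀ x : ℝ × S, 0 < x.1 → 0 ≤ k1 x * (b x ^ p - B j x ^ p) := fun x hx =>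
      mul_nonneg (D.k1p x hx).le (sub_nonneg.2 (rpow_le_rpow (pB j x hx).le (leB j x hx) hp.le))
    have w1 : ∀ x : ℝ × S, 0 < x.1 → 0 ≤ J η x * (k1 x * b x ^ p) * b x := fun x hx => by
      have := J_nonneg η x
      have := D.k1p x hx
      have := bp x hx
      positivity
    have w2 : ∀ x : ℝ × S, 0 < x.1 → 0 ≤ J η x * (k2 x * a x ^ q) * a x := fun x hx => by
      have := J_nonneg η x
      have := D.k2p x hx
      have := ap x hx
      positivity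
    obtain ⟨r1, s1⟩ := schur_half (ω := fun x => J η x * (k1 x * b x ^ p) * b x)
      (X := fun x => b x - B j x) (Δ := fun x => k2 x * (a x ^ q - A j x ^ q))
      (((measurable_J η).mul (D.mk1.mul (mb.pow_const p))).mul mb) (mb.sub (mB j))
      (D.mk2.mul ((ma.pow_const q).sub ((mA j).pow_const q))) w1 XB dA i1 (fun x hx => by
        obtain ⟨c1, c2⟩ := Top_sub (h := h2) (it_int D H j hx).2 (ia x hx)
        refine ⟨c1, c2.le.trans ?_⟩
        rw [← eb x hx]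
        have := ltB j x hx
        exact sub_le_sub_left this.le _)
    obtain ⟨r2, s2⟩ := schur_half (ω := fun x => J η x * (k2 x * a x ^ q) * a x)
      (X := fun x => a x - A j x) (Δ := fun x => k1 x * (b x ^ p - B j x ^ p))
      (((measurable_J η).mul (D.mk2.mul (ma.pow_const q))).mul ma) (ma.sub (mA j))
      (D.mk1.mul ((mb.pow_const p).sub ((mB j).pow_const p))) w2 XA dB i2 (fun x hx => by
        obtain ⟨c1, c2⟩ := Top_sub (h := h1) (it_int D H j hx).1 (ib x hx)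
        refine ⟨c1, c2.le.trans ?_⟩
        rw [← ea x hx]
        have := ltA j x hx
        exact sub_le_sub_left this.le _)
    have r2' : Integrable (fun z : (ℝ × S) × (ℝ × S) =>
        J η z.2 * (k2 z.2 * a z.2 ^ q) * a z.2 / (a z.2 - A j z.2) *
          (g.GD z.2 z.1 * (k1 z.1 * (b z.1 ^ p - B j z.1 ^ p)))) (g.m.prod g.m) := r2.swap
    have s2' : ∫ z : (ℝ × S) × (ℝ × S),
        J η z.2 * (k2 z.2 * a z.2 ^ q) * a z.2 / (a z.2 - A j z.2) *
          (g.GD z.2 z.1 * (k1 z.1 * (b z.1 ^ p - B j z.1 ^ p))) ∂(g.m.prod g.m)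
        ≤ ∫ x, J η x * (k2 x * a x ^ q) * a x ∂g.m := by
      refine le_trans (le_of_eq ?_) s2
      exact integral_prod_swap (fun z : (ℝ × S) × (ℝ × S) =>
        J η z.1 * (k2 z.1 * a z.1 ^ q) * a z.1 / (a z.1 - A j z.1) *
          (g.GD z.1 z.2 * (k1 z.2 * (b z.2 ^ p - B j z.2 ^ p))))
    refine le_trans ?_ (add_le_add s1 s2')
    rw [← integral_add r1 r2', ← integral_const_mul]
    refine integral_mono_ae ((ie j).const_mul _) (iadd r1 r2') ?_
    filter_upwards [g.ae_HH] with z hz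
    obtain ⟨x, y⟩ := z
    obtain ⟨hx, hy⟩ := hz
    simp only at hx hy ⊢
    have x1 := XB x hx
    have x2 := XA y hy
    have x3 := dA y hy
    have x4 := dB x hx
    have x5 := w1 x hx
    have x6 := w2 y hy
    have x7 := g.GD_nonneg x y
    have x8 := g.GD_nonneg y x
    have hr : 0 ≤ J η x * (k1 x * b x ^ p) * b x / (b x - B j x) *
      (g.GD x y * (k2 y * (a y ^ q - A j y ^ q))) := by positivity
    have hr' : 0 ≤ J η y * (k2 y * a y ^ q) * a y / (a y - A j y) *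
      (g.GD y x * (k1 x * (b x ^ p - B j x ^ p))) := by positivity
    by_cases hE : θ * b x ≤ B j x ∧ θ * a y ≤ A j y
    · simp only [e, hE, and_self, if_true, one_mul]
      refine amgm hr hr' ?_
      have u1 := pow_sub_ge hp hθ0 (bp x hx) hE.1 (leB j x hx)
      have u2 := pow_sub_ge hq hθ0 (ap y hy) hE.2 (leA j y hy)
      have v1 : p * θ ^ p * b x ^ p ≤ b x * (b x ^ p - B j x ^ p) / (b x - B j x) := by
        rw [le_div_iff₀ x1]; exact u1
      have v2 : q * θ ^ q * a y ^ q ≤ a y * (a y ^ q - A j y ^ q) / (a y - A j y) := by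
        rw [le_div_iff₀ x2]; exact u2
      have y1 := J_nonneg η x
      have y2 := J_nonneg η y
      have y3 := (D.k1p x hx).le
      have y4 := (D.k2p y hy).le
      have y5 := (rpow_pos_of_pos (bp x hx) p).le
      have y6 := (rpow_pos_of_pos (ap y hy) q).le
      have y7 := (rpow_pos_of_pos hθ0 p).le
      have y8 := (rpow_pos_of_pos hθ0 q).le
      have jj : ∀ w : ℝ × S, J η w * J η w = J η w := fun w => by
        unfold J; split_ifs <;> simp
      set Q := J η x * J η y * (k1 x * k2 y * g.GD x y) ^ 2 * (b x ^ p * a y ^ q) with hQ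
      have hQ0 : 0 ≤ Q := by positivity
      have f1 : (κ * P (x, y)) ^ 2 = Q * (κ ^ 2 * (b x ^ p * a y ^ q)) := by
        simp only [hP, hQ]
        have : (κ * (J η x * (k1 x * b x ^ p) * (g.GD x y * (J η y * (k2 y * a y ^ q))))) ^ 2
          = (J η x * J η x) * (J η y * J η y) * (k1 x * k2 y * g.GD x y) ^ 2
            * (b x ^ p * a y ^ q) * (κ ^ 2 * (b x ^ p * a y ^ q)) := by ring
        rw [this, jj, jj]
      have f2 : J η x * (k1 x * b x ^ p) * b x / (b x - B j x) *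
            (g.GD x y * (k2 y * (a y ^ q - A j y ^ q))) *
          (J η y * (k2 y * a y ^ q) * a y / (a y - A j y) *
            (g.GD y x * (k1 x * (b x ^ p - B j x ^ p))))
          = Q * ((b x * (b x ^ p - B j x ^ p) / (b x - B j x)) *
            (a y * (a y ^ q - A j y ^ q) / (a y - A j y))) := by
        rw [hQ, g.GD_symm y x]; ring
      rw [f1, f2]
      refine mul_le_mul_of_nonneg_left ?_ hQ0
      calc κ ^ 2 * (b x ^ p * a y ^ q)
          ≤ (p * θ ^ p) * (q * θ ^ q) * (b x ^ p * a y ^ q) := by gcongr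
        _ = (p * θ ^ p * b x ^ p) * (q * θ ^ q * a y ^ q) := by ring
        _ ≤ _ := mul_le_mul v1 v2 (by positivity) (le_trans (by positivity) v1)
    · simp only [e, hE, if_false, zero_mul, mul_zero]
      positivity
  have lim : Tendsto (fun j => ∫ z, e j z * P z ∂(g.m.prod g.m)) atTop
      (𝓝 (∫ z, P z ∂(g.m.prod g.m))) := by
    refine tendsto_integral_of_dominated_convergence (fun z => ‖P z‖)
      (fun j => (ie j).aestronglyMeasurable) i3.norm (fun j => ae_of_all _ fun z => ?_) ?_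
    · rw [norm_mul]
      exact mul_le_of_le_one_left (norm_nonneg _) (eb1 j z)
    · filter_upwards [g.ae_HH] with z hz
      refine tendsto_const_nhds.congr' ?_
      have c1 : θ * b z.1 < b z.1 := mul_lt_of_lt_one_left (bp _ hz.1) hθ1
      have c2 : θ * a z.2 < a z.2 := mul_lt_of_lt_one_left (ap _ hz.2) hθ1
      filter_upwards [(tB _ hz.1).eventually (lt_mem_nhds c1),
        (tA _ hz.2).eventually (lt_mem_nhds c2)] with j d1 d2
      simp [e, d1.le, d2.le]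
  exact le_of_tendsto' (lim.const_mul (2 * κ)) key

end Geo

end Vale.Agent.P100
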