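import Vale.Agent.P100.Blow

/-! Logarithmic polar coordinates. -/

open Real Set MeasureTheory Filter Topology Metric

namespace Vale.Agent.P100

lemma of_lint {Z : Type*} [MeasurableSpace Z] {ν : Measure Z} {F : Z → ℝ} (hF : Measurable F)
    (h0 : ∀ z, 0 ≤ F z) (h : ∫⁻ z, ENNReal.ofReal (F z) ∂ν ≠ ⊤) :
    Integrable F ν ∧ ∫ z, F z ∂ν = (∫⁻ z, ENNReal.ofReal (F z) ∂ν).toReal :=
  ⟨⟨hF.aestronglyMeasurable, (hasFiniteIntegral_iff_ofReal (ae_of_all _ h0)).2 h.lt_top⟩,
    integral_eq_lintegral_of_nonneg_ae (ae_of_all _ h0) hF.aestronglyMeasurable⟩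

variable {E : Type*} [NormedAddCommGroup E] [InnerProductSpace ℝ E]

noncomputable def pol (z : ℝ × sphere (0 : E) 1) : E := exp z.1 • (z.2 : E)

lemma continuous_pol : Continuous (pol : ℝ × sphere (0 : E) 1 → E) :=
  (continuous_exp.comp continuous_fst).smul (continuous_subtype_val.comp continuous_snd)

lemma norm_pol (z : ℝ × sphere (0 : E) 1) : ‖pol z‖ = exp z.1 := by
  rw [pol, norm_smul, norm_eq_of_mem_sphere, norm_of_nonneg (exp_pos _).le, mul_one]

lemma abs_inner_le (a b : sphere (0 : E) 1) : |inner ℝ (a : E) (b : E)| ≤ 1 := by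
  simpa [norm_eq_of_mem_sphere] using abs_real_inner_le_norm (a : E) (b : E)

lemma dist_pol (x y : ℝ × sphere (0 : E) 1) (e : ℝ) : ‖pol x - pol y‖ ^ (-e)
    = exp (-e / 2 * (x.1 + y.1)) * W (x.1 - y.1) (inner ℝ (x.2 : E) (y.2 : E)) ^ (-e / 2) := by
  have h : ‖pol x - pol y‖ ^ 2
      = exp (x.1 + y.1) * W (x.1 - y.1) (inner ℝ (x.2 : E) (y.2 : E)) := by
    rw [norm_sub_sq_real, norm_pol, norm_pol, pol, pol, real_inner_smul_left,
      real_inner_smul_right, W, cosh_eq, neg_sub, exp_sub, exp_sub, exp_add]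
    have := exp_pos x.1
    have := exp_pos y.1
    field_simp
    ring
  rw [mul_comm (-e / 2), exp_mul, ← mul_rpow (exp_pos _).le (W_nonneg (abs_inner_le _ _)), ← h,
    ← rpow_natCast, ← rpow_mul (norm_nonneg _)]
  congr 1; push_cast; ring

variable [FiniteDimensional ℝ E] [MeasurableSpace E] [BorelSpace E] (ν : Measure E)
  [ν.IsAddHaarMeasure] [Nontrivial E]

lemma polar {Φ : E → ENNReal} (hΦ : Measurable Φ) :
    ∫⁻ y, Φ y ∂ν = ∫⁻ z : ℝ × sphere (0 : E) 1,
      ENNReal.ofReal (exp (Module.finrank ℝ E * z.1)) * Φ (pol z) ∂(volume.prod ν.toSphere) := by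
  have hpos : 0 < Module.finrank ℝ E := Module.finrank_pos
  have m1 : Measurable fun w : sphere (0 : E) 1 × Ioi (0 : ℝ) => Φ (w.2.1 • (w.1 : E)) :=
    hΦ.comp ((continuous_subtype_val.comp continuous_snd).smul
      (continuous_subtype_val.comp continuous_fst)).measurable
  have m2 : Measurable fun z : ℝ × sphere (0 : E) 1 =>
      ENNReal.ofReal (exp (Module.finrank ℝ E * z.1)) * Φ (pol z) :=
    (measurable_exp.comp (measurable_fst.const_mul _)).ennreal_ofReal.mul
      (hΦ.comp continuous_pol.measurable)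
  have h1 := ν.measurePreserving_homeomorphUnitSphereProd.lintegral_comp m1
  have h2 : ∀ x : ({0}ᶜ : Set E), ((homeomorphUnitSphereProd E x).2.1 : ℝ) •
      ((homeomorphUnitSphereProd E x).1 : E) = x.1 := fun x => by
    have := congrArg Subtype.val ((homeomorphUnitSphereProd E).symm_apply_apply x)
    rwa [homeomorphUnitSphereProd_symm_apply_coe] at this
  simp only [h2] at h1
  rw [lintegral_subtype_comap (measurableSet_singleton _).compl, restrict_compl_singleton] at h1
  rw [h1, lintegral_prod _ m1.aemeasurable, lintegral_prod_symm' _ m2]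
  refine lintegral_congr fun θ => ?_
  have m3 : Measurable fun r : Ioi (0 : ℝ) => Φ (r.1 • (θ : E)) :=
    hΦ.comp (continuous_subtype_val.smul continuous_const).measurable
  rw [Measure.volumeIoiPow, lintegral_withDensity_eq_lintegral_mul _
    (measurable_subtype_coe.pow_const _).ennreal_ofReal m3]
  have h3 := lintegral_subtype_comap (μ := volume) (measurableSet_Ioi (a := (0 : ℝ)))
    (fun r : ℝ => ENNReal.ofReal (r ^ (Module.finrank ℝ E - 1)) * Φ (r • (θ : E)))
  have h4 := lintegral_image_eq_lintegral_abs_deriv_mul MeasurableSet.univ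
    (fun x _ => (hasDerivAt_exp x).hasDerivWithinAt) exp_injective.injOn
    (fun r : ℝ => ENNReal.ofReal (r ^ (Module.finrank ℝ E - 1)) * Φ (r • (θ : E)))
  rw [image_univ, range_exp, Measure.restrict_univ] at h4
  refine h3.trans (h4.trans (lintegral_congr fun t => ?_))
  rw [← mul_assoc, ← ENNReal.ofReal_mul (abs_nonneg _), abs_of_pos (exp_pos t), ← pow_succ',
    Nat.sub_add_cancel hpos, exp_nat_mul]
  rfl

lemma polar_c {Φ : E → ℝ} {c : ℝ} (hc : 0 < c) (hΦ : Measurable Φ) :
    ∫⁻ y, ENNReal.ofReal (c * Φ y) ∂ν = ∫⁻ z : ℝ × sphere (0 : E) 1,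
      ENNReal.ofReal (exp (Module.finrank ℝ E * z.1) * Φ (pol z))
        ∂(volume.prod (ENNReal.ofReal c • ν.toSphere)) := by
  simp only [ENNReal.ofReal_mul hc.le, ENNReal.ofReal_mul (exp_pos _).le]
  rw [lintegral_const_mul _ hΦ.ennreal_ofReal, polar ν hΦ.ennreal_ofReal, Measure.prod_smul_right,
    lintegral_smul_measure, smul_eq_mul]

lemma Nk_bound {c d : ℝ} (hc : 0 < c) (hd : d + 2 = Module.finrank ℝ E) : ∃ M : ENNReal, M ≠ ⊤ ∧
    ∀ θ : sphere (0 : E) 1, ∫⁻ y : ℝ × sphere (0 : E) 1,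
      ENNReal.ofReal (Nk d y.1 (inner ℝ (θ : E) (y.2 : E)))
        ∂(volume.prod (ENNReal.ofReal c • ν.toSphere)) ≤ M := by
  set K := exp |(d + 1) / 2 - Module.finrank ℝ E| with hK
  set Ψ : E → ℝ := fun y => K * (ball (0 : E) 4).indicator (fun y => ‖y‖ ^ (-(d + 1))) y with hΨ
  have m0 : Measurable fun y : E => ‖y‖ ^ (-(d + 1)) := measurable_norm.pow_const _
  have mΨ : Measurable Ψ := (m0.indicator measurableSet_ball).const_mul K
  have iΨ : Integrable (fun y => c * Ψ y) ν := by
    refine (((integrable_indicator_iff measurableSet_ball).2 ?_).const_mul K).const_mul c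
    refine integrableOn_ball_of_norm_le_rpow (C := 1) (α := d + 1) Module.finrank_pos
      (by linarith) (ae_of_all _ fun y => ?_) m0.aestronglyMeasurable
    rw [one_mul, norm_of_nonneg (by positivity)]
  refine ⟨∫⁻ y, ENNReal.ofReal (c * Ψ y) ∂ν, iΨ.lintegral_lt_top.ne, fun θ => ?_⟩
  rw [← lintegral_sub_right_eq_self (fun y => ENNReal.ofReal (c * Ψ y)) (θ : E),
    polar_c ν hc (Φ := fun y => Ψ (y - θ)) (mΨ.comp (measurable_id.sub_const _))]
  refine lintegral_mono fun z => ENNReal.ofReal_le_ofReal ?_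
  have hθ : pol ((0 : ℝ), θ) = (θ : E) := by simp [pol]
  unfold Nk
  split_ifs with h
  · have hb : pol z - θ ∈ ball (0 : E) 4 := by
      rw [mem_ball_zero_iff]
      have a1 := norm_sub_le (pol z) (θ : E)
      rw [norm_pol, norm_eq_of_mem_sphere] at a1
      have a2 : exp z.1 ≤ exp 1 := exp_le_exp.2 ((le_abs_self _).trans h)
      linarith [exp_one_lt_d9]
    have a3 := dist_pol z ((0 : ℝ), θ) (d + 1)
    rw [hθ] at a3
    simp only [hΨ, indicator_of_mem hb, a3, add_zero, sub_zero, G1]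
    rw [real_inner_comm, ← mul_assoc, ← mul_assoc, hK, ← exp_add, ← exp_add]
    refine le_mul_of_one_le_left (rpow_nonneg (W_nonneg (abs_inner_le _ _)) _) (one_le_exp ?_)
    have a4 : |((d + 1) / 2 - Module.finrank ℝ E) * z.1| ≤ |(d + 1) / 2 - Module.finrank ℝ E| := by
      rw [abs_mul]; exact mul_le_of_le_one_right (abs_nonneg _) h
    linarith [le_abs_self (((d + 1) / 2 - Module.finrank ℝ E) * z.1)]
  · refine mul_nonneg (exp_pos _).le (mul_nonneg (exp_pos _).le ?_)
    exact indicator_nonneg (fun _ _ => by positivity) _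

lemma exists_geo {c d : ℝ} (hc : 0 < c) (hd0 : 0 < d) (hd : d + 2 = Module.finrank ℝ E) :
    ∃ g : Geo (sphere (0 : E) 1), g.σ = ENNReal.ofReal c • ν.toSphere ∧ g.d = d ∧
      ∀ a b, g.c a b = inner ℝ (a : E) (b : E) := by
  obtain ⟨M, hM, h⟩ := Nk_bound ν hc hd
  have mi : Measurable fun z : sphere (0 : E) 1 × sphere (0 : E) 1 =>
      inner ℝ (z.1 : E) (z.2 : E) :=
    ((continuous_subtype_val.comp continuous_fst).inner
      (continuous_subtype_val.comp continuous_snd)).measurable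
  have key : ∀ θ : sphere (0 : E) 1, _ := fun θ => of_lint
    (F := fun y : ℝ × sphere (0 : E) 1 => Nk d y.1 (inner ℝ (θ : E) (y.2 : E)))
    (Measurable.ite (measurableSet_le measurable_fst.abs measurable_const)
      (measurable_G1 measurable_fst (mi.comp (measurable_const.prodMk measurable_snd)))
      measurable_const) (fun y => Nk_nonneg (abs_inner_le _ _)) (ne_top_of_le_ne_top hM (h θ))
  refine ⟨⟨ENNReal.ofReal c • ν.toSphere, Measure.smul_finite _ ENNReal.ofReal_ne_top, ?_,
    fun a b => inner ℝ (a : E) (b : E), mi, fun a b => real_inner_comm _ _, abs_inner_le, d, hd0,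
    M.toReal, fun θ => (key θ).1, fun θ => ?_⟩, rfl, rfl, fun _ _ => rfl⟩
  · rw [Ne, ← Measure.measure_univ_eq_zero, Measure.smul_apply, smul_eq_mul]
    exact mul_ne_zero (by simpa using hc)
      (Measure.measure_univ_ne_zero.2 ν.toSphere_ne_zero)
  · rw [(key θ).2]; exact ENNReal.toReal_mono hM (h θ)

end Vale.Agent.P100
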