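import Mathlib

/-! Green's identity and the weak form of `-Δ u = f ≥ 0` across a point singularity. -/

namespace Vale.Agent.P100

open MeasureTheory Set Laplacian Filter Topology Metric

noncomputable section

abbrev Euc (n : ℕ) := EuclideanSpace ℝ (Fin n)

variable {n : ℕ}

/-- directional derivative -/
def dirD (v : Euc n) (g : Euc n → ℝ) : Euc n → ℝ := fun y => fderiv ℝ g y v

/-- coordinate Laplacian -/
def lap (g : Euc n → ℝ) : Euc n → ℝ := fun y =>
  ∑ i, dirD (EuclideanSpace.basisFun (Fin n) ℝ i) (dirD (EuclideanSpace.basisFun (Fin n) ℝ i) g) y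

lemma lap_eq {g : Euc n → ℝ} {x : Euc n} (hg : ContDiffAt ℝ 2 g x) : (Δ g) x = lap g x := by
  rw [InnerProductSpace.laplacian_eq_iteratedFDeriv_orthonormalBasis g
    (EuclideanSpace.basisFun (Fin n) ℝ)]
  refine Finset.sum_congr rfl fun i _ => ?_
  have h1 : DifferentiableAt ℝ (fderiv ℝ g) x :=
    (hg.fderiv_right (m := 1) (by norm_num)).differentiableAt (by norm_num)
  rw [iteratedFDeriv_two_apply]
  unfold dirD
  rw [fderiv_clm_apply h1 (differentiableAt_const _)]
  simp

lemma dirD_contDiffOn {m : ℕ} {U : Set (Euc n)} (hU : IsOpen U) {g : Euc n → ℝ} (v : Euc n)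
    (hg : ContDiffOn ℝ (m + 1 : ℕ) g U) : ContDiffOn ℝ m (dirD v g) U :=
  (hg.fderiv_of_isOpen hU (by norm_cast)).clm_apply contDiffOn_const

lemma dirD_contDiff {m : ℕ} {g : Euc n → ℝ} (v : Euc n)
    (hg : ContDiff ℝ (m + 1 : ℕ) g) : ContDiff ℝ m (dirD v g) :=
  contDiffOn_univ.mp (dirD_contDiffOn isOpen_univ v hg.contDiffOn)

lemma tsupport_dirD (v : Euc n) (g : Euc n → ℝ) : tsupport (dirD v g) ⊆ tsupport g :=
  tsupport_fderiv_apply_subset ℝ v

lemma compact_dirD (v : Euc n) {g : Euc n → ℝ} (h : HasCompactSupport g) :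
    HasCompactSupport (dirD v g) :=
  h.of_isClosed_subset (isClosed_tsupport _) (tsupport_dirD v g)

lemma lap_eq_zero {g : Euc n → ℝ} {y : Euc n} (hy : y ∉ tsupport g) : lap g y = 0 :=
  Finset.sum_eq_zero fun _ _ => image_eq_zero_of_notMem_tsupport fun h =>
    hy (tsupport_dirD _ _ (tsupport_dirD _ _ h))

lemma lap_continuousOn {U : Set (Euc n)} (hU : IsOpen U) {g : Euc n → ℝ}
    (hg : ContDiffOn ℝ 2 g U) : ContinuousOn (lap g) U :=
  continuousOn_finsetSum _ fun _ _ =>
    (dirD_contDiffOn (m := 0) hU _ (dirD_contDiffOn (m := 1) hU _ hg)).continuousOn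

lemma integrable_mul_of {U : Set (Euc n)} (hU : IsOpen U) {T h : Euc n → ℝ} (hT : Continuous T)
    (hc : HasCompactSupport T) (hs : tsupport T ⊆ U) (hh : ContinuousOn h U) :
    Integrable fun y => T y * h y := by
  refine Continuous.integrable_of_hasCompactSupport ?_ hc.mul_right
  exact (hT.continuousOn.mul hh).continuous_of_tsupport_subset hU
    ((tsupport_mul_subset_left).trans hs)

lemma ibp {U : Set (Euc n)} (hU : IsOpen U) {T g : Euc n → ℝ} (v : Euc n) (hT : ContDiff ℝ 1 T)
    (hc : HasCompactSupport T) (hs : tsupport T ⊆ U) (hg : ContDiffOn ℝ 1 g U) :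
    ∫ y, T y * dirD v g y = - ∫ y, dirD v T y * g y := by
  refine integral_mul_fderiv_eq_neg_fderiv_mul_of_integrable ?_ ?_ ?_ ?_ ?_
  · exact integrable_mul_of hU (dirD_contDiff (m := 0) v hT).continuous (compact_dirD v hc)
      ((tsupport_dirD v T).trans hs) hg.continuousOn
  · exact integrable_mul_of hU hT.continuous hc hs
      (dirD_contDiffOn (m := 0) hU v hg).continuousOn
  · exact integrable_mul_of hU hT.continuous hc hs hg.continuousOn
  · exact fun x _ => hT.differentiable (by norm_num) x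
  · exact fun x hx => (hg.contDiffAt (hU.mem_nhds (hs hx))).differentiableAt (by norm_num)

lemma green {U : Set (Euc n)} (hU : IsOpen U) {T g : Euc n → ℝ} (hT : ContDiff ℝ 2 T)
    (hc : HasCompactSupport T) (hs : tsupport T ⊆ U) (hg : ContDiffOn ℝ 2 g U) :
    ∫ y, T y * lap g y = ∫ y, lap T y * g y := by
  unfold lap
  simp only [Finset.mul_sum, Finset.sum_mul]
  rw [integral_finsetSum, integral_finsetSum]
  · refine Finset.sum_congr rfl fun i _ => ?_
    rw [ibp hU _ (hT.of_le (by norm_num)) hc hs (dirD_contDiffOn (m := 1) hU _ hg),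
      ibp hU _ (dirD_contDiff (m := 1) _ hT) (compact_dirD _ hc) ((tsupport_dirD _ T).trans hs)
        (hg.of_le (by norm_num)), neg_neg]
  · intro i _
    exact integrable_mul_of hU (dirD_contDiff (m := 0) _ (dirD_contDiff (m := 1) _ hT)).continuous
      (compact_dirD _ (compact_dirD _ hc))
      ((tsupport_dirD _ _).trans ((tsupport_dirD _ T).trans hs)) hg.continuousOn
  · intro i _
    exact integrable_mul_of hU hT.continuous hc hs
      (dirD_contDiffOn (m := 0) hU _ (dirD_contDiffOn (m := 1) hU _ hg)).continuousOn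

lemma dirD_comp_smul (v : Euc n) (g : Euc n → ℝ) (c : ℝ) :
    dirD v (fun y => g (c • y)) = fun y => c * dirD v g (c • y) := by
  funext y
  unfold dirD
  rw [fderiv_comp_smul]
  simp

lemma lap_comp_smul {g : Euc n → ℝ} (hg : ContDiff ℝ 2 g) (c : ℝ) (y : Euc n) :
    lap (fun y => g (c • y)) y = c ^ 2 * lap g (c • y) := by
  unfold lap
  rw [Finset.mul_sum]
  refine Finset.sum_congr rfl fun i _ => ?_
  rw [dirD_comp_smul]
  set v := EuclideanSpace.basisFun (Fin n) ℝ i
  have h1 : Differentiable ℝ (dirD v g) :=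
    (dirD_contDiff (m := 1) v hg).differentiable (by norm_num)
  have h2 : DifferentiableAt ℝ (fun y => dirD v g (c • y)) y :=
    (h1 _).comp y (by fun_prop)
  have h3 := congrFun (dirD_comp_smul v (dirD v g) c) y
  have h4 : dirD v (fun y => c * dirD v g (c • y)) y
      = c * dirD v (fun y => dirD v g (c • y)) y := by
    show fderiv ℝ (fun y => c * dirD v g (c • y)) y v = _
    rw [fderiv_const_mul h2]
    rfl
  rw [h4, h3]
  ring

lemma dirD_param {m : ℕ} {S : ℝ → Euc n → ℝ} (v : Euc n)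
    (hS : ContDiff ℝ (m + 1 : ℕ) (Function.uncurry S)) :
    ContDiff ℝ m (Function.uncurry fun δ => dirD v (S δ)) := by
  have h : ContDiff ℝ (m + 1 : ℕ)
      (Function.uncurry fun (p : ℝ × Euc n) (w : Euc n) => S p.1 w) :=
    hS.comp (contDiff_fst.fst.prodMk contDiff_snd)
  exact ContDiff.fderiv_apply h contDiff_snd contDiff_const (by norm_cast)

lemma lap_param {S : ℝ → Euc n → ℝ} (hS : ContDiff ℝ 2 (Function.uncurry S)) :
    Continuous fun p : ℝ × Euc n => lap (S p.1) p.2 :=
  continuous_finsetSum _ fun _ _ =>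
    (dirD_param (m := 0) _ (dirD_param (m := 1) _ hS)).continuous

lemma lap_sub {f g : Euc n → ℝ} (hf : ContDiff ℝ 2 f) (hg : ContDiff ℝ 2 g) (y : Euc n) :
    lap (fun y => f y - g y) y = lap f y - lap g y := by
  rw [← lap_eq hf.contDiffAt, ← lap_eq hg.contDiffAt, ← lap_eq (hf.sub hg).contDiffAt]
  exact hf.contDiffAt.laplacian_sub hg.contDiffAt

/-- The cut-off error tends to zero in dimension at least two. -/
lemma cutoff_error (hn : 2 ≤ n) (χ : ContDiffBump (0 : Euc n)) {T v : Euc n → ℝ}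
    (hT : ContDiff ℝ 2 T) (hv : Continuous v) (hv0 : v 0 = 0) :
    Tendsto (fun k : ℕ => ∫ y, lap (fun y => χ (((k : ℝ) + 1) • y) * T y) y * v y) atTop
      (𝓝 0) := by
  let S : ℝ → Euc n → ℝ := fun δ w => χ w * T (δ • w)
  have hS : ContDiff ℝ 2 (Function.uncurry S) :=
    (χ.contDiff.comp contDiff_snd).mul (hT.comp (contDiff_fst.smul contDiff_snd))
  have hS' : ∀ δ, ContDiff ℝ 2 (S δ) := fun δ =>
    χ.contDiff.mul (hT.comp (contDiff_const_smul δ))
  let H : ℝ → ℝ := fun δ => ∫ w in closedBall 0 χ.rOut, lap (S δ) w * v (δ • w)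
  have hH : Continuous H :=
    continuous_parametric_integral_of_continuous
      ((lap_param hS).mul (hv.comp (continuous_fst.smul continuous_snd)))
      (isCompact_closedBall _ _)
  have hlim : Tendsto (fun k : ℕ => (1 / ((k : ℝ) + 1)) ^ (n - 2) * H (1 / ((k : ℝ) + 1))) atTop
      (𝓝 (0 ^ (n - 2) * H 0)) :=
    ((continuous_pow (n - 2)).mul hH).continuousAt.tendsto.comp
      tendsto_one_div_add_atTop_nhds_zero_nat
  have hH0 : H 0 = 0 := by simp [H, hv0]
  rw [hH0, mul_zero] at hlim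
  refine hlim.congr fun k => ?_
  set c : ℝ := (k : ℝ) + 1 with hc
  have hc0 : 0 < c := by positivity
  have h1 : (fun y => χ (c • y) * T y) = fun y => S (1 / c) (c • y) := by
    funext y
    simp [S, smul_smul, hc0.ne']
  have h2 : H (1 / c) = ∫ w, lap (S (1 / c)) w * v ((1 / c) • w) := by
    refine setIntegral_eq_integral_of_forall_compl_eq_zero fun w hw => ?_
    rw [lap_eq_zero, zero_mul]
    exact fun h => hw (χ.tsupport_eq ▸ tsupport_mul_subset_left h)
  have h3 := Measure.integral_comp_smul volume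
    (fun w => lap (S (1 / c)) w * v ((1 / c) • w)) c
  rw [h1, h2]
  simp only [lap_comp_smul (hS' _), mul_assoc]
  rw [integral_const_mul]
  simp only [smul_smul, one_div_mul_cancel hc0.ne', one_smul, finrank_euclideanSpace_fin,
    smul_eq_mul] at h3
  rw [h3, abs_of_pos (by positivity), ← mul_assoc]
  congr 1
  obtain ⟨m, rfl⟩ := Nat.exists_eq_add_of_le' hn
  rw [Nat.add_sub_cancel, one_div, inv_pow, pow_add]
  field_simp

lemma lap_continuous {T : Euc n → ℝ} (hT : ContDiff ℝ 2 T) : Continuous (lap T) :=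
  continuousOn_univ.mp (lap_continuousOn isOpen_univ hT.contDiffOn)

lemma lap_integrable {T u : Euc n → ℝ} (hT : ContDiff ℝ 2 T) (hc : HasCompactSupport T)
    (hu : Continuous u) : Integrable fun y => lap T y * u y :=
  ((lap_continuous hT).mul hu).integrable_of_hasCompactSupport
    (HasCompactSupport.intro hc fun _ hy => lap_eq_zero hy).mul_right

lemma lap_sub_const {T u : Euc n → ℝ} (hT : ContDiff ℝ 2 T) (hc : HasCompactSupport T)
    (hu : Continuous u) (a : ℝ) : ∫ y, lap T y * (u y - a) = ∫ y, lap T y * u y := by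
  have h1 := green isOpen_univ hT hc (subset_univ _) (g := fun _ => a) contDiffOn_const
  have h2 : ∀ y, lap (fun _ : Euc n => a) y = 0 := fun y => by
    rw [← lap_eq contDiffAt_const]; simp
  simp only [h2, mul_zero, integral_zero] at h1
  simp only [mul_sub]
  rw [integral_sub (lap_integrable hT hc hu) (lap_integrable hT hc continuous_const), ← h1,
    sub_zero]

lemma ae_ne_pt (hn : 2 ≤ n) (x : Euc n) : ∀ᵐ y : Euc n, y ≠ x := by
  have : Nontrivial (Euc n) := by
    apply Module.nontrivial_of_finrank_pos (R := ℝ)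
    rw [finrank_euclideanSpace_fin]; omega
  exact compl_mem_ae_iff.mpr (measure_singleton x)

lemma weak_form0 (hn : 2 ≤ n) {v T : Euc n → ℝ} (hv : Continuous v) (hv2 : ContDiffOn ℝ 2 v {0}ᶜ)
    (hv0 : v 0 = 0) (hf : ∀ x, x ≠ 0 → 0 ≤ -lap v x) (hT : ContDiff ℝ 2 T)
    (hc : HasCompactSupport T) (hT0 : ∀ y, 0 ≤ T y) :
    0 ≤ -∫ y, lap T y * v y ∧
      ∫⁻ y, ENNReal.ofReal (T y * -lap v y) = ENNReal.ofReal (-∫ y, lap T y * v y) := by
  obtain ⟨χ, hχ⟩ : ∃ χ : ContDiffBump (0 : Euc n), χ.rOut = 2 := ⟨⟨1, 2, one_pos, one_lt_two⟩, rfl⟩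
  have hU : IsOpen ({0}ᶜ : Set (Euc n)) := isOpen_compl_singleton
  obtain ⟨R, hRd⟩ : ∃ R : ℕ → Euc n → ℝ, R = fun (k : ℕ) y => χ (((k : ℝ) + 1) • y) * T y :=
    ⟨_, rfl⟩
  have hR : ∀ k, ContDiff ℝ 2 (R k) := fun k => by
    rw [hRd]; exact (χ.contDiff.comp (contDiff_const_smul _)).mul hT
  have hRc : ∀ k, HasCompactSupport (R k) := fun k => by
    rw [hRd]; exact hc.mul_left
  have hTk : ∀ k, ContDiff ℝ 2 fun y => T y - R k y := fun k => hT.sub (hR k)
  have hTkc : ∀ k, HasCompactSupport fun y => T y - R k y := fun k => hc.sub (hRc k)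
  have hTks : ∀ k, tsupport (fun y => T y - R k y) ⊆ {0}ᶜ := fun k => by
    rw [subset_compl_singleton_iff, notMem_tsupport_iff_eventuallyEq]
    have h1 : Tendsto (fun y : Euc n => ((k : ℝ) + 1) • y) (𝓝 0) (𝓝 0) := by
      have : Continuous fun y : Euc n => ((k : ℝ) + 1) • y := by fun_prop
      simpa using this.tendsto 0
    filter_upwards [h1.eventually χ.eventuallyEq_one] with y hy
    simp only [Pi.one_apply] at hy
    simp [hRd, hy]
  have hTk0 : ∀ k y, 0 ≤ T y - R k y := fun k y => by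
    have := χ.le_one (x := ((k : ℝ) + 1) • y)
    have := hT0 y
    simp only [hRd]; nlinarith
  have hTkle : ∀ k y, T y - R k y ≤ T y := fun k y => by
    have := mul_nonneg (χ.nonneg (x := ((k : ℝ) + 1) • y)) (hT0 y)
    simp only [hRd]; linarith
  have hae := ae_ne_pt hn 0
  have hint : ∀ k, Integrable fun y => (T y - R k y) * -lap v y := fun k =>
    integrable_mul_of hU (hTk k).continuous (hTkc k) (hTks k) (lap_continuousOn hU hv2).neg
  have hnn : ∀ k, 0 ≤ᵐ[volume] fun y => (T y - R k y) * -lap v y := fun k => by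
    filter_upwards [hae] with y hy
    exact mul_nonneg (hTk0 k y) (hf y hy)
  have ha : Tendsto (fun k => ∫ y, (T y - R k y) * -lap v y) atTop
      (𝓝 (-∫ y, lap T y * v y)) := by
    have h1 := (cutoff_error hn χ hT hv hv0).const_sub (∫ y, lap T y * v y)
    rw [sub_zero] at h1
    refine h1.neg.congr fun k => ?_
    simp only [mul_neg, integral_neg]
    rw [green hU (hTk k) (hTkc k) (hTks k) hv2]
    simp only [lap_sub hT (hR k), sub_mul]
    rw [integral_sub (lap_integrable hT hc hv) (lap_integrable (hR k) (hRc k) hv), hRd]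
  have ha' : Tendsto (fun k => ∫⁻ y, ENNReal.ofReal ((T y - R k y) * -lap v y)) atTop
      (𝓝 (ENNReal.ofReal (-∫ y, lap T y * v y))) :=
    (ENNReal.tendsto_ofReal ha).congr fun k => ofReal_integral_eq_lintegral_ofReal (hint k) (hnn k)
  refine ⟨ge_of_tendsto' ha fun k => integral_nonneg_of_ae (hnn k), le_antisymm ?_ ?_⟩
  · rw [← ha'.liminf_eq]
    refine le_trans (le_of_eq (lintegral_congr_ae ?_))
      (lintegral_liminf_le' fun k => (hint k).aemeasurable.ennreal_ofReal)
    filter_upwards [hae] with y hy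
    refine (Tendsto.liminf_eq (tendsto_const_nhds.congr' ?_)).symm
    have hy' : 0 < ‖y‖ := norm_pos_iff.mpr hy
    filter_upwards [tendsto_natCast_atTop_atTop.eventually_ge_atTop (2 / ‖y‖)] with k hk
    have h1 : χ (((k : ℝ) + 1) • y) = 0 := by
      apply χ.zero_of_le_dist
      rw [dist_zero_right, norm_smul, Real.norm_of_nonneg (by positivity), hχ]
      rw [div_le_iff₀ hy'] at hk
      nlinarith
    simp [hRd, h1]
  · refine le_of_tendsto' ha' fun k => lintegral_mono_ae ?_
    filter_upwards [hae] with y hy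
    exact ENNReal.ofReal_le_ofReal (mul_le_mul_of_nonneg_right (hTkle k y) (hf y hy))

/-- Weak form of the equation for a nonnegative test function. -/
lemma weak_form (hn : 2 ≤ n) {u T : Euc n → ℝ} (hu : Continuous u) (hu2 : ContDiffOn ℝ 2 u {0}ᶜ)
    (hf : ∀ x, x ≠ 0 → 0 ≤ -(Δ u) x) (hT : ContDiff ℝ 2 T) (hc : HasCompactSupport T)
    (hT0 : ∀ y, 0 ≤ T y) :
    0 ≤ -∫ y, lap T y * u y ∧
      ∫⁻ y, ENNReal.ofReal (T y * -(Δ u) y) = ENNReal.ofReal (-∫ y, lap T y * u y) := by
  have hv2 : ContDiffOn ℝ 2 (fun y => u y - u 0) {0}ᶜ := hu2.sub contDiffOn_const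
  have hU : IsOpen ({0}ᶜ : Set (Euc n)) := isOpen_compl_singleton
  have hlv : ∀ y, y ≠ 0 → lap (fun y => u y - u 0) y = (Δ u) y := fun y hy => by
    rw [← lap_eq (hv2.contDiffAt (hU.mem_nhds hy))]
    refine ((hu2.contDiffAt (hU.mem_nhds hy)).laplacian_sub
      (contDiffAt_const (c := u 0))).trans ?_
    simp
  have h := weak_form0 hn (v := fun y => u y - u 0) (hu.sub continuous_const) hv2 (sub_self _)
    (fun x hx => hlv x hx ▸ hf x hx) hT hc hT0
  rw [lap_sub_const hT hc hu] at h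
  refine ⟨h.1, Eq.trans (lintegral_congr_ae ?_) h.2⟩
  filter_upwards [ae_ne_pt hn 0] with y hy
  rw [hlv y hy]

end

end Vale.Agent.P100
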