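import Vale.Agent.P100.ReprGreen

/-! Radial test functions for the Riesz representation. -/

namespace Vale.Agent.P100

open MeasureTheory Set Laplacian Filter Topology Metric Real
open scoped InnerProductSpace

noncomputable section

variable {n : ℕ}

/-- radial profile -/
def prof (s : ℝ) : ℝ := expNegInvGlue (1 - s)

/-- averaging profile -/
def psi (s : ℝ) : ℝ := -2 * deriv prof s

lemma prof_contDiff {m : ℕ∞} : ContDiff ℝ m prof :=
  expNegInvGlue.contDiff.comp (contDiff_const.sub contDiff_id)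

lemma prof_nonneg (s : ℝ) : 0 ≤ prof s := expNegInvGlue.nonneg _

lemma prof_zero {s : ℝ} (hs : 1 ≤ s) : prof s = 0 := expNegInvGlue.zero_of_nonpos (by linarith)

lemma prof_pos {s : ℝ} (hs : s < 1) : 0 < prof s := expNegInvGlue.pos_of_pos (by linarith)

lemma prof_anti : Antitone prof := fun _ _ h => expNegInvGlue.monotone (by linarith)

lemma dprof_contDiff : ContDiff ℝ 1 (deriv prof) :=
  (contDiff_succ_iff_deriv.mp (prof_contDiff (m := 2) : ContDiff ℝ (1 + 1) prof)).2.2

lemma psi_continuous : Continuous psi := continuous_const.mul dprof_contDiff.continuous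

lemma psi_zero {s : ℝ} (hs : 1 ≤ s) : psi s = 0 := by
  have : IsLocalMin prof s := Eventually.of_forall fun y => by
    rw [prof_zero hs]; exact prof_nonneg y
  simp [psi, this.deriv_eq_zero]

lemma psi_pos {s : ℝ} (hs : s < 1) : 0 < psi s := by
  have h1 : prof =ᶠ[𝓝 s] fun t => exp (-(1 - t)⁻¹) := by
    filter_upwards [Iio_mem_nhds hs] with t ht
    have : ¬ (1 - t ≤ 0) := by simpa using ht
    simp [prof, expNegInvGlue, this]
  have h0 : (1 - s) ≠ 0 := by linarith
  have h2 := ((((hasDerivAt_id' s).const_sub 1).inv h0).neg).exp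
  have h3 : deriv prof s = _ := h1.deriv_eq.trans h2.deriv
  have h4 : 0 < 1 - s := by linarith
  rw [psi, h3]
  simp only [neg_neg, mul_neg, neg_mul]
  positivity

lemma psi_nonneg (s : ℝ) : 0 ≤ psi s := by
  rcases lt_or_ge s 1 with h | h
  · exact (psi_pos h).le
  · exact (psi_zero h).ge

lemma psi_bounds : ∃ M m : ℝ, 0 < M ∧ 0 < m ∧ (∀ s, 0 ≤ s → psi s ≤ M) ∧
    ∀ s, 0 ≤ s → s ≤ 1 / 2 → m ≤ psi s := by
  obtain ⟨a, -, ha⟩ := (isCompact_Icc (a := (0 : ℝ)) (b := 1)).exists_isMaxOn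
    ⟨0, by simp⟩ psi_continuous.continuousOn
  obtain ⟨b, hb', hb⟩ := (isCompact_Icc (a := (0 : ℝ)) (b := 1 / 2)).exists_isMinOn
    ⟨0, by simp⟩ psi_continuous.continuousOn
  refine ⟨psi a + 1, psi b, by linarith [psi_nonneg a], psi_pos (by linarith [hb'.2]),
    fun s hs => ?_, fun s h1 h2 => hb ⟨h1, h2⟩⟩
  rcases le_total s 1 with h | h
  · have : psi s ≤ psi a := ha ⟨hs, h⟩
    linarith
  · rw [psi_zero h]; linarith [psi_nonneg a]

lemma dirD_radial {φ : ℝ → ℝ} (hφ : Differentiable ℝ φ) (x v : Euc n) (b : ℝ) :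
    dirD v (fun z => φ (‖z - x‖ ^ 2 * b)) =
      fun z => deriv φ (‖z - x‖ ^ 2 * b) * (2 * ⟪z - x, v⟫_ℝ * b) := by
  funext z
  have h1 := (((hasFDerivAt_id z).sub_const x).norm_sq).mul_const b
  have h2 := (hφ (‖z - x‖ ^ 2 * b)).hasDerivAt.comp_hasFDerivAt z h1
  have h3 : fderiv ℝ (fun z => φ (‖z - x‖ ^ 2 * b)) z = _ := h2.fderiv
  unfold dirD
  rw [h3]
  simp only [smul_apply, ContinuousLinearMap.comp_apply, id,
    ContinuousLinearMap.id_apply, innerSL_apply_apply, smul_eq_mul, nsmul_eq_mul, Nat.cast_ofNat]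
  ring

lemma dirD_const_mul {g : Euc n → ℝ} (hg : Differentiable ℝ g) (v : Euc n) (a : ℝ) :
    dirD v (fun z => a * g z) = fun z => a * dirD v g z := by
  funext z
  unfold dirD
  rw [fderiv_const_mul (hg z)]
  rfl

lemma lap_radial (x : Euc n) (a b : ℝ) (z : Euc n) :
    lap (fun z => a * prof (‖z - x‖ ^ 2 * b)) z =
      a * (4 * ‖z - x‖ ^ 2 * b ^ 2 * deriv (deriv prof) (‖z - x‖ ^ 2 * b) +
        2 * n * b * deriv prof (‖z - x‖ ^ 2 * b)) := by
  have hp : Differentiable ℝ prof := (prof_contDiff (m := 1)).differentiable (by norm_num)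
  have hp' : Differentiable ℝ (deriv prof) := dprof_contDiff.differentiable (by norm_num)
  have hq : Differentiable ℝ fun z : Euc n => ‖z - x‖ ^ 2 * b :=
    ((differentiable_id.sub_const x).norm_sq ℝ).mul_const b
  have key : ∀ v : Euc n, dirD v (dirD v fun z => a * prof (‖z - x‖ ^ 2 * b)) z =
      a * (4 * ⟪z - x, v⟫_ℝ ^ 2 * b ^ 2 * deriv (deriv prof) (‖z - x‖ ^ 2 * b) +
        2 * ‖v‖ ^ 2 * b * deriv prof (‖z - x‖ ^ 2 * b)) := fun v => by
    have hi : HasFDerivAt (fun z : Euc n => 2 * ⟪z - x, v⟫_ℝ * b) ((2 * b) • innerSL ℝ v) z := by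
      have := (((innerSL ℝ v).hasFDerivAt (x := z)).sub_const (⟪v, x⟫_ℝ)).const_smul (2 * b)
      refine this.congr_of_eventuallyEq (Eventually.of_forall fun w => ?_)
      simp only [real_inner_comm v, inner_sub_right, Pi.smul_apply, innerSL_apply_apply, smul_eq_mul]
      ring
    have hd : Differentiable ℝ fun z : Euc n =>
        deriv prof (‖z - x‖ ^ 2 * b) * (2 * ⟪z - x, v⟫_ℝ * b) :=
      (hp'.comp hq).mul ((((differentiable_id.sub_const x).inner ℝ
        (differentiable_const v)).const_mul 2).mul_const b)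
    rw [dirD_const_mul (g := fun z => prof (‖z - x‖ ^ 2 * b)) (hp.comp hq), dirD_radial hp,
      dirD_const_mul hd]
    have h1 := congrFun (dirD_radial hp' x v b) z
    have h2 : fderiv ℝ (fun z : Euc n => deriv prof (‖z - x‖ ^ 2 * b) * (2 * ⟪z - x, v⟫_ℝ * b)) z
        = _ := (((hp'.comp hq) z).hasFDerivAt.mul hi).fderiv
    unfold dirD at h1 ⊢
    beta_reduce
    rw [h2]
    simp only [add_apply, smul_apply, innerSL_apply_apply,
      smul_eq_mul, real_inner_self_eq_norm_sq, Function.comp_def, h1]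
    ring
  unfold lap
  simp only [key, OrthonormalBasis.norm_eq_one]
  rw [← Finset.mul_sum, Finset.sum_add_distrib]
  simp only [← Finset.sum_mul, ← Finset.mul_sum, OrthonormalBasis.sum_sq_inner_left]
  simp [mul_comm (n : ℝ) 2]

/-- test function at scale `exp τ` -/
def bigT (x : Euc n) (τ : ℝ) (z : Euc n) : ℝ :=
  exp ((2 - n) * τ) * prof (‖z - x‖ ^ 2 * exp (-2 * τ))

/-- averaging kernel at scale `exp τ` -/
def avK (x : Euc n) (τ : ℝ) (z : Euc n) : ℝ :=
  exp (-n * τ) * psi (‖z - x‖ ^ 2 * exp (-2 * τ))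

lemma avK_hasDerivAt (x z : Euc n) (τ : ℝ) :
    HasDerivAt (fun τ => avK x τ z) (lap (bigT x τ) z) τ := by
  have hp' : Differentiable ℝ (deriv prof) := dprof_contDiff.differentiable (by norm_num)
  have h1 := ((hasDerivAt_id' τ).const_mul (-(n : ℝ))).exp
  have h2 := (((hasDerivAt_id' τ).const_mul (-2)).exp).const_mul (‖z - x‖ ^ 2)
  have h3 := ((hp' (‖z - x‖ ^ 2 * exp (-2 * τ))).hasDerivAt.comp τ h2).const_mul (-2)
  refine (h1.mul h3).congr_deriv ?_
  have h4 : exp (-n * τ) = exp ((2 - n) * τ) * exp (-2 * τ) := by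
    rw [← exp_add]; congr 1; ring
  unfold bigT
  rw [lap_radial, h4]
  simp only [Function.comp_def]
  ring

lemma one_le_of_not_mem {x z : Euc n} {τ σ : ℝ} (h : τ ≤ σ) (hz : z ∉ ball x (exp σ)) :
    1 ≤ ‖z - x‖ ^ 2 * exp (-2 * τ) := by
  rw [mem_ball, dist_eq_norm, not_lt] at hz
  have h1 : exp τ ≤ ‖z - x‖ := (exp_le_exp.mpr h).trans hz
  have h2 : exp τ ^ 2 * exp (-2 * τ) = 1 := by
    rw [← exp_nat_mul, ← exp_add]; simp
  rw [← h2]
  gcongr

lemma bigT_contDiff (x : Euc n) : ContDiff ℝ 2 (Function.uncurry (bigT x)) :=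
  (contDiff_const.mul contDiff_fst).exp.mul ((prof_contDiff (m := 2)).comp
    (((contDiff_snd.sub contDiff_const).norm_sq ℝ).mul (contDiff_const.mul contDiff_fst).exp))

lemma bigT_contDiff' (x : Euc n) (τ : ℝ) : ContDiff ℝ 2 (bigT x τ) :=
  (bigT_contDiff x).comp (contDiff_const.prodMk contDiff_id)

lemma bigT_tsupport (x : Euc n) {τ σ : ℝ} (h : τ ≤ σ) :
    tsupport (bigT x τ) ⊆ closedBall x (exp σ) :=
  closure_minimal (fun z hz => by
    by_contra h'
    exact hz (by rw [bigT, prof_zero (one_le_of_not_mem h fun h2 =>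
      h' (ball_subset_closedBall h2)), mul_zero])) isClosed_closedBall

lemma bigT_compact (x : Euc n) (τ : ℝ) : HasCompactSupport (bigT x τ) :=
  (isCompact_closedBall x (exp τ)).of_isClosed_subset (isClosed_tsupport _) (bigT_tsupport x le_rfl)

lemma bigT_nonneg (x : Euc n) (τ : ℝ) (z : Euc n) : 0 ≤ bigT x τ z :=
  mul_nonneg (exp_pos _).le (prof_nonneg _)

lemma avK_nonneg (x : Euc n) (τ : ℝ) (z : Euc n) : 0 ≤ avK x τ z :=
  mul_nonneg (exp_pos _).le (psi_nonneg _)

lemma avK_integrable (x : Euc n) (τ : ℝ) {u : Euc n → ℝ} (hu : Continuous u) :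
    Integrable fun z => avK x τ z * u z := by
  have h1 : Continuous (avK x τ) := continuous_const.mul (psi_continuous.comp (by fun_prop))
  refine (h1.mul hu).integrable_of_hasCompactSupport (HasCompactSupport.mul_right ?_)
  refine HasCompactSupport.intro (isCompact_closedBall x (exp τ)) fun z hz => ?_
  rw [avK, psi_zero (one_le_of_not_mem le_rfl fun h2 => hz (ball_subset_closedBall h2)), mul_zero]

/-- The averages at two scales differ by the integral of the tested Laplacian. -/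
lemma avg_sub (x : Euc n) {u : Euc n → ℝ} (hu : Continuous u) {a b : ℝ} (hab : a ≤ b) :
    IntegrableOn (fun τ => ∫ z, lap (bigT x τ) z * u z) (Ioc a b) ∧
      ∫ τ in Ioc a b, ∫ z, lap (bigT x τ) z * u z =
        (∫ z, avK x b z * u z) - ∫ z, avK x a z * u z := by
  have hc : Continuous fun p : ℝ × Euc n => lap (bigT x p.1) p.2 * u p.2 :=
    (lap_param (bigT_contDiff x)).mul (hu.comp continuous_snd)
  have hint : Integrable (Function.uncurry fun τ z => lap (bigT x τ) z * u z)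
      ((volume.restrict (Ioc a b)).prod volume) := by
    rw [Measure.restrict_prod_eq_prod_univ]
    have h1 := hc.continuousOn.integrableOn_compact (μ := volume.prod volume)
      ((isCompact_Icc (a := a) (b := b)).prod (isCompact_closedBall x (exp b)))
    refine IntegrableOn.of_forall_sdiff_eq_zero h1 (measurableSet_Ioc.prod MeasurableSet.univ) ?_
    rintro ⟨τ, z⟩ ⟨h2, h3⟩
    have h4 : z ∉ closedBall x (exp b) := fun h => h3 ⟨Ioc_subset_Icc_self h2.1, h⟩
    show lap (bigT x τ) z * u z = 0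
    rw [lap_eq_zero fun h => h4 (bigT_tsupport x h2.1.2 h), zero_mul]
  refine ⟨hint.integral_prod_left, ?_⟩
  rw [integral_integral_swap hint, ← integral_sub (avK_integrable x b hu) (avK_integrable x a hu)]
  refine integral_congr_ae (Eventually.of_forall fun z => ?_)
  simp only
  rw [← intervalIntegral.integral_of_le hab]
  exact intervalIntegral.integral_eq_sub_of_hasDerivAt
    (fun τ _ => (avK_hasDerivAt x z τ).mul_const (u z))
    ((hc.comp (continuous_id.prodMk continuous_const)).intervalIntegrable a b)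

lemma avg_eq (x : Euc n) (u : Euc n → ℝ) (τ : ℝ) :
    ∫ z, avK x τ z * u z = ∫ w in closedBall (0 : Euc n) 1, psi (‖w‖ ^ 2) * u (x + exp τ • w) := by
  rw [setIntegral_eq_integral_of_forall_compl_eq_zero fun w hw => by
    rw [mem_closedBall_zero_iff, not_le] at hw
    rw [psi_zero (by nlinarith), zero_mul]]
  have h1 := Measure.integral_comp_smul volume (fun w => avK x τ (x + w) * u (x + w)) (exp τ)
  rw [integral_add_left_eq_self (fun z => avK x τ z * u z) x, finrank_euclideanSpace_fin,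
    abs_of_pos (by positivity), smul_eq_mul] at h1
  have h2 : ∀ w : Euc n, avK x τ (x + exp τ • w) = (exp τ ^ n)⁻¹ * psi (‖w‖ ^ 2) := fun w => by
    rw [avK, add_sub_cancel_left, norm_smul, Real.norm_of_nonneg (exp_pos _).le, mul_pow,
      mul_right_comm, ← exp_nat_mul, ← exp_add, ← exp_nat_mul, ← exp_neg]
    simp
  simp only [h2, mul_assoc] at h1
  rw [integral_const_mul] at h1
  exact (mul_left_cancel₀ (by positivity) h1).symm

lemma avg_tendsto (x : Euc n) {u : Euc n → ℝ} (hu : Continuous u) :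
    Tendsto (fun τ => ∫ z, avK x τ z * u z) atBot
      (𝓝 ((∫ w in closedBall (0 : Euc n) 1, psi (‖w‖ ^ 2)) * u x)) := by
  have h1 : Continuous fun ρ : ℝ =>
      ∫ w in closedBall (0 : Euc n) 1, psi (‖w‖ ^ 2) * u (x + ρ • w) :=
    continuous_parametric_integral_of_continuous
      ((psi_continuous.comp (by fun_prop)).mul (hu.comp (by fun_prop))) (isCompact_closedBall _ _)
  have h2 := (h1.tendsto 0).comp tendsto_exp_atBot
  simp only [zero_smul, add_zero, integral_mul_const] at h2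
  exact h2.congr fun τ => (avg_eq x u τ).symm

lemma avg_const_pos : 0 < ∫ w in closedBall (0 : Euc n) 1, psi (‖w‖ ^ 2) := by
  have hc : Continuous fun w : Euc n => psi (‖w‖ ^ 2) := psi_continuous.comp (by fun_prop)
  rw [setIntegral_eq_integral_of_forall_compl_eq_zero fun w hw => by
    rw [mem_closedBall_zero_iff, not_le] at hw
    rw [psi_zero (by nlinarith)]]
  refine hc.integral_pos_of_hasCompactSupport_nonneg_nonzero (x := 0) ?_ (fun w => psi_nonneg _)
    (psi_pos (by simp)).ne'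
  refine HasCompactSupport.intro (isCompact_closedBall (0 : Euc n) 1) fun w hw => ?_
  rw [mem_closedBall_zero_iff, not_le] at hw
  exact psi_zero (by nlinarith)

lemma avK_harnack : ∃ C : ℝ, 0 < C ∧ ∀ (x y z : Euc n) (τ : ℝ), ‖x - y‖ ≤ exp τ →
    avK x τ z ≤ C * avK y (τ + 2) z := by
  obtain ⟨M, m, hM, hm, h1, h2⟩ := psi_bounds
  refine ⟨M / m * exp (2 * n), by positivity, fun x y z τ h => ?_⟩
  by_cases hz : z ∈ ball x (exp τ)
  · rw [mem_ball, dist_eq_norm] at hz
    have h3 : ‖z - y‖ ≤ 2 * exp τ := by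
      have := norm_add_le (z - x) (x - y)
      rw [sub_add_sub_cancel] at this
      linarith
    have h4 : ‖z - y‖ ^ 2 * exp (-2 * (τ + 2)) ≤ 1 / 2 := by
      have h5 : (2 * exp τ) ^ 2 * exp (-2 * (τ + 2)) = 4 * (exp 2 ^ 2)⁻¹ := by
        rw [mul_pow, mul_assoc, ← exp_nat_mul, ← exp_add, ← exp_nat_mul, ← exp_neg]
        congr 1
        · norm_num
        · congr 1; push_cast; ring
      have h6 : (3 : ℝ) ≤ exp 2 := by linarith [add_one_le_exp (2 : ℝ)]
      calc _ ≤ (2 * exp τ) ^ 2 * exp (-2 * (τ + 2)) := by gcongr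
        _ = 4 * (exp 2 ^ 2)⁻¹ := h5
        _ ≤ 4 * (3 ^ 2)⁻¹ := by gcongr
        _ ≤ 1 / 2 := by norm_num
    have h7 : exp (-n * τ) = exp (2 * n) * exp (-n * (τ + 2)) := by
      rw [← exp_add]; congr 1; ring
    calc avK x τ z ≤ exp (-n * τ) * M := mul_le_mul_of_nonneg_left (h1 _ (by positivity))
            (exp_pos _).le
      _ = M / m * exp (2 * n) * (exp (-n * (τ + 2)) * m) := by rw [h7]; field_simp
      _ ≤ _ := mul_le_mul_of_nonneg_left (mul_le_mul_of_nonneg_left (h2 _ (by positivity) h4)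
            (exp_pos _).le) (by positivity)
  · rw [avK, psi_zero (one_le_of_not_mem le_rfl hz), mul_zero]
    exact mul_nonneg (by positivity) (avK_nonneg _ _ _)

/-- total mass of the scale integral -/
def kerK (n : ℕ) : ENNReal := ∫⁻ τ : ℝ, ENNReal.ofReal (exp ((2 - n) * τ) * prof (exp (-2 * τ)))

lemma lintegral_bigT {x z : Euc n} (hz : z ≠ x) (c : ℝ) :
    ∫⁻ τ, ENNReal.ofReal (bigT x τ z * c) =
      kerK n * ENNReal.ofReal (‖x - z‖ ^ (2 - n : ℝ) * c) := by
  have h0 : 0 < ‖z - x‖ := norm_pos_iff.mpr (sub_ne_zero.mpr hz)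
  rw [kerK, ← lintegral_mul_const' _ _ ENNReal.ofReal_ne_top,
    ← lintegral_add_right_eq_self _ (log ‖z - x‖)]
  refine lintegral_congr fun τ => ?_
  rw [← ENNReal.ofReal_mul (mul_nonneg (exp_pos _).le (prof_nonneg _)), bigT, norm_sub_rev x z,
    rpow_def_of_pos h0]
  have h1 : ‖z - x‖ ^ 2 * exp (-2 * (τ + log ‖z - x‖)) = exp (-2 * τ) := by
    nth_rewrite 1 [← exp_log h0]
    rw [← exp_nat_mul, ← exp_add]; congr 1; push_cast; ring
  rw [h1, mul_add, exp_add, mul_comm (log _)]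
  congr 1
  ring

lemma kerK_lower (hn : 2 ≤ n) : ∃ c : ℝ, 0 < c ∧ ∀ τ, 1 ≤ τ → τ ≤ 2 ∨ n = 2 →
    c ≤ exp ((2 - n) * τ) * prof (exp (-2 * τ)) := by
  refine ⟨exp ((2 - n) * 2) * prof (exp (-2)), mul_pos (exp_pos _)
    (prof_pos (exp_lt_one_iff.mpr (by norm_num))), fun τ h1 h2 => ?_⟩
  have hn' : (2 : ℝ) ≤ n := by exact_mod_cast hn
  refine mul_le_mul (exp_le_exp.mpr ?_) (prof_anti (exp_le_exp.mpr (by linarith)))
    (prof_nonneg _) (exp_pos _).le
  rcases h2 with h2 | rfl
  · nlinarith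
  · simp

lemma kerK_ne_zero (hn : 2 ≤ n) : kerK n ≠ 0 := by
  obtain ⟨c, hc, h⟩ := kerK_lower hn
  have h1 : ∫⁻ _ in Icc (1 : ℝ) 2, ENNReal.ofReal c ≤ kerK n :=
    (setLIntegral_mono' measurableSet_Icc fun τ hτ =>
      ENNReal.ofReal_le_ofReal (h τ hτ.1 (Or.inl hτ.2))).trans (setLIntegral_le_lintegral _ _)
  rw [setLIntegral_const, Real.volume_Icc] at h1
  refine (lt_of_lt_of_le ?_ h1).ne'
  exact ENNReal.mul_pos (by simpa using hc) (by norm_num)

lemma kerK_two : kerK 2 = ⊤ := by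
  obtain ⟨c, hc, h⟩ := kerK_lower (le_refl 2)
  have h1 : ∫⁻ _ in Ici (1 : ℝ), ENNReal.ofReal c ≤ kerK 2 :=
    (setLIntegral_mono' measurableSet_Ici fun τ hτ =>
      ENNReal.ofReal_le_ofReal (h τ hτ (Or.inr rfl))).trans (setLIntegral_le_lintegral _ _)
  rw [setLIntegral_const, Real.volume_Ici, ENNReal.mul_top (by simpa using hc)] at h1
  exact top_le_iff.mp h1

lemma kerK_ne_top (hn : 3 ≤ n) : kerK n ≠ ⊤ := by
  have hn' : (3 : ℝ) ≤ n := by exact_mod_cast hn
  have h1 : IntegrableOn (fun τ => exp (-(n - 2 : ℝ) * τ) * prof 0) (Ioi 0) :=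
    (exp_neg_integrableOn_Ioi 0 (by linarith)).mul_const _
  refine ne_top_of_le_ne_top h1.lintegral_lt_top.ne ?_
  rw [← lintegral_indicator measurableSet_Ioi]
  refine lintegral_mono fun τ => ?_
  by_cases h : τ ∈ Ioi (0 : ℝ)
  · rw [indicator_of_mem h, neg_sub]
    exact ENNReal.ofReal_le_ofReal (mul_le_mul_of_nonneg_left (prof_anti (exp_pos _).le)
      (exp_pos _).le)
  · rw [mem_Ioi, not_lt] at h
    simp only
    rw [prof_zero (one_le_exp (by linarith))]
    simp

end

end Vale.Agent.P100
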