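import Vale.Agent.P100.Half

/-! The virial (Pohozaev) limit for pairs of potentials. -/

open Real Set MeasureTheory Filter Topology

namespace Vale.Agent.P100

lemma iadd {Z : Type*} [MeasurableSpace Z] {ν : Measure Z} {a b : Z → ℝ} (ha : Integrable a ν)
    (hb : Integrable b ν) : Integrable (fun z => a z + b z) ν := ha.add hb

lemma isub {Z : Type*} [MeasurableSpace Z] {ν : Measure Z} {a b : Z → ℝ} (ha : Integrable a ν)
    (hb : Integrable b ν) : Integrable (fun z => a z - b z) ν := ha.sub hb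

lemma int_dom {Z : Type*} [MeasurableSpace Z] {ν : Measure Z} {a b : Z → ℝ} (ha : Measurable a)
    (hb : Integrable b ν) (h : ∀ᵐ z ∂ν, 0 ≤ a z ∧ a z ≤ b z) :
    Integrable a ν ∧ ∫ z, a z ∂ν ≤ ∫ z, b z ∂ν := by
  have hi : Integrable a ν := by
    refine hb.mono' ha.aestronglyMeasurable ?_
    filter_upwards [h] with z hz
    rw [norm_of_nonneg hz.1]; exact hz.2
  exact ⟨hi, integral_mono_ae hi hb (h.mono fun z hz => hz.2)⟩

lemma quot_tendsto {d r k : ℝ} (hk : |k| ≤ 1) (hr : r ≠ 0) (s : ℝ) :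
    Tendsto (fun ε => (Gk d (r - s * ε) k - Gk d r k) / ε) (𝓝[>] 0) (𝓝 (s * Kr d r k)) := by
  have h1 : HasDerivAt (fun ε : ℝ => r - s * ε) (-s) 0 :=
    (((hasDerivAt_id' (0 : ℝ)).const_mul s).const_sub r).congr_deriv (by ring)
  have h2 : HasDerivAt (fun ε : ℝ => Gk d (r - s * ε) k) (s * Kr d r k) 0 := by
    have h3 := hasDerivAt_Gk (d := d) hk hr
    have h4 : r = r - s * 0 := by ring
    rw [h4] at h3
    refine (h3.comp (0 : ℝ) h1).congr_deriv ?_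
    rw [← h4]; ring
  have h5 := h2.tendsto_slope_zero_right
  simp only [zero_add, mul_zero, sub_zero, smul_eq_mul] at h5
  refine h5.congr fun ε => ?_
  rw [div_eq_inv_mul]

lemma quot_lower {d r k s ε : ℝ} (hd : 0 < d) (hk : |k| ≤ 1) (hr : r ≠ 0) (hs : |s| = 1)
    (hε : 0 < ε) (hr' : r - s * ε ≠ 0) :
    -(d / 2 * Gam d r k) ≤ (Gk d (r - s * ε) k - Gk d r k) / ε := by
  have h := Gk_lip hd hk hr hr'
  have e : |r - s * ε - r| = ε := by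
    rw [show r - s * ε - r = -(s * ε) by ring, abs_neg, abs_mul, hs, abs_of_pos hε, one_mul]
  rw [e] at h
  rw [le_div_iff₀ hε]
  linarith

variable {S : Type*} [MeasurableSpace S]

omit [MeasurableSpace S] in
lemma J_tendsto {x : ℝ × S} (hx : 0 < x.1) (s : ℝ) :
    Tendsto (fun ε => J (s * ε) x) (𝓝[>] 0) (𝓝 1) := by
  have h1 : Tendsto (fun ε : ℝ => s * ε) (𝓝[>] 0) (𝓝 0) := by
    have : Tendsto (fun ε : ℝ => s * ε) (𝓝 0) (𝓝 (s * 0)) :=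
      (continuous_const.mul continuous_id).tendsto 0
    rw [mul_zero] at this
    exact this.mono_left nhdsWithin_le_nhds
  refine tendsto_const_nhds.congr' ?_
  filter_upwards [h1.eventually (gt_mem_nhds hx)] with ε hε
  simp [J, hε]

namespace Geo

variable (g : Geo S)

/-- A pair of sources with bounded singular potentials. -/
structure Src (φ1 φ2 : ℝ × S → ℝ) (C : ℝ) : Prop where
  m1 : Measurable φ1
  m2 : Measurable φ2
  n1 : ∀ x, 0 < x.1 → 0 ≤ φ1 x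
  n2 : ∀ x, 0 < x.1 → 0 ≤ φ2 x
  i1 : Integrable φ1 g.m
  p1 : ∀ x, 0 < x.1 → Integrable (fun y => g.Γm x y * φ1 y) g.m ∧
    ∫ y, g.Γm x y * φ1 y ∂g.m ≤ C
  p2 : ∀ x, 0 < x.1 → Integrable (fun y => g.Γp x y * φ2 y) g.m ∧
    ∫ y, g.Γp x y * φ2 y ∂g.m ≤ C

noncomputable def pot (φ1 φ2 : ℝ × S → ℝ) (x : ℝ × S) : ℝ :=
  ∫ y, g.Gm x y * φ1 y ∂g.m + ∫ y, g.Gp x y * φ2 y ∂g.m

lemma meas_sec {k : ℝ × S → ℝ × S → ℝ} (hk : Measurable fun z : (ℝ × S) × (ℝ × S) => k z.1 z.2)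
    (x : ℝ × S) : Measurable (k x) := hk.comp (measurable_const.prodMk measurable_id)

variable {g}

lemma Src.q1 {φ1 φ2 : ℝ × S → ℝ} {C : ℝ} (h : g.Src φ1 φ2 C) (x : ℝ × S) (hx : 0 < x.1) :
    Integrable (fun y => g.Gm x y * φ1 y) g.m ∧ ∫ y, g.Gm x y * φ1 y ∂g.m ≤ C := by
  have := int_dom ((meas_sec g.meas_Gm x).mul h.m1) (h.p1 x hx).1 (by
    filter_upwards [g.ae_H] with y hy
    exact ⟨mul_nonneg (g.Gm_nonneg x y) (h.n1 y hy),
      mul_le_mul_of_nonneg_right (g.Gm_le_Γm x y) (h.n1 y hy)⟩)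
  exact ⟨this.1, this.2.trans (h.p1 x hx).2⟩

lemma Src.q2 {φ1 φ2 : ℝ × S → ℝ} {C : ℝ} (h : g.Src φ1 φ2 C) (x : ℝ × S) (hx : 0 < x.1) :
    Integrable (fun y => g.Gp x y * φ2 y) g.m ∧ ∫ y, g.Gp x y * φ2 y ∂g.m ≤ C := by
  have := int_dom ((meas_sec g.meas_Gp x).mul h.m2) (h.p2 x hx).1 (by
    filter_upwards [g.ae_H] with y hy
    exact ⟨mul_nonneg (g.Gp_nonneg x y) (h.n2 y hy),
      mul_le_mul_of_nonneg_right (g.Gp_le_Γp x y) (h.n2 y hy)⟩)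
  exact ⟨this.1, this.2.trans (h.p2 x hx).2⟩

variable (g)

noncomputable def Tm (h : ℝ) (φ ψ : ℝ × S → ℝ) (z : (ℝ × S) × (ℝ × S)) : ℝ :=
  J h z.1 * φ z.1 * ((g.Gm (shf h z.1) z.2 - g.Gm z.1 z.2) * ψ z.2)

noncomputable def Tp (h : ℝ) (φ ψ : ℝ × S → ℝ) (z : (ℝ × S) × (ℝ × S)) : ℝ :=
  J h z.1 * φ z.1 * ((g.Gp (shf h z.1) z.2 - g.Gp z.1 z.2) * ψ z.2)

variable {g}

lemma half_eq {φ ψ1 ψ2 : ℝ × S → ℝ} {C : ℝ} (hψ : g.Src ψ1 ψ2 C) (hφ : Measurable φ)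
    (hφ0 : ∀ x, 0 < x.1 → 0 ≤ φ x) (hφi : Integrable φ g.m) (h : ℝ) :
    Integrable (g.Tm h φ ψ1) (g.m.prod g.m) ∧ Integrable (g.Tp h φ ψ2) (g.m.prod g.m) ∧
    ∫ x, J h x * φ x * (g.pot ψ1 ψ2 (shf h x) - g.pot ψ1 ψ2 x) ∂g.m
      = ∫ z, g.Tm h φ ψ1 z ∂(g.m.prod g.m) + ∫ z, g.Tp h φ ψ2 z ∂(g.m.prod g.m) := by
  have hm : Measurable fun x => J h x * φ x := (measurable_J h).mul hφ
  have h0 : ∀ x, 0 < x.1 → 0 ≤ J h x * φ x := fun x hx => mul_nonneg (J_nonneg h x) (hφ0 x hx)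
  have hi : Integrable (fun x => J h x * φ x) g.m := g.integrable_J_mul hφi h
  have hs : ∀ x : ℝ × S, J h x * φ x ≠ 0 → 0 < (shf h x).1 := by
    intro x hx
    by_contra hc
    apply hx
    have : ¬ h < x.1 := by simpa [shf] using hc
    simp [J, this]
  have hk1 : Measurable fun z : (ℝ × S) × (ℝ × S) => g.Gm (shf h z.1) z.2 := by
    unfold Gm shf
    exact measurable_Gk ((measurable_fst.fst.sub_const h).sub measurable_snd.fst) g.meas_c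
  have hk3 : Measurable fun z : (ℝ × S) × (ℝ × S) => g.Gp (shf h z.1) z.2 := by
    unfold Gp shf
    exact measurable_Gk ((measurable_fst.fst.sub_const h).add measurable_snd.fst) g.meas_c
  obtain ⟨a1, b1, c1⟩ := g.pair_bdd (k := fun x y => g.Gm (shf h x) y) hm hψ.m1
    hk1 h0 hψ.n1 (fun x y _ _ => g.Gm_nonneg _ _) hi
    (fun x _ hx => hψ.q1 _ (hs x hx))
  obtain ⟨a2, b2, c2⟩ := g.pair_bdd (k := g.Gm) hm hψ.m1
    g.meas_Gm h0 hψ.n1 (fun x y _ _ => g.Gm_nonneg _ _) hi (fun x hx _ => hψ.q1 _ hx)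
  obtain ⟨a3, b3, c3⟩ := g.pair_bdd (k := fun x y => g.Gp (shf h x) y) hm hψ.m2
    hk3 h0 hψ.n2 (fun x y _ _ => g.Gp_nonneg _ _) hi
    (fun x _ hx => hψ.q2 _ (hs x hx))
  obtain ⟨a4, b4, c4⟩ := g.pair_bdd (k := g.Gp) hm hψ.m2
    g.meas_Gp h0 hψ.n2 (fun x y _ _ => g.Gp_nonneg _ _) hi (fun x hx _ => hψ.q2 _ hx)
  have e1 : g.Tm h φ ψ1 = fun z => J h z.1 * φ z.1 * (g.Gm (shf h z.1) z.2 * ψ1 z.2)
      - J h z.1 * φ z.1 * (g.Gm z.1 z.2 * ψ1 z.2) := by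
    funext z; unfold Tm; ring
  have e2 : g.Tp h φ ψ2 = fun z => J h z.1 * φ z.1 * (g.Gp (shf h z.1) z.2 * ψ2 z.2)
      - J h z.1 * φ z.1 * (g.Gp z.1 z.2 * ψ2 z.2) := by
    funext z; unfold Tp; ring
  refine ⟨by rw [e1]; exact b1.sub b2, by rw [e2]; exact b3.sub b4, ?_⟩
  rw [e1, e2, integral_sub b1 b2, integral_sub b3 b4, c1, c2, c3, c4, ← integral_sub a1 a2,
    ← integral_sub a3 a4, ← integral_add (isub a1 a2) (isub a3 a4)]
  refine integral_congr_ae (ae_of_all _ fun x => ?_)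
  simp only [pot]; ring

variable (g) in
noncomputable def cr (φ ψ : ℝ × S → ℝ) : ℝ :=
  ∫ z, φ z.1 * (g.Kp z.1 z.2 * ψ z.2) ∂(g.m.prod g.m)

lemma Src.intΓp {φ ψ1 ψ2 : ℝ × S → ℝ} {C : ℝ} (hψ : g.Src ψ1 ψ2 C) (hφ : Measurable φ)
    (hφ0 : ∀ x, 0 < x.1 → 0 ≤ φ x) (hφi : Integrable φ g.m) :
    Integrable (fun z : (ℝ × S) × (ℝ × S) => φ z.1 * (g.Γp z.1 z.2 * ψ2 z.2)) (g.m.prod g.m) :=
  (g.pair_bdd hφ hψ.m2 g.meas_Γp hφ0 hψ.n2 (fun _ _ _ _ => g.Γp_nonneg _ _) hφi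
    (fun x hx _ => hψ.p2 x hx)).2.1

lemma Src.intΓm {φ ψ1 ψ2 : ℝ × S → ℝ} {C : ℝ} (hψ : g.Src ψ1 ψ2 C) (hφ : Measurable φ)
    (hφ0 : ∀ x, 0 < x.1 → 0 ≤ φ x) (hφi : Integrable φ g.m) :
    Integrable (fun z : (ℝ × S) × (ℝ × S) => φ z.1 * (g.Γm z.1 z.2 * ψ1 z.2)) (g.m.prod g.m) :=
  (g.pair_bdd hφ hψ.m1 g.meas_Γm hφ0 hψ.n1 (fun _ _ _ _ => g.Γm_nonneg _ _) hφi
    (fun x hx _ => hψ.p1 x hx)).2.1

lemma Tp_lim {φ ψ1 ψ2 : ℝ × S → ℝ} {C : ℝ} (hψ : g.Src ψ1 ψ2 C) (hφ : Measurable φ)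
    (hφ0 : ∀ x, 0 < x.1 → 0 ≤ φ x) (hφi : Integrable φ g.m) {s : ℝ} (hs : |s| = 1) :
    ∃ L : ℝ → ℝ, Tendsto L (𝓝[>] 0) (𝓝 (s * g.cr φ ψ2)) ∧
      ∀ ε, 0 < ε → L ε ≤ (∫ z, g.Tp (s * ε) φ ψ2 z ∂(g.m.prod g.m)) / ε := by
  have hD := (hψ.intΓp hφ hφ0 hφi).const_mul (g.d / 2)
  have hm0 : Measurable fun z : (ℝ × S) × (ℝ × S) => s * (φ z.1 * (g.Kp z.1 z.2 * ψ2 z.2)) :=
    ((hφ.comp measurable_fst).mul (g.meas_Kp.mul (hψ.m2.comp measurable_snd))).const_mul s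
  obtain ⟨L, hL1, hL2⟩ := fatou_lim (F := fun ε z => g.Tp (s * ε) φ ψ2 z / ε) hD
    (fun ε _ => (half_eq hψ hφ hφ0 hφi (s * ε)).2.1.div_const ε) hm0.aestronglyMeasurable
    (by
      intro ε hε
      filter_upwards [g.ae_HH] with z hz
      have a1 := hφ0 _ hz.1
      have a2 := hψ.n2 _ hz.2
      have a3 := g.Γp_nonneg z.1 z.2
      have hd := g.hd
      by_cases hJ : s * ε < z.1.1
      · have hq := quot_lower (r := z.1.1 + z.2.1) hd (g.le1 z.1.2 z.2.2)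
          (by linarith [hz.1, hz.2]) hs hε (by linarith [hz.2])
        have e : g.Tp (s * ε) φ ψ2 z / ε = φ z.1 * ψ2 z.2 *
            ((Gk g.d (z.1.1 + z.2.1 - s * ε) (g.c z.1.2 z.2.2)
              - Gk g.d (z.1.1 + z.2.1) (g.c z.1.2 z.2.2)) / ε) := by
          simp only [Tp, J, hJ, if_true, Gp, shf]
          rw [show z.1.1 - s * ε + z.2.1 = z.1.1 + z.2.1 - s * ε by ring]
          ring
        rw [e]
        have := mul_le_mul_of_nonneg_left hq (mul_nonneg a1 a2)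
        unfold Γp
        linarith
      · simp only [Tp, J, hJ, if_false, zero_mul, zero_div, Left.neg_nonpos_iff]
        positivity)
    (by
      filter_upwards [g.ae_HH] with z hz
      have a1 := hφ0 _ hz.1
      have a2 := hψ.n2 _ hz.2
      have a3 := g.Kp_nonneg z.1 z.2 hz.1 hz.2
      have a4 := g.Kp_le hz.1 hz.2
      rw [abs_mul, hs, one_mul, abs_of_nonneg (by positivity)]
      have := mul_le_mul_of_nonneg_left a4 (mul_nonneg a1 a2)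
      linarith)
    (by
      filter_upwards [g.ae_HH] with z hz
      have hq := quot_tendsto (d := g.d) (r := z.1.1 + z.2.1) (g.le1 z.1.2 z.2.2)
        (by linarith [hz.1, hz.2]) s
      have := ((J_tendsto hz.1 s).mul_const (φ z.1 * ψ2 z.2)).mul hq
      refine (this.congr fun ε => ?_).trans (le_of_eq ?_)
      · simp only [Tp, Gp, shf]
        rw [show z.1.1 - s * ε + z.2.1 = z.1.1 + z.2.1 - s * ε by ring]
        ring
      · congr 1; unfold Kp; ring)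
  refine ⟨L, ?_, fun ε hε => ?_⟩
  · rwa [integral_const_mul] at hL1
  · have := hL2 ε hε
    rwa [integral_div] at this

lemma Tm_lim {f1 f2 g1 g2 : ℝ × S → ℝ} {C C' : ℝ} (hf : g.Src f1 f2 C) (hg : g.Src g1 g2 C')
    {s : ℝ} (hs : |s| = 1) :
    ∃ L : ℝ → ℝ, Tendsto L (𝓝[>] 0) (𝓝 0) ∧
      ∀ ε, 0 < ε → L ε ≤ (∫ z, g.Tm (s * ε) f1 g1 z ∂(g.m.prod g.m)
        + ∫ z, g.Tm (s * ε) g1 f1 z ∂(g.m.prod g.m)) / ε := by
  have hD := (hg.intΓm hf.m1 hf.n1 hf.i1).const_mul g.d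
  have hA := fun ε => (half_eq hg hf.m1 hf.n1 hf.i1 (s * ε)).1
  have hB : ∀ ε, Integrable (fun z : (ℝ × S) × (ℝ × S) => g.Tm (s * ε) g1 f1 z.swap)
      (g.m.prod g.m) := fun ε => (half_eq hf hg.m1 hg.n1 hg.i1 (s * ε)).1.swap
  have e : ∀ ε (z : (ℝ × S) × (ℝ × S)),
      (g.Tm (s * ε) f1 g1 z + g.Tm (s * ε) g1 f1 z.swap) / ε = f1 z.1 * g1 z.2 *
        (J (s * ε) z.1 * ((Gk g.d (z.1.1 - z.2.1 - s * ε) (g.c z.1.2 z.2.2)
              - Gk g.d (z.1.1 - z.2.1) (g.c z.1.2 z.2.2)) / ε)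
          + J (s * ε) z.2 * ((Gk g.d (-(z.1.1 - z.2.1) - s * ε) (g.c z.1.2 z.2.2)
              - Gk g.d (-(z.1.1 - z.2.1)) (g.c z.1.2 z.2.2)) / ε)) := by
    intro ε z
    simp only [Tm, Gm, shf, Prod.fst_swap, Prod.snd_swap]
    rw [show z.1.1 - s * ε - z.2.1 = z.1.1 - z.2.1 - s * ε by ring,
      show z.2.1 - s * ε - z.1.1 = -(z.1.1 - z.2.1) - s * ε by ring,
      show z.2.1 - z.1.1 = -(z.1.1 - z.2.1) by ring, g.symm z.2.2 z.1.2]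
    ring
  obtain ⟨L, hL1, hL2⟩ := fatou_lim (F0 := fun _ => 0)
    (F := fun ε z => (g.Tm (s * ε) f1 g1 z + g.Tm (s * ε) g1 f1 z.swap) / ε) hD
    (fun ε _ => ((hA ε).add (hB ε)).div_const ε) aestronglyMeasurable_const
    (by
      intro ε hε
      filter_upwards [g.ae_HH, g.ae_ne2 0, g.ae_ne2 (s * ε), g.ae_ne2 (-(s * ε))]
        with z hz n0 n1 n2
      have a1 := hf.n1 _ hz.1
      have a2 := hg.n1 _ hz.2
      have a3 := g.Γm_nonneg z.1 z.2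
      have hd := g.hd
      have hq1 := quot_lower (r := z.1.1 - z.2.1) hd (g.le1 z.1.2 z.2.2) n0 hs hε
        (sub_ne_zero.2 n1)
      have hq2 := quot_lower (r := -(z.1.1 - z.2.1)) hd (g.le1 z.1.2 z.2.2) (neg_ne_zero.2 n0)
        hs hε (fun h => n2 (by linarith))
      rw [Gam_neg] at hq2
      rw [e]
      have j1 := J_nonneg (s * ε) z.1
      have j2 := J_nonneg (s * ε) z.2
      have j3 := J_le_one (s * ε) z.1
      have j4 := J_le_one (s * ε) z.2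
      have b1 := mul_le_mul_of_nonneg_left hq1 j1
      have b2 := mul_le_mul_of_nonneg_left hq2 j2
      unfold Γm at a3 ⊢
      set Γ := Gam g.d (z.1.1 - z.2.1) (g.c z.1.2 z.2.2)
      have b3 : 0 ≤ g.d / 2 * Γ := by positivity
      have b4 : -(g.d * Γ) ≤ J (s * ε) z.1 * -(g.d / 2 * Γ) + J (s * ε) z.2 * -(g.d / 2 * Γ) := by
        nlinarith
      have := mul_le_mul_of_nonneg_left (b4.trans (add_le_add b1 b2)) (mul_nonneg a1 a2)
      linarith)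
    (by
      filter_upwards [g.ae_HH] with z hz
      have a1 := hf.n1 _ hz.1
      have a2 := hg.n1 _ hz.2
      have a3 := g.Γm_nonneg z.1 z.2
      have hd := g.hd
      rw [abs_zero]; positivity)
    (by
      filter_upwards [g.ae_HH, g.ae_ne2 0] with z hz n0
      have hq1 := quot_tendsto (d := g.d) (g.le1 z.1.2 z.2.2) n0 s
      have hq2 := quot_tendsto (d := g.d) (g.le1 z.1.2 z.2.2) (neg_ne_zero.2 n0) s
      have := (((J_tendsto hz.1 s).mul hq1).add ((J_tendsto hz.2 s).mul hq2)).const_mul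
        (f1 z.1 * g1 z.2)
      refine (this.congr fun ε => (e ε z).symm).trans (le_of_eq ?_)
      congr 1; rw [Kr_neg]; ring)
  refine ⟨L, by simpa using hL1, fun ε hε => ?_⟩
  have := hL2 ε hε
  rwa [integral_div, integral_add (hA ε) (hB ε), integral_prod_swap] at this

/-- The virial limit. -/
theorem virial {f1 f2 g1 g2 : ℝ × S → ℝ} {C C' : ℝ} (hf : g.Src f1 f2 C) (hg : g.Src g1 g2 C')
    {s : ℝ} (hs : |s| = 1) :
    ∃ L : ℝ → ℝ, Tendsto L (𝓝[>] 0) (𝓝 (s * (g.cr f1 g2 + g.cr g1 f2))) ∧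
      ∀ ε, 0 < ε → ε * L ε ≤
        ∫ x, J (s * ε) x * f1 x * (g.pot g1 g2 (shf (s * ε) x) - g.pot g1 g2 x) ∂g.m
        + ∫ x, J (s * ε) x * g1 x * (g.pot f1 f2 (shf (s * ε) x) - g.pot f1 f2 x) ∂g.m := by
  obtain ⟨L1, a1, b1⟩ := Tm_lim hf hg hs
  obtain ⟨L2, a2, b2⟩ := Tp_lim hg hf.m1 hf.n1 hf.i1 hs
  obtain ⟨L3, a3, b3⟩ := Tp_lim hf hg.m1 hg.n1 hg.i1 hs
  refine ⟨fun ε => L1 ε + L2 ε + L3 ε, ?_, fun ε hε => ?_⟩
  · have := (a1.add a2).add a3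
    rwa [zero_add, ← mul_add] at this
  · rw [(half_eq hg hf.m1 hf.n1 hf.i1 (s * ε)).2.2, (half_eq hf hg.m1 hg.n1 hg.i1 (s * ε)).2.2]
    have c1 := b1 ε hε
    have c2 := b2 ε hε
    have c3 := b3 ε hε
    rw [le_div_iff₀ hε] at c1 c2 c3
    linarith

end Geo

end Vale.Agent.P100
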